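import Mathlib

/-! Polynomial model of sl2 lowest weight modules and invariant forms. -/

namespace Vale.Agent.P359

open MvPolynomial Finset

abbrev Pol (σ : Type) := MvPolynomial σ ℝ
abbrev Form (σ : Type) := Pol σ →ₗ[ℝ] Pol σ →ₗ[ℝ] ℝ

variable {σ : Type} [Fintype σ] [DecidableEq σ]

noncomputable def Cm (σ : Type) [Fintype σ] : Pol σ := ∑ i, X i

noncomputable def Dop (μ : σ → ℝ) (ε : ℝ) : Pol σ →ₗ[ℝ] Pol σ where
  toFun p := ∑ i, (μ i • pderiv i p - ε • (X i * pderiv i (pderiv i p)))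
  map_add' p q := by
    simp only [map_add, smul_add, mul_add, ← sum_add_distrib]
    exact sum_congr rfl fun i _ => by abel
  map_smul' c p := by
    simp only [Derivation.map_smul, RingHom.id_apply, smul_sum, smul_sub, mul_smul_comm]
    exact sum_congr rfl fun i _ => by rw [smul_comm (μ i) c, smul_comm ε c]

omit [DecidableEq σ] in
theorem Dop_apply (μ : σ → ℝ) (ε : ℝ) (p : Pol σ) :
    Dop μ ε p = ∑ i, (μ i • pderiv i p - ε • (X i * pderiv i (pderiv i p))) := rfl

/-- Symmetric invariant forms. -/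
structure Inv (μ : σ → ℝ) (ε : ℝ) (F : Form σ) : Prop where
  symm : ∀ p q, F p q = F q p
  inv : ∀ p q, F (Cm σ * p) q = F p (Dop μ ε q)

/-- Level preserving forms. -/
def Lev (F : Form σ) : Prop :=
  ∀ (p q : Pol σ) (s t : ℕ), p.IsHomogeneous s → q.IsHomogeneous t → s ≠ t → F p q = 0

def Psd (F : Form σ) : Prop := ∀ p, 0 ≤ F p p

theorem pderiv_Cm (i : σ) : pderiv i (Cm σ) = 1 := by
  unfold Cm
  rw [map_sum, sum_eq_single i]
  · simp
  · intro j _ h; simp [pderiv_X, Pi.single_apply, h]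
  · simp

theorem Cm_hom : (Cm σ).IsHomogeneous 1 :=
  IsHomogeneous.sum _ _ _ fun i _ => isHomogeneous_X ℝ i

theorem Dop_Cm_mul (μ : σ → ℝ) (ε : ℝ) (p : Pol σ) (s : ℕ) (hp : p.IsHomogeneous s) :
    Dop μ ε (Cm σ * p) = Cm σ * Dop μ ε p + ((∑ i, μ i) - 2 * s * ε) • p := by
  have h1 := hp.sum_X_mul_pderiv
  have h2 : ∀ i, μ i • pderiv i (Cm σ * p) - ε • (X i * pderiv i (pderiv i (Cm σ * p)))
      = Cm σ * (μ i • pderiv i p - ε • (X i * pderiv i (pderiv i p))) + μ i • p
        - (2 * ε) • (X i * pderiv i p) := by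
    intro i
    simp only [Derivation.leibniz, pderiv_Cm, smul_eq_mul, mul_one, map_add, smul_eq_C_mul,
      map_mul, map_ofNat]
    ring
  rw [Dop_apply, Dop_apply, sum_congr rfl fun i _ => h2 i, sum_sub_distrib, sum_add_distrib,
    ← mul_sum, ← smul_sum, h1, ← sum_smul, ← Nat.cast_smul_eq_nsmul ℝ, smul_smul, sub_smul,
    add_sub_assoc]
  congr 3; ring

theorem Dop_pow (μ : σ → ℝ) (ε : ℝ) (p : Pol σ) (s : ℕ) (hp : p.IsHomogeneous s)
    (hD : Dop μ ε p = 0) (j : ℕ) :
    Dop μ ε (Cm σ ^ (j + 1) * p)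
      = (((j : ℝ) + 1) * ((∑ i, μ i) - (2 * s + j) * ε)) • (Cm σ ^ j * p) := by
  induction j with
  | zero => simp [Dop_Cm_mul μ ε p s hp, hD]
  | succ j ih =>
    have hh : (Cm σ ^ (j + 1) * p).IsHomogeneous (j + 1 + s) := by
      have := (Cm_hom (σ := σ)).pow (j + 1)
      rw [one_mul] at this
      exact this.mul hp
    rw [pow_succ' _ (j + 1), mul_assoc, Dop_Cm_mul μ ε _ _ hh, ih, mul_smul_comm, ← mul_assoc,
      ← pow_succ', ← add_smul]
    congr 1; push_cast; ring

/-- The norm factor of the `j`-th descendant of a highest weight vector of degree `s`. -/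
noncomputable def cf (M ε : ℝ) (s j : ℕ) : ℝ := ∏ i ∈ range j, (((i : ℝ) + 1) * (M - (2 * s + i) * ε))

theorem Inv.pow_left {μ : σ → ℝ} {ε : ℝ} {F : Form σ} (hF : Inv μ ε F) (q : Pol σ) (s : ℕ)
    (hq : q.IsHomogeneous s) (hD : Dop μ ε q = 0) (k : ℕ) (p : Pol σ) :
    F (Cm σ ^ k * p) (Cm σ ^ k * q) = cf (∑ i, μ i) ε s k * F p q := by
  induction k with
  | zero => simp [cf]
  | succ k ih =>
    rw [pow_succ' _ k, mul_assoc, hF.inv, ← pow_succ', Dop_pow μ ε q s hq hD, map_smul, ih,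
      cf, cf, prod_range_succ, smul_eq_mul]
    ring

theorem Inv.pow_ne {μ : σ → ℝ} {ε : ℝ} {F : Form σ} (hF : Inv μ ε F) (p q : Pol σ) (s t : ℕ)
    (hp : p.IsHomogeneous s) (hDp : Dop μ ε p = 0)
    (hq : q.IsHomogeneous t) (hDq : Dop μ ε q = 0) (j k : ℕ) (hjk : j ≠ k) :
    F (Cm σ ^ j * p) (Cm σ ^ k * q) = 0 := by
  wlog h : k < j generalizing p q s t j k
  · rw [hF.symm]
    exact this q p t s hq hDq hp hDp k j hjk.symm (by omega)
  obtain ⟨m, rfl⟩ := Nat.exists_eq_add_of_lt h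
  rw [add_assoc, pow_add, mul_assoc, hF.pow_left q t hq hDq, pow_succ', mul_assoc, hF.inv, hDq]
  simp

omit [DecidableEq σ] in
theorem Dop_hom (μ : σ → ℝ) (ε : ℝ) (p : Pol σ) (s : ℕ) (hp : p.IsHomogeneous (s + 1)) :
    (Dop μ ε p).IsHomogeneous s := by
  rw [Dop_apply]
  refine IsHomogeneous.sum _ _ _ fun i _ => IsHomogeneous.sub ?_ ?_
  · have := hp.pderiv (i := i)
    rw [smul_eq_C_mul]
    simpa using (isHomogeneous_C σ (μ i)).mul this
  · rw [smul_eq_C_mul]
    rcases s with _ | s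
    · have h1 := hp.pderiv (i := i)
      simp only [zero_add, Nat.sub_self] at h1
      have h2 : pderiv i (pderiv i p) = 0 := by
        rw [← totalDegree_zero_iff_isHomogeneous, totalDegree_eq_zero_iff_eq_C] at h1
        rw [h1, pderiv_C]
      rw [h2]; simpa using isHomogeneous_zero σ ℝ 0
    · have h1 := (hp.pderiv (i := i)).pderiv (i := i)
      have h2 := (isHomogeneous_C σ ε).mul ((isHomogeneous_X ℝ i).mul h1)
      have e : 0 + (1 + (s + 1 + 1 - 1 - 1)) = s + 1 := by omega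
      rwa [e] at h2

theorem Inv.lev {μ : σ → ℝ} {ε : ℝ} {F : Form σ} (hF : Inv μ ε F) (hε : ε ≠ 0) : Lev F := by
  intro p q s t hp hq hst
  have key : ∀ (p q : Pol σ) (s : ℕ), p.IsHomogeneous s →
      F (Cm σ * q) (Cm σ * p) = F (Dop μ ε p) (Dop μ ε q) + ((∑ i, μ i) - 2 * s * ε) * F q p := by
    intro p q s hp
    rw [hF.inv, Dop_Cm_mul μ ε p s hp, map_add, map_smul, smul_eq_mul, hF.symm q (Cm σ * _),
      hF.inv]
  have h1 := key p q s hp
  have h2 := key q p t hq
  rw [hF.symm (Cm σ * p), hF.symm (Dop μ ε q), h1, hF.symm q p] at h2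
  have h3 : ((s : ℝ) - t) * ε * F p q = 0 := by linarith
  have h4 : (s : ℝ) - t ≠ 0 := sub_ne_zero.2 (by exact_mod_cast hst)
  rcases mul_eq_zero.1 h3 with h | h
  · exact absurd h (mul_ne_zero h4 hε)
  · exact h

/-- `∏_{t<k} (μ - t ε)`. -/
noncomputable def rr (μ ε : ℝ) (k : ℕ) : ℝ := ∏ t ∈ range k, (μ - t * ε)

/-- Squared norm of the monomial `X^k` in one variable of weight `μ`. -/
noncomputable def nn (μ ε : ℝ) (k : ℕ) : ℝ := (k.factorial : ℝ) * rr μ ε k

theorem nn_zero (μ ε : ℝ) : nn μ ε 0 = 1 := by simp [nn, rr]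

theorem nn_succ (μ ε : ℝ) (k : ℕ) : nn μ ε (k + 1) = nn μ ε k * (((k : ℝ) + 1) * (μ - k * ε)) := by
  simp only [nn, rr, prod_range_succ, Nat.factorial_succ]; push_cast; ring

theorem cf_zero_eq (M ε : ℝ) (j : ℕ) : cf M ε 0 j = nn M ε j := by
  induction j with
  | zero => simp [cf, nn_zero]
  | succ j ih => rw [nn_succ, ← ih, cf, cf, prod_range_succ]; simp

noncomputable def wt (μ : σ → ℝ) (ε : ℝ) (a : σ →₀ ℕ) : ℝ := ∏ i, nn (μ i) ε (a i)

/-- The standard invariant form. -/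
noncomputable def Nf (μ : σ → ℝ) (ε : ℝ) : Form σ :=
  (basisMonomials σ ℝ).constr ℝ fun a => wt μ ε a • lcoeff ℝ a

omit [DecidableEq σ] in
theorem Nf_monomial (μ : σ → ℝ) (ε : ℝ) (a : σ →₀ ℕ) (c : ℝ) (q : Pol σ) :
    Nf μ ε (monomial a c) q = c * (wt μ ε a * coeff a q) := by
  have h : monomial a c = c • (basisMonomials σ ℝ) a := by
    simp [smul_monomial]
  rw [h, map_smul, Nf, Module.Basis.constr_basis]
  simp

omit [Fintype σ] [DecidableEq σ] in
/-- Extensionality on monomials for expressions bilinear in two polynomials. -/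
theorem form_ext {τ : Type} (F G : Pol σ →ₗ[ℝ] Pol τ →ₗ[ℝ] ℝ)
    (h : ∀ a b, F (monomial a 1) (monomial b 1) = G (monomial a 1) (monomial b 1)) : F = G := by
  refine (basisMonomials σ ℝ).ext fun a => (basisMonomials τ ℝ).ext fun b => ?_
  simpa using h a b

omit [DecidableEq σ] in
theorem Nf_eq_sum (μ : σ → ℝ) (ε : ℝ) (p q : Pol σ) (S : Finset (σ →₀ ℕ))
    (hS : ∀ a, a ∉ S → wt μ ε a * coeff a p = 0) :
    Nf μ ε p q = ∑ a ∈ S, wt μ ε a * coeff a p * coeff a q := by
  classical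
  conv_lhs => rw [p.as_sum]
  rw [map_sum, LinearMap.sum_apply]
  simp only [Nf_monomial]
  have h1 : ∑ a ∈ p.support, coeff a p * (wt μ ε a * coeff a q)
      = ∑ a ∈ p.support ∪ S, wt μ ε a * coeff a p * coeff a q := by
    rw [← sum_subset (subset_union_left)]
    · exact sum_congr rfl fun a _ => by ring
    · intro a _ ha; rw [notMem_support_iff.1 ha]; ring
  rw [h1, ← sum_subset (subset_union_right)]
  intro a _ ha; rw [hS a ha, zero_mul]

theorem wt_add_single (μ : σ → ℝ) (ε : ℝ) (a : σ →₀ ℕ) (i : σ) :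
    wt μ ε (a + Finsupp.single i 1) = wt μ ε a * (((a i : ℝ) + 1) * (μ i - a i * ε)) := by
  unfold wt
  rw [← mul_prod_erase _ _ (mem_univ i), ← mul_prod_erase _ _ (mem_univ i)]
  have : ∏ j ∈ univ.erase i, nn (μ j) ε ((a + Finsupp.single i 1 : σ →₀ ℕ) j)
      = ∏ j ∈ univ.erase i, nn (μ j) ε (a j) :=
    prod_congr rfl fun j hj => by simp [Finsupp.single_apply, (ne_of_mem_erase hj).symm]
  rw [this]
  simp only [Finsupp.add_apply, Finsupp.single_eq_same, nn_succ]
  ring

theorem coeff_Dop (μ : σ → ℝ) (ε : ℝ) (q : Pol σ) (a : σ →₀ ℕ) :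
    coeff a (Dop μ ε q)
      = ∑ i, (((a i : ℝ) + 1) * (μ i - a i * ε)) * coeff (a + Finsupp.single i 1) q := by
  rw [Dop_apply, coeff_sum]
  refine sum_congr rfl fun i _ => ?_
  rw [coeff_sub, coeff_smul, coeff_smul, coeff_pderiv, coeff_X_mul']
  split_ifs with h
  · have h0 : a i ≠ 0 := Finsupp.mem_support_iff.1 h
    have h1 : a - Finsupp.single i 1 + Finsupp.single i 1 = a := by
      ext j; by_cases hj : i = j
      · subst hj; simp; omega
      · simp [Finsupp.single_apply, hj]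
    rw [coeff_pderiv, coeff_pderiv, h1]
    have h2 : (((a - Finsupp.single i 1 : σ →₀ ℕ) i : ℕ) : ℝ) + 1 = a i := by
      have : (a - Finsupp.single i 1 : σ →₀ ℕ) i + 1 = a i := by simp; omega
      exact_mod_cast this
    rw [h2]; simp only [smul_eq_mul]; ring
  · have h0 : a i = 0 := by simpa using h
    simp [h0, mul_comm]

theorem Nf_inv (μ : σ → ℝ) (ε : ℝ) : Inv μ ε (Nf μ ε) := by
  constructor
  · intro p q
    rw [Nf_eq_sum μ ε p q (p.support ∪ q.support), Nf_eq_sum μ ε q p (p.support ∪ q.support)]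
    · exact sum_congr rfl fun a _ => by ring
    · intro a ha; rw [notMem_support_iff.1 (fun h => ha (mem_union_right _ h)), mul_zero]
    · intro a ha; rw [notMem_support_iff.1 (fun h => ha (mem_union_left _ h)), mul_zero]
  · intro p q
    induction p using MvPolynomial.induction_on' with
    | add p1 p2 h1 h2 => simp only [mul_add, map_add, LinearMap.add_apply, h1, h2]
    | monomial a c =>
      rw [Nf_monomial, coeff_Dop, Cm, sum_mul, map_sum, LinearMap.sum_apply, mul_sum, mul_sum]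
      refine sum_congr rfl fun i _ => ?_
      rw [X, monomial_mul, one_mul, Nf_monomial, add_comm, wt_add_single]
      ring

omit [Fintype σ] [DecidableEq σ] in
theorem Psd.two_mul_le {F : Form σ} (hF : Psd F) (hs : ∀ p q, F p q = F q p) (p q : Pol σ) :
    2 * F p q ≤ F p p + F q q := by
  have := hF (p - q)
  simp only [map_sub, LinearMap.sub_apply] at this
  rw [hs q p] at this; linarith

omit [Fintype σ] [DecidableEq σ] in
theorem Psd.abs_le {F : Form σ} (hF : Psd F) (hs : ∀ p q, F p q = F q p) (p q : Pol σ) :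
    |F p q| ≤ (F p p + F q q) / 2 := by
  have h1 := hF.two_mul_le hs p q
  have h2 := hF.two_mul_le hs p (-q)
  simp only [map_neg, LinearMap.neg_apply, neg_neg] at h2
  rw [_root_.abs_le]; constructor <;> linarith

/-- Chain rule for substitutions. -/
theorem pderiv_aeval' {τ : Type} (g : σ → Pol τ) (j : τ) (p : Pol σ) :
    pderiv j (aeval g p) = ∑ i, aeval g (pderiv i p) * pderiv j (g i) := by
  induction p using MvPolynomial.induction_on with
  | C a => simp
  | add p q hp hq => simp only [map_add, hp, hq, add_mul, sum_add_distrib]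
  | mul_X p k hp =>
    simp only [map_mul, aeval_X, Derivation.leibniz, hp, smul_eq_mul, map_add, add_mul,
      sum_add_distrib, mul_sum]
    congr 1
    · rw [sum_eq_single k]
      · simp
      · intro i _ h; simp [pderiv_X, Pi.single_apply, h.symm]
      · simp
    · exact sum_congr rfl fun i _ => by ring

end Vale.Agent.P359
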