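import Vale.Agent.P359.Defs
import Vale.Agent.P359.Sl2

/-! Internal definitions: kernel form of the Hamiltonian, contractions, reduced forms. -/

namespace Vale.Agent.P359

open MvPolynomial Finset

abbrev Vec (Q N : ℕ) := (Fin N → Fin (Q + 1)) → ℂ

noncomputable def eps (Q : ℕ) : ℝ := (Q : ℝ)⁻¹

noncomputable def muV (ε : ℝ) : ℝ := 2 - 2 * ε

/-- Squared norm of `X^a` for one particle. -/
noncomputable def n1 (Q a : ℕ) : ℝ := nn 1 (eps Q) a

/-- Squared norm of `X^M` for the pair (spin `Q-1`) module. -/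
noncomputable def nV (Q M : ℕ) : ℝ := nn (muV (eps Q)) (eps Q) M

noncomputable def toF {Q k : ℕ} (a : Fin k → Fin (Q + 1)) : Fin k →₀ ℕ :=
  Finsupp.equivFunOnFinite.symm fun i => (a i : ℕ)

/-- Coordinates, in the orthonormal basis, of the tensor represented by the polynomial `p`. -/
noncomputable def vec (Q : ℕ) {k : ℕ} (p : Pol (Fin k)) (a : Fin k → Fin (Q + 1)) : ℝ :=
  coeff (toF a) p * ∏ i, Real.sqrt (n1 Q (a i))

/-- Concatenation: the first `k` slots hold `a`, the remaining `m` slots hold `z`. -/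
def join {α : Type} {m : ℕ} : (k : ℕ) → (Fin k → α) → (Fin m → α) → (Fin (m + k) → α)
  | 0, _, z => z
  | k + 1, a, z => Fin.cons (a 0) (join k (Fin.tail a) z)

/-- Contraction of the first `k` slots with the tensor represented by `p`. -/
noncomputable def con {Q m k : ℕ} (p : Pol (Fin k)) (ψ : Vec Q (m + k)) : Vec Q m :=
  fun z => ∑ a, (vec Q p a : ℂ) * ψ (join k a z)

noncomputable def beta (M : ℕ) : Pol (Fin 2) := (X 0 - X 1) * (X 0 + X 1) ^ M

noncomputable def b3 (M c : ℕ) : Pol (Fin 3) := (X 0 - X 1) * (X 0 + X 1) ^ M * X 2 ^ c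

noncomputable def b4 (M K : ℕ) : Pol (Fin 4) :=
  (X 0 - X 1) * (X 0 + X 1) ^ M * ((X 2 - X 3) * (X 2 + X 3) ^ K)

/-- Kernel of the projection onto `spinComp Q`. -/
noncomputable def P1k (Q : ℕ) (p q : Fin (Q + 1) × Fin (Q + 1)) : ℝ :=
  ∑ M ∈ range (2 * Q - 1),
    vec Q (beta M) ![p.1, p.2] * vec Q (beta M) ![q.1, q.2] / (2 * nV Q M)

noncomputable def pairK {Q N : ℕ} (i j : Fin N) (ψ : Vec Q N) : Vec Q N := fun x =>
  ∑ c, ∑ d, (P1k Q (x i, x j) (c, d) : ℂ) * ψ (Function.update (Function.update x i c) j d)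

noncomputable def hamK {Q N : ℕ} (ψ : Vec Q N) : Vec Q N := fun x =>
  ∑ i, ∑ j, if i < j then pairK i j ψ x else 0

noncomputable def totF {Q N : ℕ} (ψ : Vec Q N) : Vec Q N := fun x =>
  ∑ i, ∑ c, (low Q (x i) c : ℂ) * ψ (Function.update x i c)

noncomputable def totE {Q N : ℕ} (ψ : Vec Q N) : Vec Q N := fun x =>
  ∑ i, ∑ c, (low Q c (x i) : ℂ) * ψ (Function.update x i c)

def AntiF {Q N : ℕ} (ψ : Vec Q N) : Prop :=
  ∀ (σ : Equiv.Perm (Fin N)) (x : Fin N → Fin (Q + 1)),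
    ψ (x ∘ σ) = ((Equiv.Perm.sign σ : ℤ) : ℂ) * ψ x

/-- A Parseval frame of an antisymmetric eigenspace (columns of the spectral projection). -/
structure Fam (Q N : ℕ) (E : ℝ) (w : (Fin N → Fin (Q + 1)) → Vec Q N) : Prop where
  anti : ∀ j, AntiF (w j)
  eig : ∀ j x, hamK (w j) x = (E : ℂ) * w j x
  ne : ∃ j, w j ≠ 0
  inv : ∀ x y, ∑ j, (starRingEnd ℂ) (totF (w j) x) * w j y
    = ∑ j, (starRingEnd ℂ) (w j x) * totE (w j) y

theorem vec_add {Q k : ℕ} (p q : Pol (Fin k)) (a : Fin k → Fin (Q + 1)) :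
    vec Q (p + q) a = vec Q p a + vec Q q a := by simp [vec, add_mul]

theorem vec_smul {Q k : ℕ} (c : ℝ) (p : Pol (Fin k)) (a : Fin k → Fin (Q + 1)) :
    vec Q (c • p) a = c * vec Q p a := by simp [vec, mul_assoc]

theorem con_add {Q m k : ℕ} (p q : Pol (Fin k)) (ψ : Vec Q (m + k)) (z) :
    con (p + q) ψ z = con p ψ z + con q ψ z := by
  simp [con, vec_add, add_mul, sum_add_distrib]

theorem con_smul {Q m k : ℕ} (c : ℝ) (p : Pol (Fin k)) (ψ : Vec Q (m + k)) (z) :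
    con (c • p) ψ z = (c : ℂ) * con p ψ z := by
  simp [con, vec_smul, mul_sum, mul_assoc]

/-- The reduced `k`-body form of a family. -/
noncomputable def rho {Q : ℕ} (m k : ℕ) {J : Type} [Fintype J] (w : J → Vec Q (m + k)) :
    Form (Fin k) :=
  LinearMap.mk₂ ℝ
    (fun p q => ∑ j, ∑ z, ((starRingEnd ℂ) (con p (w j) z) * con q (w j) z).re)
    (fun p p' q => by simp [con_add, add_mul, sum_add_distrib])
    (fun c p q => by simp [con_smul, mul_sum, mul_assoc, mul_add, mul_sub])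
    (fun p q q' => by simp [con_add, mul_add, sum_add_distrib])
    (fun c p q => by
      simp only [con_smul, smul_eq_mul, mul_sum]
      refine sum_congr rfl fun j _ => sum_congr rfl fun z _ => ?_
      rw [mul_left_comm, Complex.re_ofReal_mul])

theorem rho_apply {Q : ℕ} (m k : ℕ) {J : Type} [Fintype J] (w : J → Vec Q (m + k))
    (p q : Pol (Fin k)) :
    rho m k w p q = ∑ j, ∑ z, ((starRingEnd ℂ) (con p (w j) z) * con q (w j) z).re := rfl

/-- Two-, three- and four-body forms for `N = m + 4` particles. -/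
noncomputable def r2 {Q m : ℕ} (w : (Fin (m + 4) → Fin (Q + 1)) → Vec Q (m + 4)) : Form (Fin 2) :=
  rho (m + 2) 2 w

noncomputable def r3 {Q m : ℕ} (w : (Fin (m + 4) → Fin (Q + 1)) → Vec Q (m + 4)) : Form (Fin 3) :=
  ((m : ℝ) + 2) • rho (m + 1) 3 w

noncomputable def r4 {Q m : ℕ} (w : (Fin (m + 4) → Fin (Q + 1)) → Vec Q (m + 4)) : Form (Fin 4) :=
  (((m : ℝ) + 2) * ((m : ℝ) + 1)) • rho m 4 w

noncomputable def T0 (Q : ℕ) (F : Form (Fin 2)) : ℝ :=
  ∑ M ∈ range (2 * Q - 1), F (beta M) (beta M) / nV Q M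

noncomputable def T1 (Q : ℕ) (F : Form (Fin 3)) : ℝ :=
  ∑ M ∈ range (2 * Q - 1), ∑ c ∈ range (Q + 1), ∑ M' ∈ range (2 * Q - 1), ∑ b ∈ range (Q + 1),
    (-Nf (fun _ => 1) (eps Q) (b3 M c) (rename (Equiv.swap 1 2) (b3 M' b))) * F (b3 M c) (b3 M' b)
      / (nV Q M * n1 Q c * (nV Q M' * n1 Q b))

noncomputable def T2 (Q : ℕ) (F : Form (Fin 4)) : ℝ :=
  (1 / 4) * ∑ M ∈ range (2 * Q - 1), ∑ K ∈ range (2 * Q - 1),
    F (b4 M K) (b4 M K) / (nV Q M * nV Q K)

/-- The quadratic expression which is a squared norm (G-type positivity condition). -/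
noncomputable def sosExpr {k : ℕ} (F0 : Form (Fin k)) (F1 : Form (Fin (k + 1)))
    (F2 : Form (Fin (k + 2))) (n : ℕ → ℝ) (A : ℕ) (p0 : Pol (Fin k)) (p : ℕ → Pol (Fin (k + 1))) : ℝ :=
  F0 p0 p0 + 2 * ∑ a ∈ range A, F1 (rename Fin.castSucc p0 * X (Fin.last k) ^ a) (p a)
    + ∑ a ∈ range A, n a * F1 (p a) (p a)
    - ∑ a ∈ range A, ∑ c ∈ range A,
        F2 (rename Fin.castSucc (p a) * X (Fin.last (k + 1)) ^ c)
          (rename Fin.castSucc (p c) * X (Fin.last (k + 1)) ^ a)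

end Vale.Agent.P359
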