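import Vale.Agent.P359.Sl2

/-! Clebsch-Gordan decomposition of a tensor product of two irreducible modules. -/

namespace Vale.Agent.P359

open MvPolynomial Finset

noncomputable def m2 (i a : ℕ) : Pol (Fin 2) := X 0 ^ i * X 1 ^ a

noncomputable def ee (i a : ℕ) : Fin 2 →₀ ℕ := Finsupp.single 0 i + Finsupp.single 1 a

theorem ee_zero (i a : ℕ) : ee i a 0 = i := by simp [ee]
theorem ee_one (i a : ℕ) : ee i a 1 = a := by simp [ee]

theorem ee_eq (d : Fin 2 →₀ ℕ) : d = ee (d 0) (d 1) := by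
  ext k; fin_cases k <;> simp [ee]

theorem ee_inj {i a j b : ℕ} : ee i a = ee j b ↔ i = j ∧ a = b := by
  constructor
  · intro h
    exact ⟨by simpa [ee_zero] using congrArg (· 0) h, by simpa [ee_one] using congrArg (· 1) h⟩
  · rintro ⟨rfl, rfl⟩; rfl

theorem m2_eq (i a : ℕ) : m2 i a = monomial (ee i a) 1 := by
  simp [m2, ee, X_pow_eq_monomial, monomial_mul]

theorem m2_hom (i a : ℕ) : (m2 i a).IsHomogeneous (i + a) := by
  have h0 := (isHomogeneous_X ℝ (0 : Fin 2)).pow i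
  have h1 := (isHomogeneous_X ℝ (1 : Fin 2)).pow a
  simpa [m2] using h0.mul h1

theorem Dop_m2 (μ0 μ1 ε : ℝ) (i a : ℕ) :
    Dop ![μ0, μ1] ε (m2 i a) = ((i : ℝ) * (μ0 - ((i - 1 : ℕ) : ℝ) * ε)) • m2 (i - 1) a
      + ((a : ℝ) * (μ1 - ((a - 1 : ℕ) : ℝ) * ε)) • m2 i (a - 1) := by
  have p0 : ∀ i a, pderiv 0 (m2 i a) = (i : ℝ) • m2 (i - 1) a := by
    intro i a
    simp [m2, Derivation.leibniz, Derivation.leibniz_pow, pderiv_X, smul_eq_C_mul]; ring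
  have p1 : ∀ i a, pderiv 1 (m2 i a) = (a : ℝ) • m2 i (a - 1) := by
    intro i a
    simp [m2, Derivation.leibniz, Derivation.leibniz_pow, pderiv_X, smul_eq_C_mul]; ring
  have x0 : ∀ i a, X 0 * pderiv 0 (m2 i a) = (i : ℝ) • m2 i a := by
    intro i a
    rw [m2_eq, X_mul_pderiv_monomial, ee_zero, Nat.cast_smul_eq_nsmul]
  have x1 : ∀ i a, X 1 * pderiv 1 (m2 i a) = (a : ℝ) • m2 i a := by
    intro i a
    rw [m2_eq, X_mul_pderiv_monomial, ee_one, Nat.cast_smul_eq_nsmul]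
  rw [Dop_apply, Fin.sum_univ_two]
  simp only [Matrix.cons_val_zero, Matrix.cons_val_one]
  rw [p0 i a, p1 i a, Derivation.map_smul, Derivation.map_smul, mul_smul_comm, mul_smul_comm, x0, x1]
  module

theorem Nf_m2 (μ0 μ1 ε : ℝ) (i a : ℕ) (q : Pol (Fin 2)) :
    Nf ![μ0, μ1] ε (m2 i a) q = nn μ0 ε i * nn μ1 ε a * coeff (ee i a) q := by
  rw [m2_eq, Nf_monomial, wt, Fin.prod_univ_two, ee_zero, ee_one]; simp

theorem coeff_m2 (i a j b : ℕ) : coeff (ee i a) (m2 j b) = if i = j ∧ a = b then 1 else 0 := by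
  rw [m2_eq, coeff_monomial]
  simp only [ee_inj, eq_comm]

/-- Highest weight vector of degree `l`. -/
noncomputable def hv (μ0 μ1 ε : ℝ) (l : ℕ) : Pol (Fin 2) :=
  ∑ a ∈ range (l + 1), ((-1) ^ a / (nn μ0 ε (l - a) * nn μ1 ε a)) • m2 (l - a) a

theorem hv_hom (μ0 μ1 ε : ℝ) (l : ℕ) : (hv μ0 μ1 ε l).IsHomogeneous l := by
  refine IsHomogeneous.sum _ _ _ fun a ha => ?_
  have := (isHomogeneous_C (Fin 2) ((-1) ^ a / (nn μ0 ε (l - a) * nn μ1 ε a))).mul (m2_hom (l - a) a)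
  rwa [zero_add, Nat.sub_add_cancel (by have := mem_range.1 ha; omega), ← smul_eq_C_mul] at this

theorem hv_D (μ0 μ1 ε : ℝ) (l : ℕ) (h0 : ∀ i ≤ l, nn μ0 ε i ≠ 0) (h1 : ∀ i ≤ l, nn μ1 ε i ≠ 0) :
    Dop ![μ0, μ1] ε (hv μ0 μ1 ε l) = 0 := by
  simp only [hv, map_sum, map_smul, Dop_m2, smul_add, sum_add_distrib, smul_smul]
  rw [sum_range_succ, sum_range_succ']
  simp only [Nat.sub_self, Nat.cast_zero, zero_mul, mul_zero, zero_smul, add_zero,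
    ← sum_add_distrib, Nat.add_sub_cancel]
  refine sum_eq_zero fun a ha => ?_
  have ha' := mem_range.1 ha
  obtain ⟨k, rfl⟩ := Nat.exists_eq_add_of_lt ha'
  have e1 : a + k + 1 - a = k + 1 := by omega
  have e2 : a + k + 1 - (a + 1) = k := by omega
  have a1 := h0 (k + 1) (by omega)
  have a2 := h1 (a + 1) (by omega)
  rw [e1, e2, Nat.add_sub_cancel, ← add_smul]
  rw [nn_succ] at a1 a2
  rw [nn_succ, nn_succ]
  have a3 := left_ne_zero_of_mul a1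
  have a4 := right_ne_zero_of_mul a1
  have a5 := left_ne_zero_of_mul a2
  have a6 := right_ne_zero_of_mul a2
  have a7 := right_ne_zero_of_mul a4
  have a8 := right_ne_zero_of_mul a6
  have : ((-1 : ℝ) ^ a / (nn μ0 ε k * (((k : ℝ) + 1) * (μ0 - k * ε)) * nn μ1 ε a)
      * (((k + 1 : ℕ) : ℝ) * (μ0 - k * ε))
      + (-1) ^ (a + 1) / (nn μ0 ε k * (nn μ1 ε a * (((a : ℝ) + 1) * (μ1 - a * ε))))
        * (((a + 1 : ℕ) : ℝ) * (μ1 - a * ε))) = 0 := by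
    push_cast
    generalize μ0 - k * ε = s at *
    generalize μ1 - a * ε = t at *
    field_simp; ring
  rw [this, zero_smul]

theorem coeff_hv (μ0 μ1 ε : ℝ) (l a : ℕ) (ha : a ≤ l) :
    coeff (ee (l - a) a) (hv μ0 μ1 ε l) = (-1) ^ a / (nn μ0 ε (l - a) * nn μ1 ε a) := by
  simp only [hv, coeff_sum, coeff_smul, coeff_m2, smul_eq_mul]
  rw [sum_eq_single a]
  · simp
  · intro b _ hb; rw [if_neg (fun h => hb h.2.symm), mul_zero]
  · intro h; exact absurd (mem_range.2 (by omega)) h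

theorem Nf_hv (μ0 μ1 ε : ℝ) (l : ℕ) (h0 : ∀ i ≤ l, nn μ0 ε i ≠ 0) (h1 : ∀ i ≤ l, nn μ1 ε i ≠ 0) :
    Nf ![μ0, μ1] ε (hv μ0 μ1 ε l) (hv μ0 μ1 ε l)
      = ∑ a ∈ range (l + 1), 1 / (nn μ0 ε (l - a) * nn μ1 ε a) := by
  have h2 : ∀ q, Nf ![μ0, μ1] ε (hv μ0 μ1 ε l) q = ∑ a ∈ range (l + 1),
      ((-1) ^ a / (nn μ0 ε (l - a) * nn μ1 ε a)) * Nf ![μ0, μ1] ε (m2 (l - a) a) q := by
    intro q
    simp only [hv, map_sum, LinearMap.sum_apply, map_smul, LinearMap.smul_apply, smul_eq_mul]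
  rw [h2]
  refine sum_congr rfl fun a ha => ?_
  have ha' := mem_range.1 ha
  rw [Nf_m2, coeff_hv _ _ _ _ _ (by omega)]
  have a1 := h0 (l - a) (by omega)
  have a2 := h1 a (by omega)
  have : ((-1 : ℝ) ^ a) ^ 2 = 1 := by rw [← pow_mul, mul_comm, pow_mul]; simp
  field_simp
  exact this

theorem nn_pos (q : ℕ) {ε : ℝ} (hε : 0 < ε) (k : ℕ) (hk : k ≤ q) : 0 < nn (q * ε) ε k := by
  refine mul_pos (by positivity) (prod_pos fun t ht => ?_)
  have : (t : ℝ) < q := by exact_mod_cast (mem_range.1 ht).trans_le hk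
  nlinarith

theorem nn_eq_zero (q : ℕ) (ε : ℝ) (k : ℕ) (hk : q < k) : nn (q * ε) ε k = 0 := by
  rw [nn, rr, prod_eq_zero (mem_range.2 hk) (sub_self _), mul_zero]

theorem Nf_hv_pos (q0 q1 : ℕ) (hq : q1 ≤ q0) {ε : ℝ} (hε : 0 < ε) (l : ℕ) (hl : l ≤ q1) :
    0 < Nf ![q0 * ε, q1 * ε] ε (hv (q0 * ε) (q1 * ε) ε l) (hv (q0 * ε) (q1 * ε) ε l) := by
  rw [Nf_hv _ _ _ _ (fun i hi => (nn_pos q0 hε i (by omega)).ne')
    (fun i hi => (nn_pos q1 hε i (by omega)).ne')]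
  refine sum_pos (fun a ha => ?_) ⟨0, by simp⟩
  have := mem_range.1 ha
  exact one_div_pos.2 (mul_pos (nn_pos q0 hε _ (by omega)) (nn_pos q1 hε _ (by omega)))

def Boxed (q0 q1 : ℕ) (F : Form (Fin 2)) : Prop :=
  ∀ (i a : ℕ) (q : Pol (Fin 2)), q0 < i ∨ q1 < a → F (m2 i a) q = 0

theorem Boxed.expand {q0 q1 : ℕ} {F : Form (Fin 2)} (h : Boxed q0 q1 F) (p q : Pol (Fin 2)) :
    F p q = ∑ y : Fin (q0 + 1) × Fin (q1 + 1), coeff (ee y.1 y.2) p * F (m2 y.1 y.2) q := by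
  induction p using MvPolynomial.induction_on' with
  | add p1 p2 h1 h2 => simp only [map_add, LinearMap.add_apply, h1, h2, coeff_add, add_mul,
      sum_add_distrib]
  | monomial d c =>
    have hd : monomial d c = c • m2 (d 0) (d 1) := by
      rw [m2_eq, ← ee_eq, smul_monomial]; simp
    rw [hd]
    simp only [map_smul, LinearMap.smul_apply, coeff_smul, coeff_m2, smul_eq_mul]
    by_cases hb : q0 < d 0 ∨ q1 < d 1
    · rw [h _ _ _ hb, mul_zero]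
      refine (sum_eq_zero fun y _ => ?_).symm
      rw [if_neg]; · simp
      rintro ⟨h1, h2⟩
      have := y.1.2; have := y.2.2; omega
    · rw [sum_eq_single (⟨d 0, by omega⟩, ⟨d 1, by omega⟩)]
      · simp
      · intro y _ hy
        rw [if_neg]; · simp
        rintro ⟨h1, h2⟩
        exact hy (Prod.ext (Fin.ext h1) (Fin.ext h2))
      · simp

theorem Nf_boxed (q0 q1 : ℕ) (ε : ℝ) : Boxed q0 q1 (Nf ![q0 * ε, q1 * ε] ε) := by
  intro i a q h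
  rw [Nf_m2]
  rcases h with h | h
  · rw [nn_eq_zero q0 ε i h]; simp
  · rw [nn_eq_zero q1 ε a h]; simp

theorem card_aux (q0 q1 : ℕ) (hq : q1 ≤ q0) :
    ∑ l ∈ range (q1 + 1), (q0 + q1 + 1 - 2 * l) = (q0 + 1) * (q1 + 1) := by
  have h1 : ∀ n, ∑ l ∈ range (n + 1), (2 * (l : ℤ)) = n * (n + 1) := by
    intro n
    induction n with
    | zero => simp
    | succ n ih => rw [sum_range_succ, ih]; push_cast; ring
  zify
  rw [sum_congr rfl fun l hl => Nat.cast_sub (show 2 * l ≤ q0 + q1 + 1 by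
    have := mem_range.1 hl; omega), sum_sub_distrib]
  push_cast
  rw [h1]; simp; ring

section trace
variable (q0 q1 : ℕ) (ε : ℝ)

abbrev Lam := (l : Fin (q1 + 1)) × Fin (q0 + q1 + 1 - 2 * l)

noncomputable def vv (x : Lam q0 q1) : Pol (Fin 2) :=
  Cm (Fin 2) ^ (x.2 : ℕ) * hv (q0 * ε) (q1 * ε) ε x.1

noncomputable def Am : Matrix (Fin (q0 + 1) × Fin (q1 + 1)) (Lam q0 q1) ℝ :=
  fun y x => coeff (ee y.1 y.2) (vv q0 q1 ε x)

noncomputable def Fm (F : Form (Fin 2)) :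
    Matrix (Fin (q0 + 1) × Fin (q1 + 1)) (Fin (q0 + 1) × Fin (q1 + 1)) ℝ :=
  fun y y' => F (m2 y.1 y.2) (m2 y'.1 y'.2)

noncomputable def cc (x : Lam q0 q1) : ℝ := cf (q0 * ε + q1 * ε) ε x.1 x.2

variable {q0 q1 ε}

theorem cc_pos (hε : 0 < ε) (x : Lam q0 q1) : 0 < cc q0 q1 ε x := by
  unfold cc cf
  refine prod_pos fun i hi => mul_pos (by positivity) ?_
  have h1 := mem_range.1 hi
  have h2 := x.2.2
  have h3 : 2 * (x.1 : ℕ) + i < q0 + q1 := by omega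
  have h4 : 2 * ((x.1 : ℕ) : ℝ) + i < q0 + q1 := by exact_mod_cast h3
  nlinarith

theorem conj_diag (hq : q1 ≤ q0) (hε : 0 < ε) {F : Form (Fin 2)}
    (hF : Inv ![q0 * ε, q1 * ε] ε F) (hb : Boxed q0 q1 F) :
    (Am q0 q1 ε).transpose * Fm q0 q1 F * Am q0 q1 ε
      = Matrix.diagonal fun x => cc q0 q1 ε x
        * F (hv (q0 * ε) (q1 * ε) ε x.1) (hv (q0 * ε) (q1 * ε) ε x.1) := by
  ext x x'
  have h1 : ((Am q0 q1 ε).transpose * Fm q0 q1 F * Am q0 q1 ε) x x'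
      = F (vv q0 q1 ε x) (vv q0 q1 ε x') := by
    rw [hF.symm, hb.expand, Matrix.mul_apply]
    refine sum_congr rfl fun y _ => ?_
    rw [hF.symm, hb.expand, Matrix.mul_apply, mul_comm]; rfl
  have hD : ∀ l : Fin (q1 + 1), Dop ![q0 * ε, q1 * ε] ε (hv (q0 * ε) (q1 * ε) ε l) = 0 := by
    intro l
    have := l.2
    exact hv_D _ _ _ _ (fun i hi => (nn_pos q0 hε i (by omega)).ne')
      (fun i hi => (nn_pos q1 hε i (by omega)).ne')
  rw [h1, vv, vv]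
  by_cases hx : x = x'
  · subst hx
    rw [Matrix.diagonal_apply_eq, hF.pow_left _ _ (hv_hom _ _ _ _) (hD _), Fin.sum_univ_two]; rfl
  · rw [Matrix.diagonal_apply_ne _ hx]
    by_cases hj : (x.2 : ℕ) = x'.2
    · rw [hj, hF.pow_left _ _ (hv_hom _ _ _ _) (hD _),
        hF.lev hε.ne' _ _ _ _ (hv_hom _ _ _ _) (hv_hom _ _ _ _), mul_zero]
      intro hl
      obtain ⟨l, j⟩ := x
      obtain ⟨l', j'⟩ := x'
      obtain rfl : l = l' := Fin.ext hl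
      exact hx (congrArg _ (Fin.ext hj))
    · exact hF.pow_ne _ _ _ _ (hv_hom _ _ _ _) (hD _) (hv_hom _ _ _ _) (hD _) _ _ hj

theorem complete (hq : q1 ≤ q0) (hε : 0 < ε) :
    Matrix.diagonal (fun y : Fin (q0 + 1) × Fin (q1 + 1) =>
      (nn (q0 * ε) ε y.1 * nn (q1 * ε) ε y.2)⁻¹)
      = Am q0 q1 ε * Matrix.diagonal (fun x => (cc q0 q1 ε x * Nf ![q0 * ε, q1 * ε] ε
        (hv (q0 * ε) (q1 * ε) ε x.1) (hv (q0 * ε) (q1 * ε) ε x.1))⁻¹) * (Am q0 q1 ε).transpose := by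
  have h1 := conj_diag hq hε (Nf_inv _ _) (Nf_boxed q0 q1 ε)
  have h2 : Fm q0 q1 (Nf ![q0 * ε, q1 * ε] ε) = Matrix.diagonal
      fun y : Fin (q0 + 1) × Fin (q1 + 1) => nn (q0 * ε) ε y.1 * nn (q1 * ε) ε y.2 := by
    ext y y'
    rw [Fm, Nf_m2, coeff_m2, Matrix.diagonal_apply]
    simp only [Prod.ext_iff, Fin.ext_iff]
    split_ifs <;> simp
  rw [h2] at h1
  set D := Matrix.diagonal
    fun y : Fin (q0 + 1) × Fin (q1 + 1) => nn (q0 * ε) ε y.1 * nn (q1 * ε) ε y.2 with hD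
  set Δ := Matrix.diagonal (fun x : Lam q0 q1 => (cc q0 q1 ε x * Nf ![q0 * ε, q1 * ε] ε
    (hv (q0 * ε) (q1 * ε) ε x.1) (hv (q0 * ε) (q1 * ε) ε x.1))⁻¹) with hΔ
  have h3 : (Δ * (Am q0 q1 ε).transpose * D) * Am q0 q1 ε = 1 := by
    rw [Matrix.mul_assoc Δ, Matrix.mul_assoc Δ, h1, hΔ, Matrix.diagonal_mul_diagonal,
      ← Matrix.diagonal_one]
    congr 1; funext x
    exact inv_mul_cancel₀ (mul_pos (cc_pos hε x)
      (Nf_hv_pos q0 q1 hq hε _ (by have := x.1.2; omega))).ne'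
  have hc : Fintype.card (Lam q0 q1) = Fintype.card (Fin (q0 + 1) × Fin (q1 + 1)) := by
    simp only [Fintype.card_sigma, Fintype.card_fin, Fintype.card_prod]
    rw [← card_aux q0 q1 hq, Fin.sum_univ_eq_sum_range (fun l => q0 + q1 + 1 - 2 * l)]
  rw [Matrix.mul_eq_one_comm_of_card_eq _ _ _ hc] at h3
  have h4 : D * Matrix.diagonal (fun y : Fin (q0 + 1) × Fin (q1 + 1) =>
      (nn (q0 * ε) ε y.1 * nn (q1 * ε) ε y.2)⁻¹) = 1 := by
    rw [hD, Matrix.diagonal_mul_diagonal, ← Matrix.diagonal_one]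
    congr 1; funext y
    exact mul_inv_cancel₀ (mul_pos (nn_pos q0 hε _ (by have := y.1.2; omega))
      (nn_pos q1 hε _ (by have := y.2.2; omega))).ne'
  calc _ = (Am q0 q1 ε * (Δ * (Am q0 q1 ε).transpose * D)) * _ := by rw [h3, Matrix.one_mul]
    _ = _ := by
      rw [Matrix.mul_assoc, Matrix.mul_assoc, h4, Matrix.mul_one, Matrix.mul_assoc]

theorem trace_formula (hq : q1 ≤ q0) (hε : 0 < ε) {F F' : Form (Fin 2)}
    (hF : Inv ![q0 * ε, q1 * ε] ε F) (hb : Boxed q0 q1 F)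
    (hF' : Inv ![q0 * ε, q1 * ε] ε F') (hb' : Boxed q0 q1 F') :
    ∑ i ∈ range (q0 + 1), ∑ a ∈ range (q1 + 1), ∑ j ∈ range (q0 + 1), ∑ b ∈ range (q1 + 1),
      F (m2 i a) (m2 j b) * F' (m2 i a) (m2 j b)
        / (nn (q0 * ε) ε i * nn (q1 * ε) ε a * (nn (q0 * ε) ε j * nn (q1 * ε) ε b))
    = ∑ l ∈ range (q1 + 1), ((q0 + q1 + 1 - 2 * l : ℕ) : ℝ) *
      ((F (hv (q0 * ε) (q1 * ε) ε l) (hv (q0 * ε) (q1 * ε) ε l)
        / Nf ![q0 * ε, q1 * ε] ε (hv (q0 * ε) (q1 * ε) ε l) (hv (q0 * ε) (q1 * ε) ε l))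
      * (F' (hv (q0 * ε) (q1 * ε) ε l) (hv (q0 * ε) (q1 * ε) ε l)
        / Nf ![q0 * ε, q1 * ε] ε (hv (q0 * ε) (q1 * ε) ε l) (hv (q0 * ε) (q1 * ε) ε l))) := by
  have h1 := conj_diag hq hε hF hb
  have h2 := conj_diag hq hε hF' hb'
  have h3 := complete hq hε
  set D := Matrix.diagonal (fun y : Fin (q0 + 1) × Fin (q1 + 1) =>
      (nn (q0 * ε) ε y.1 * nn (q1 * ε) ε y.2)⁻¹) with hD
  set Δ := Matrix.diagonal (fun x : Lam q0 q1 => (cc q0 q1 ε x * Nf ![q0 * ε, q1 * ε] ε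
    (hv (q0 * ε) (q1 * ε) ε x.1) (hv (q0 * ε) (q1 * ε) ε x.1))⁻¹) with hΔ
  have h4 : (D * Fm q0 q1 F * (D * Fm q0 q1 F')).trace
      = (Δ * ((Am q0 q1 ε).transpose * Fm q0 q1 F * Am q0 q1 ε)
        * (Δ * ((Am q0 q1 ε).transpose * Fm q0 q1 F' * Am q0 q1 ε))).trace := by
    rw [h3]
    simp only [Matrix.mul_assoc]
    rw [Matrix.trace_mul_comm (Am q0 q1 ε)]
    simp only [Matrix.mul_assoc]
  rw [h1, h2, hΔ] at h4
  simp only [Matrix.diagonal_mul_diagonal, Matrix.trace_diagonal] at h4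
  have h5 : (D * Fm q0 q1 F * (D * Fm q0 q1 F')).trace
      = ∑ i ∈ range (q0 + 1), ∑ a ∈ range (q1 + 1), ∑ j ∈ range (q0 + 1), ∑ b ∈ range (q1 + 1),
      F (m2 i a) (m2 j b) * F' (m2 i a) (m2 j b)
        / (nn (q0 * ε) ε i * nn (q1 * ε) ε a * (nn (q0 * ε) ε j * nn (q1 * ε) ε b)) := by
    simp only [Matrix.trace, Matrix.diag_apply, Fintype.sum_prod_type, sum_range]
    refine sum_congr rfl fun i _ => sum_congr rfl fun a _ => ?_
    rw [Matrix.mul_apply, Fintype.sum_prod_type]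
    refine sum_congr rfl fun j _ => sum_congr rfl fun b _ => ?_
    simp only [hD, Matrix.diagonal_mul, Fm]
    rw [hF'.symm (m2 j b), div_eq_mul_inv, mul_inv (nn _ _ _ * nn _ _ _)]; ring
  rw [← h5, h4, Fintype.sum_sigma, sum_range]
  refine sum_congr rfl fun l _ => ?_
  rw [sum_congr rfl (g := fun _ => (F (hv (q0 * ε) (q1 * ε) ε l) (hv (q0 * ε) (q1 * ε) ε l)
        / Nf ![q0 * ε, q1 * ε] ε (hv (q0 * ε) (q1 * ε) ε l) (hv (q0 * ε) (q1 * ε) ε l))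
      * (F' (hv (q0 * ε) (q1 * ε) ε l) (hv (q0 * ε) (q1 * ε) ε l)
        / Nf ![q0 * ε, q1 * ε] ε (hv (q0 * ε) (q1 * ε) ε l) (hv (q0 * ε) (q1 * ε) ε l)))]
  · simp
  · intro j _
    have := (cc_pos hε (⟨l, j⟩ : Lam q0 q1)).ne'
    have := (Nf_hv_pos q0 q1 hq hε l (by have := l.2; omega)).ne'
    field_simp

end trace

end Vale.Agent.P359
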