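import Vale.Agent.P359.CertData

namespace Vale.Agent.P359

theorem check2_1 : check2 sqs 1 = true := by decide +kernel

theorem check2_5 : check2 sqs 5 = true := by decide +kernel

theorem check2_9 : check2 sqs 9 = true := by decide +kernel

theorem check2_13 : check2 sqs 13 = true := by decide +kernel

theorem check2_17 : check2 sqs 17 = true := by decide +kernel

end Vale.Agent.P359
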