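import Vale.Agent.P359.CertData

namespace Vale.Agent.P359

theorem check2_2 : check2 sqs 2 = true := by decide +kernel

theorem check2_6 : check2 sqs 6 = true := by decide +kernel

theorem check2_10 : check2 sqs 10 = true := by decide +kernel

theorem check2_14 : check2 sqs 14 = true := by decide +kernel

theorem check2_18 : check2 sqs 18 = true := by decide +kernel

end Vale.Agent.P359
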