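import Vale.Agent.P359.CertData

namespace Vale.Agent.P359

theorem check2_3 : check2 sqs 3 = true := by decide +kernel

theorem check2_7 : check2 sqs 7 = true := by decide +kernel

theorem check2_11 : check2 sqs 11 = true := by decide +kernel

theorem check2_15 : check2 sqs 15 = true := by decide +kernel

theorem check2_19 : check2 sqs 19 = true := by decide +kernel

end Vale.Agent.P359
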