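import Vale.Agent.P359.CertData

namespace Vale.Agent.P359

theorem check2_4 : check2 sqs 4 = true := by decide +kernel

theorem check2_8 : check2 sqs 8 = true := by decide +kernel

theorem check2_12 : check2 sqs 12 = true := by decide +kernel

theorem check2_16 : check2 sqs 16 = true := by decide +kernel

theorem check2_20 : check2 sqs 20 = true := by decide +kernel

end Vale.Agent.P359
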