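import Vale.Agent.P359.CertData

/-! One-body and constant checks of the certificate. -/

namespace Vale.Agent.P359

def validE (d : ℕ) (e : Ent) : Bool :=
  decide (e.1 + e.2.1 = e.2.2.1 + d) && decide (e.1 ∈ ls) && decide (2 * e.2.2.1 + d ≤ 20)

def validQ (q : Sq) : Bool := q.2.2.all (validE q.1)

def cross (d : ℕ) (t : ℤ) : Ent → ℚ
  | (l, J, a, y) =>
    ((2 * t * y * co 2 (-1) d 1 1 a l * (((3 ^ J : ℕ) : ℤ) * fac J) : ℤ) : ℚ) / ((3 ^ (d + a) : ℕ) : ℚ)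

def diag1 : Ent → Ent → ℤ
  | (_, J, a, y), (_, J', c, y') =>
    if a = c ∧ J = J' then fac a * (y * y') * (((3 ^ J : ℕ) : ℤ) * fac J) else 0

def one1 (q : Sq) (l : ℕ) : ℚ :=
  lsum q.2.2 fun e => if e.1 = l then cross q.1 q.2.1 e + ((lsum q.2.2 (diag1 e) : ℤ) : ℚ) else 0

def const0 (q : Sq) : ℤ := q.2.1 * q.2.1 * (fac q.1 * ((2 ^ q.1 : ℕ) : ℤ))

def pauli1 (m l : ℕ) : ℚ :=
  ((co 2 (-1) 0 1 1 m l * co 2 (-1) 0 1 1 m l * (((3 ^ (m - l) : ℕ) : ℤ) * fac (m - l)) : ℤ) : ℚ)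
    / (((9 ^ m : ℕ) * fac m : ℤ) : ℚ)

def kap0 (l : ℕ) : ℚ :=
  if l < 20 then (3 / 2) * ((-1 / 2) ^ l * (3 * l - 1)) / (((6 ^ l : ℕ) * fac l : ℤ) : ℚ) else 0

def c1 (l : ℕ) : ℚ :=
  kap0 l - (lsum sqs fun q => one1 q l) / 2 ^ 128
    + lsum paulis fun x => (x.2 : ℚ) / 2 ^ 20 * pauli1 x.1 l

def c0 : ℚ :=
  ((lsum sqs const0 : ℤ) : ℚ) / 2 ^ 128 + lsum paulis fun x => (x.2 : ℚ) / 2 ^ 20

theorem valid_sqs : sqs.all validQ = true := by decide +kernel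

theorem c0_le : c0 ≤ 955 / 1000 := by decide +kernel

theorem c1_nonneg : (List.range 28).all
    (fun l => decide (l = 0 ∨ l = 1 ∨ l = 3) || decide (0 ≤ c1 l)) = true := by decide +kernel

end Vale.Agent.P359
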