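import Vale.Agent.P359.Rel0
import Vale.Agent.P359.CertDef2
import Vale.Agent.P359.CertChk1
import Vale.Agent.P359.CertChk2
import Vale.Agent.P359.CertChk3
import Vale.Agent.P359.CertChk4

/-! The certificate: the planar relations force a positive lower bound. -/

namespace Vale.Agent.P359

open MvPolynomial Finset

noncomputable def TT (e : Ent) : Pol (Fin 2) := (e.2.2.2 : ℝ) • (Cm (Fin 2) ^ e.2.1 * w2 ^ e.1)

theorem up_TT (e : Ent) (c : ℕ) :
    rename Fin.castSucc (TT e) * X (Fin.last (1 + 1)) ^ c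
      = (e.2.2.2 : ℝ) • (w3 ^ e.1 * ((X 0 + X 1) ^ e.2.1 * X 2 ^ c) : Pol (Fin 3)) := by
  have h1 : rename Fin.castSucc w2 = w3 := by
    simp only [w2, w3, map_sub, map_mul, rename_X, map_ofNat]; rfl
  have h2 : rename Fin.castSucc (Cm (Fin 2)) = (X 0 + X 1 : Pol (Fin 3)) := by
    simp only [Cm, Fin.sum_univ_two, map_add, rename_X]; rfl
  have h3 : (X (Fin.last (1 + 1)) : Pol (Fin 3)) = X 2 := rfl
  rw [TT, map_smul, map_mul, map_pow, map_pow, h1, h2, h3, smul_mul_assoc]
  congr 1; ring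

theorem fac_cast (n : ℕ) : ((fac n : ℤ) : ℝ) = (n.factorial : ℝ) := by simp [fac]

theorem ls_mem {l : ℕ} (h : l ∈ ls) : 5 ≤ l ∧ l ≤ 11 := by
  simp only [ls, List.mem_cons, List.not_mem_nil, or_false] at h; omega

def mh (q : Sq) (s l l' : ℕ) : ℤ :=
  if l ≤ s ∧ l' ≤ s then lsum q.2.2 fun e => if e.1 = l then
    lsum q.2.2 fun e' => if e'.1 = l' then term2 s e e' else 0 else 0 else 0

theorem mhat_eq (L : List Sq) (s l l' : ℕ) : mhat L s l l' = lsum L fun q => mh q s l l' := by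
  unfold mhat mh
  split_ifs
  · rfl
  · rw [lsum_zero]

theorem mh_sum (q : Sq) (hq : ∀ e ∈ q.2.2, e.1 ∈ ls) (s : ℕ) (Γ : ℕ → ℕ → ℝ) :
    lsum ls (fun l => lsum ls fun l' => (mh q s l l' : ℝ) * Γ l l')
      = lsum q.2.2 fun e => lsum q.2.2 fun e' =>
        if e.1 ≤ s ∧ e'.1 ≤ s then (term2 s e e' : ℝ) * Γ e.1 e'.1 else 0 := by
  have nd : ls.Nodup := by decide
  have h1 : ∀ l l', (mh q s l l' : ℝ) * Γ l l' = lsum q.2.2 fun e => if e.1 = l then
      lsum q.2.2 (fun e' => if e'.1 = l' then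
        (if l ≤ s ∧ l' ≤ s then (term2 s e e' : ℝ) * Γ l l' else 0) else 0) else 0 := by
    intro l l'
    unfold mh
    by_cases h : l ≤ s ∧ l' ≤ s
    · simp only [if_pos h, intCast_lsum, lsum_mul]
      refine lsum_congr fun e _ => ?_
      split_ifs
      · rw [intCast_lsum, lsum_mul]
        exact lsum_congr fun e' _ => by split_ifs <;> simp
      · simp
    · simp [if_neg h, lsum_zero]
  simp only [h1]
  have h2 : ∀ l, (lsum ls fun l' => lsum q.2.2 fun e => if e.1 = l then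
      lsum q.2.2 (fun e' => if e'.1 = l' then
        (if l ≤ s ∧ l' ≤ s then (term2 s e e' : ℝ) * Γ l l' else 0) else 0) else 0)
      = lsum q.2.2 fun e => if e.1 = l then lsum q.2.2 (fun e' =>
        (if l ≤ s ∧ e'.1 ≤ s then (term2 s e e' : ℝ) * Γ l e'.1 else 0)) else 0 := by
    intro l
    rw [lsum_comm]
    refine lsum_congr fun e _ => ?_
    split_ifs
    · rw [lsum_comm]
      exact lsum_congr fun e' he' => lsum_ite_eq ls nd _ (hq e' he') _
    · exact lsum_zero _
  simp only [h2]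
  rw [lsum_comm]
  exact lsum_congr fun e he => lsum_ite_eq ls nd _ (hq e he) _

variable {τ γ : ℝ} {G0 : Form (Fin 1)} {G1 : Form (Fin 2)} {G2 : Form (Fin 3)}

theorem sq_ineq (h : Rel0 τ γ G0 G1 G2) (q : Sq) (hq : validQ q = true) :
    0 ≤ (const0 q : ℝ) + ∑ l ∈ range 28, (one1 q l : ℝ) * G1 (w2 ^ l) (w2 ^ l)
      - (∑ s ∈ range 21, lsum ls fun l => lsum ls fun l' =>
          (mh q s l l' : ℝ) * G2 (kk l s) (kk l' s)) / 4 ^ 30 := by
  obtain ⟨d, t, L⟩ := q
  have hv : ∀ e ∈ L, e.1 + e.2.1 = e.2.2.1 + d ∧ e.1 ∈ ls ∧ 2 * e.2.2.1 + d ≤ 20 := by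
    intro e he
    have := List.all_eq_true.1 hq e he
    simpa only [validE, Bool.and_eq_true, decide_eq_true_eq, and_assoc] using this
  have h0 := h.sos 21 ((t : ℝ) • X 0 ^ d) fun a => lsum L fun e => if e.2.2.1 = a then TT e else 0
  rw [sos_list G0 G1 G2 _ 21 _ L (fun e => e.2.2.1) TT
    (fun e he => by have := hv e he; omega)] at h0
  refine h0.trans_eq ?_
  rw [add_assoc]
  congr 2
  · simp only [map_smul, LinearMap.smul_apply, smul_eq_mul, h.g0, nn_zero_eps, const0]
    push_cast; rw [fac_cast]; ring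
  · have h1 : ∀ l, (one1 (d, t, L) l : ℝ) * G1 (w2 ^ l) (w2 ^ l) = lsum L fun e => if e.1 = l then
        ((cross d t e : ℝ) + lsum L fun e' => (diag1 e e' : ℝ)) * G1 (w2 ^ l) (w2 ^ l) else 0 := by
      intro l
      rw [one1, ratCast_lsum, lsum_mul]
      refine lsum_congr fun e _ => ?_
      split_ifs
      · rw [← intCast_lsum]; push_cast; rfl
      · simp
    simp only [h1]
    rw [sum_lsum_ite L (fun e => e.1) 28 (fun e he => by have := ls_mem (hv e he).2.1; omega),
      mul_lsum, ← lsum_add]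
    refine lsum_congr fun e he => ?_
    obtain ⟨l, J, a, y⟩ := e
    have he1 := (hv _ he).1
    simp only at he1
    rw [add_mul, lsum_mul]
    congr 1
    · have h2 : rename Fin.castSucc ((t : ℝ) • X 0 ^ d : Pol (Fin 1)) * X (Fin.last 1) ^ a
          = (t : ℝ) • (X 0 ^ d * X 1 ^ a : Pol (Fin 2)) := by
        rw [map_smul, map_pow, rename_X, smul_mul_assoc]; rfl
      erw [h2]
      simp only [TT, map_smul, LinearMap.smul_apply, smul_eq_mul, cross_form h.inv1 d a J l he1,
        cross]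
      push_cast; rw [fac_cast]; ring
    · refine lsum_congr fun e' he' => ?_
      obtain ⟨l', J', c, y'⟩ := e'
      have he2 := (hv _ he').1
      simp only at he2
      simp only [TT, map_smul, LinearMap.smul_apply, smul_eq_mul, T_form h.inv1, diag1, nn_zero_eps]
      by_cases hac : a = c
      · by_cases hJ : J = J'
        · have hl : l' = l := by omega
          subst hl hJ hac
          simp only [if_true, and_self]
          push_cast; rw [fac_cast, fac_cast]; ring
        · simp [hJ]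
      · simp [hac]
  · simp only [mh_sum (d, t, L) (fun e he => (hv e he).2.1)]
    rw [← lsum_sum_comm, div_eq_mul_inv, lsum_mul]
    refine lsum_congr fun e he => ?_
    rw [← lsum_sum_comm, lsum_mul]
    refine lsum_congr fun e' he' => ?_
    obtain ⟨l, J, a, y⟩ := e
    obtain ⟨l', J', c, y'⟩ := e'
    obtain ⟨a1, a2, a3⟩ := hv _ he
    obtain ⟨b1, b2, b3⟩ := hv _ he'
    have a4 := ls_mem a2
    have b4 := ls_mem b2
    simp only at a1 a3 a4 b1 b3 b4
    refine (congrArg₂ (fun p q => G2 p q) (up_TT (l, J, a, y) c) (up_TT (l', J', c, y') a)).trans ?_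
    simp only [map_smul, LinearMap.smul_apply, smul_eq_mul]
    rw [two_form h.inv2 l J c l' J' a (by omega) (by omega), mul_sum, mul_sum, sum_mul]
    refine sum_congr rfl fun s _ => ?_
    by_cases h1 : l ≤ s ∧ l' ≤ s
    · rw [if_pos h1, term2]
      by_cases h2 : s ≤ l + J + c
      · rw [if_pos h2, kc, kc, if_pos ⟨h1.1, h2⟩, if_pos ⟨h1.2, by omega⟩]
        have h3 : (4 : ℝ) ^ 30 = 4 ^ (30 - (J + c + J' + a)) * 4 ^ (J + c + J' + a) := by
          rw [← pow_add, Nat.sub_add_cancel (by omega)]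
        push_cast
        rw [fac_cast, h3, pow_add (4 : ℝ) (l + J + c - s)]
        field_simp
      · rw [if_neg h2, kc, if_neg (by omega)]; simp
    · rw [if_neg h1]
      by_cases h2 : l ≤ s
      · rw [kc, kc, if_neg (show ¬(l' ≤ s ∧ s ≤ l' + J' + a) by omega)]; simp
      · rw [kc, if_neg (by omega)]; simp

theorem psd_ineq (h : Rel0 τ γ G0 G1 G2) (L : List Sq) (s : ℕ) (hc : check2 L (s + 1) = true) :
    0 ≤ 1 / 2 * (G2 (u3 * e3 ^ s) (u3 * e3 ^ s) / nn 4 0 s)
      + (lsum ls fun l => lsum ls fun l' =>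
          (mhat L (s + 1) l l' : ℝ) * G2 (kk l (s + 1)) (kk l' (s + 1))) / 2 ^ 188 := by
  have h0 := psd_toLists G2 h.inv2.symm h.psd2 12 _ _ hc fun i => EE (s + 1) (2 * i + 1)
  set n := (s + 1 + 1) / 2 with hn
  have hn0 : 0 ∈ range n := mem_range.2 (by omega)
  simp only [entry, Int.cast_add, add_mul, sum_add_distrib] at h0
  have e1 : ∑ i ∈ range n, ∑ j ∈ range n,
      (((if i = 0 ∧ j = 0 then ((2 ^ 188 : ℕ) : ℤ) else 0 : ℤ) : ℝ)
        * G2 (EE (s + 1) (2 * i + 1)) (EE (s + 1) (2 * j + 1)))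
      = 2 ^ 188 * G2 (u3 * e3 ^ s) (u3 * e3 ^ s) := by
    rw [sum_eq_single 0, sum_eq_single 0]
    · simp only [and_self, if_true, EE, mul_zero, zero_add, pow_one, Nat.add_sub_cancel,
        mul_comm u3]
      norm_num
    · intro j _ hj; simp [hj]
    · intro h; exact absurd hn0 h
    · intro i _ hi; simp [hi]
    · intro h; exact absurd hn0 h
  have e2 : ∑ i ∈ range n, ∑ j ∈ range n,
      ((dd (s + 1) * lsum (table L (s + 1)) (fun r => kv r.1 (s + 1) i
          * lsum r.2 fun x => x.2 * kv x.1 (s + 1) j) : ℤ) : ℝ)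
        * G2 (EE (s + 1) (2 * i + 1)) (EE (s + 1) (2 * j + 1))
      = (dd (s + 1) : ℝ) * lsum ls fun l => lsum ls fun l' =>
          (mhat L (s + 1) l l' : ℝ) * G2 (kk l (s + 1)) (kk l' (s + 1)) := by
    simp only [table, lsum_map, Int.cast_mul, intCast_lsum, mul_assoc, ← mul_sum]
    congr 1
    simp only [mul_lsum, lsum_mul, ← lsum_sum_comm]
    refine lsum_congr fun l _ => lsum_congr fun l' _ => ?_
    by_cases hl : l ≤ s + 1 ∧ l' ≤ s + 1
    · rw [kk_form h.inv2.symm h.anti l l' _ hl.1 hl.2, mul_sum]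
      refine sum_congr rfl fun i _ => ?_
      rw [mul_sum]
      exact sum_congr rfl fun j _ => by ring
    · simp [mhat, if_neg hl]
  have e3 : ∑ i ∈ range n, ∑ j ∈ range n,
      ((lsum [0, 1, 3] (fun nu => lam (s + 1) nu * kv nu (s + 1) i * kv nu (s + 1) j) : ℤ) : ℝ)
        * G2 (EE (s + 1) (2 * i + 1)) (EE (s + 1) (2 * j + 1)) = 0 := by
    simp only [intCast_lsum, lsum_mul, ← lsum_sum_comm]
    rw [lsum_congr (g := fun _ => 0), lsum_zero]
    intro nu hnu
    by_cases hl : nu ≤ s + 1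
    · have h1 := kk_form h.inv2.symm h.anti nu nu _ hl hl
      rw [kk_null nu _ (h.null2 nu (by simpa using hnu))] at h1
      have h2 := congrArg (fun x => (lam (s + 1) nu : ℝ) * x) h1
      simp only [mul_zero, mul_sum] at h2
      rw [h2]
      refine sum_congr rfl fun i _ => sum_congr rfl fun j _ => ?_
      push_cast; ring
    · simp [lam, if_neg hl]
  rw [e1, e2, e3, add_zero] at h0
  have hd : (dd (s + 1) : ℝ) = 2 * nn 4 0 s := by
    simp only [dd, nn_zero_eps, Nat.add_sub_cancel]; push_cast; rw [fac_cast]; ring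
  have hp : 0 < nn 4 0 s := by rw [nn_zero_eps]; positivity
  rw [hd] at h0
  have := div_nonneg h0 (show (0 : ℝ) ≤ 2 ^ 188 * (2 * nn 4 0 s) by positivity)
  refine this.trans_eq ?_
  field_simp

theorem check2_all (s : ℕ) (hs : s < 20) : check2 sqs (s + 1) = true := by
  interval_cases s
  exacts [check2_1, check2_2, check2_3, check2_4, check2_5, check2_6, check2_7, check2_8, check2_9,
    check2_10, check2_11, check2_12, check2_13, check2_14, check2_15, check2_16, check2_17,
    check2_18, check2_19, check2_20]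

theorem pauli_ineq (h : Rel0 τ γ G0 G1 G2) (m : ℕ) (hm : m < 28) :
    ∑ l ∈ range 28, (pauli1 m l : ℝ) * G1 (w2 ^ l) (w2 ^ l) ≤ 1 := by
  have h0 := h.sos (m + 1) ((-(m.factorial : ℝ)) • X 0 ^ 0)
    fun a => lsum [m] fun e => if e = a then X 1 ^ m else 0
  rw [sos_list G0 G1 G2 _ (m + 1) _ [m] (fun e => e) (fun _ => X 1 ^ m) (by simp)] at h0
  have h1 : G2 (rename Fin.castSucc (X 1 ^ m : Pol (Fin 2)) * X (Fin.last (1 + 1)) ^ m)
      (rename Fin.castSucc (X 1 ^ m : Pol (Fin 2)) * X (Fin.last (1 + 1)) ^ m) = 0 := by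
    have h2 : (rename Fin.castSucc (X 1 ^ m : Pol (Fin 2)) * X (Fin.last (1 + 1)) ^ m : Pol (Fin 3))
        = X 1 ^ m * X 2 ^ m := by rw [map_pow, rename_X]; rfl
    have h3 := h.anti (X 1 ^ m * X 2 ^ m) (X 1 ^ m * X 2 ^ m)
    simp only [map_mul, map_pow, rename_X, Equiv.swap_apply_left, Equiv.swap_apply_right,
      mul_comm (X 2 ^ m : Pol (Fin 3))] at h3
    rw [h2]; linarith
  have h4 : (X (Fin.last 1) : Pol (Fin 2)) = X 1 := rfl
  have h5 := h.g0 0
  simp only [lsum_cons, lsum_nil, h1, if_true, add_zero, map_smul, LinearMap.smul_apply,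
    smul_eq_mul, pow_zero, map_one, smul_mul_assoc, one_mul, h4, nn_zero_eps, one_pow] at h0 h5
  rw [h5] at h0
  have hf : (0 : ℝ) < m.factorial := by positivity
  have h6 : G1 (X 1 ^ m) (X 1 ^ m) ≤ m.factorial := by
    simp only [Nat.factorial_zero, Nat.cast_one] at h0
    nlinarith
  rw [pauli_form h.inv1] at h6
  rw [← sum_subset (s₁ := range (m + 1)) (range_subset_range.2 (by omega))]
  · rw [← div_le_one hf, sum_div] at h6
    refine le_of_eq_of_le (sum_congr rfl fun l _ => ?_) h6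
    simp only [pauli1]; push_cast; rw [fac_cast, fac_cast]; ring
  · intro l _ hl
    rw [pauli1, co_eq_zero _ _ _ _ _ _ _ (by simp at hl; omega)]; simp

theorem Rel0.bound (h : Rel0 τ γ G0 G1 G2) : 45 / 1000 - τ ≤ γ := by
  set x : ℕ → ℝ := fun l => G1 (w2 ^ l) (w2 ^ l) with hx
  have h1 : 0 ≤ lsum sqs fun q => (const0 q : ℝ) + ∑ l ∈ range 28, (one1 q l : ℝ) * x l
      - (∑ s ∈ range 21, lsum ls fun l => lsum ls fun l' =>
          (mh q s l l' : ℝ) * G2 (kk l s) (kk l' s)) / 4 ^ 30 :=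
    lsum_nonneg fun q hq => sq_ineq h q (List.all_eq_true.1 valid_sqs q hq)
  set Y : ℕ → ℝ := fun s => lsum ls fun l => lsum ls fun l' =>
    (mhat sqs s l l' : ℝ) * G2 (kk l s) (kk l' s) with hY
  have h2 : (lsum sqs fun q => (const0 q : ℝ) + ∑ l ∈ range 28, (one1 q l : ℝ) * x l
      - (∑ s ∈ range 21, lsum ls fun l => lsum ls fun l' =>
          (mh q s l l' : ℝ) * G2 (kk l s) (kk l' s)) / 4 ^ 30)
      = ((lsum sqs const0 : ℤ) : ℝ)
        + ∑ l ∈ range 28, ((lsum sqs fun q => one1 q l : ℚ) : ℝ) * x l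
        - (∑ s ∈ range 21, Y s) / 4 ^ 30 := by
    simp only [sub_eq_add_neg, lsum_add, intCast_lsum, ratCast_lsum, lsum_mul, lsum_sum_comm,
      div_eq_mul_inv, ← mul_neg, hY, mhat_eq]
    congr 1
    rw [← lsum_mul, lsum_sum_comm]
    congr 1
    refine sum_congr rfl fun s _ => ?_
    rw [lsum_comm]
    exact lsum_congr fun l _ => lsum_comm _ _ _
  rw [h2, sum_range_succ' Y] at h1
  have hY0 : Y 0 = 0 := by
    simp only [hY]
    rw [lsum_congr (g := fun _ => 0), lsum_zero]
    intro l hl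
    rw [lsum_congr (g := fun _ => 0), lsum_zero]
    intro l' _
    have := ls_mem hl
    rw [mhat, if_neg (by omega)]; simp
  have h3 : 0 ≤ ∑ s ∈ range 20, (1 / 2 * (G2 (u3 * e3 ^ s) (u3 * e3 ^ s) / nn 4 0 s)
      + Y (s + 1) / 2 ^ 188) :=
    sum_nonneg fun s hs => psd_ineq h sqs s (check2_all s (mem_range.1 hs))
  rw [sum_add_distrib, ← sum_div] at h3
  have h4 : 0 ≤ ∑ l ∈ range 28, (c1 l : ℝ) * x l := by
    refine sum_nonneg fun l hl => ?_
    have := List.all_eq_true.1 c1_nonneg l (List.mem_range.2 (mem_range.1 hl))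
    simp only [Bool.or_eq_true, decide_eq_true_eq] at this
    rcases this with h' | h'
    · simp only [hx, h.null1 l h', mul_zero, le_refl]
    · exact mul_nonneg (by exact_mod_cast h') (h.psd1 _)
  have h5 : ∑ l ∈ range 28, (kap0 l : ℝ) * x l
      = ∑ l ∈ range 20, 3 / 2 * kap00 l * (G1 (w2 ^ l) (w2 ^ l) / nn 6 0 l) := by
    rw [← sum_subset (s₁ := range 20) (range_subset_range.2 (by omega))]
    · refine sum_congr rfl fun l hl => ?_
      rw [kap0, if_pos (mem_range.1 hl), nn_zero_eps, kap00]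
      push_cast; rw [fac_cast]; ring
    · intro l _ hl
      rw [kap0, if_neg (by simpa using hl)]; simp
  have h6 : ∑ l ∈ range 28, ((lsum paulis fun y => (y.2 : ℚ) / 2 ^ 20 * pauli1 y.1 l : ℚ) : ℝ) * x l
      ≤ ((lsum paulis fun y => (y.2 : ℚ) / 2 ^ 20 : ℚ) : ℝ) := by
    have a1 := pauli_ineq h 18 (by omega)
    have a2 := pauli_ineq h 19 (by omega)
    have a3 := pauli_ineq h 27 (by omega)
    simp only [paulis, lsum_cons, lsum_nil, add_zero]
    push_cast
    simp only [add_mul, sum_add_distrib, mul_assoc, ← mul_sum]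
    linarith
  have h7 : (c0 : ℝ) ≤ 955 / 1000 := by
    have := (Rat.cast_le (K := ℝ)).2 c0_le
    simpa only [Rat.cast_div, Rat.cast_ofNat] using this
  have h8 := h.energy
  simp only [c1, Rat.cast_add, Rat.cast_sub, add_mul, sub_mul, sum_add_distrib,
    sum_sub_distrib] at h4
  have h9 : ∑ l ∈ range 28, (((lsum sqs fun q => one1 q l) / 2 ^ 128 : ℚ) : ℝ) * x l
      = (∑ l ∈ range 28, ((lsum sqs fun q => one1 q l : ℚ) : ℝ) * x l) / 2 ^ 128 := by
    rw [sum_div]
    exact sum_congr rfl fun l _ => by push_cast; ring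
  rw [h9] at h4
  simp only [c0, Rat.cast_add, Rat.cast_div, Rat.cast_pow, Rat.cast_ofNat, Rat.cast_intCast] at h7
  rw [h5] at h4
  rw [hY0] at h1
  linarith

end Vale.Agent.P359
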