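import Mathlib

/-! Executable part of the certificate check. -/

namespace Vale.Agent.P359

/-- Multiply a coefficient list by `c0 + c1 x`; `prev` is the previous coefficient. -/
def mulLin (c0 c1 : ℤ) : ℤ → List ℤ → List ℤ
  | prev, [] => [c1 * prev]
  | prev, a :: l => (c0 * a + c1 * prev) :: mulLin c0 c1 a l

def powLin (c0 c1 : ℤ) : ℕ → List ℤ → List ℤ
  | 0, l => l
  | n + 1, l => mulLin c0 c1 0 (powLin c0 c1 n l)

/-- Coefficient of `x^k` in `(a0 + a1 x)^m (b0 + b1 x)^n`. -/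
def co (a0 a1 : ℤ) (m : ℕ) (b0 b1 : ℤ) (n k : ℕ) : ℤ :=
  (powLin a0 a1 m (powLin b0 b1 n [1])).getD k 0

def lsum {α M : Type} [Add M] [Zero M] : List α → (α → M) → M
  | [], _ => 0
  | a :: l, f => f a + lsum l f

/-- An entry `(l, J, a, y)`. -/
abbrev Ent := ℕ × ℕ × ℕ × ℤ

/-- A square `(d, t, entries)`. -/
abbrev Sq := ℕ × ℤ × List Ent

def fac (n : ℕ) : ℤ := (n.factorial : ℕ)

def term2 (s : ℕ) : Ent → Ent → ℤ
  | (l, J, a, y), (l', J', c, y') =>
    if s ≤ l + J + c then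
      y * y' * co 3 1 J 1 (-1) c (s - l) * co 3 1 J' 1 (-1) a (s - l')
        * (((4 ^ (l + J + c - s + (30 - (J + c + J' + a))) : ℕ) : ℤ) * fac (l + J + c - s))
    else 0

def mhat (sqs : List Sq) (s l l' : ℕ) : ℤ :=
  if l ≤ s ∧ l' ≤ s then
    lsum sqs fun q => lsum q.2.2 fun e => if e.1 = l then
      lsum q.2.2 fun e' => if e'.1 = l' then term2 s e e' else 0 else 0
  else 0

def kv (l s i : ℕ) : ℤ := co 1 1 l (-1) 2 (s - l) (2 * i + 1)

def dd (s : ℕ) : ℤ := ((2 * 4 ^ (s - 1) : ℕ) : ℤ) * fac (s - 1)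

def lam (s nu : ℕ) : ℤ :=
  if nu ≤ s then ((2 ^ 192 : ℕ) : ℤ) * dd s / (((6 ^ nu * 12 ^ (s - nu) : ℕ) : ℤ) * fac nu * fac (s - nu))
  else 0

def ls : List ℕ := [5, 6, 7, 8, 9, 10, 11]

def entry (s : ℕ) (T : List (ℕ × List (ℕ × ℤ))) (i j : ℕ) : ℤ :=
  (if i = 0 ∧ j = 0 then ((2 ^ 188 : ℕ) : ℤ) else 0)
    + dd s * lsum T (fun r => kv r.1 s i * lsum r.2 fun x => x.2 * kv x.1 s j)
    + lsum [0, 1, 3] fun nu => lam s nu * kv nu s i * kv nu s j

def table (sqs : List Sq) (s : ℕ) : List (ℕ × List (ℕ × ℤ)) :=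
  ls.map fun l => (l, ls.map fun l' => (l', mhat sqs s l l'))

def toLists (n : ℕ) (M : ℕ → ℕ → ℤ) : List (List ℤ) :=
  (List.range n).map fun i => (List.range n).map (M i)

def elimRow (a : ℤ) (v : List ℤ) : List ℤ → List ℤ
  | [] => []
  | b :: r => List.zipWith (fun x y => a * x - b * y) r v

def psdL : ℕ → List (List ℤ) → Bool
  | _, [] => true
  | 0, _ :: _ => false
  | _ + 1, [] :: _ => false
  | n + 1, (a :: v) :: rest =>
    decide (0 < a) && decide (rest.map List.headI = v)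
      && rest.all (fun r => decide (r.length = v.length + 1)) && psdL n (rest.map (elimRow a v))

def check2 (sqs : List Sq) (s : ℕ) : Bool :=
  psdL 12 (toLists ((s + 1) / 2) (entry s (table sqs s)))

end Vale.Agent.P359
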