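import Vale.Agent.P359.CertDef

/-! Soundness of the executable pieces: list sums, coefficient lists, positivity test. -/

namespace Vale.Agent.P359

open Finset

section lsum
variable {α M M' : Type}

theorem lsum_nil [Add M] [Zero M] (f : α → M) : lsum [] f = 0 := rfl
theorem lsum_cons [Add M] [Zero M] (a : α) (l : List α) (f : α → M) :
    lsum (a :: l) f = f a + lsum l f := rfl

theorem lsum_congr [Add M] [Zero M] {l : List α} {f g : α → M} (h : ∀ x ∈ l, f x = g x) :
    lsum l f = lsum l g := by
  induction l with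
  | nil => rfl
  | cons a l ih =>
    rw [lsum_cons, lsum_cons, h a (by simp), ih fun x hx => h x (by simp [hx])]

theorem map_lsum [AddCommMonoid M] [AddCommMonoid M'] {F : Type*} [FunLike F M M']
    [AddMonoidHomClass F M M'] (φ : F) (l : List α) (f : α → M) :
    φ (lsum l f) = lsum l fun x => φ (f x) := by
  induction l with
  | nil => simp [lsum_nil]
  | cons a l ih => simp [lsum_cons, ih]

theorem lsum_add [AddCommMonoid M] (l : List α) (f g : α → M) :
    lsum l (fun x => f x + g x) = lsum l f + lsum l g := by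
  induction l with
  | nil => simp [lsum_nil]
  | cons a l ih => simp only [lsum_cons, ih]; abel

theorem lsum_zero [AddCommMonoid M] (l : List α) : lsum l (fun _ => (0 : M)) = 0 := by
  induction l with
  | nil => rfl
  | cons a l ih => simp [lsum_cons, ih]

theorem mul_lsum [NonUnitalNonAssocSemiring M] (c : M) (l : List α) (f : α → M) :
    c * lsum l f = lsum l fun x => c * f x := by
  induction l with
  | nil => simp [lsum_nil]
  | cons a l ih => simp [lsum_cons, mul_add, ih]

theorem lsum_mul [NonUnitalNonAssocSemiring M] (c : M) (l : List α) (f : α → M) :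
    lsum l f * c = lsum l fun x => f x * c := by
  induction l with
  | nil => simp [lsum_nil]
  | cons a l ih => simp [lsum_cons, add_mul, ih]

theorem lsum_sum_comm [AddCommMonoid M] {β : Type} (l : List α) (s : Finset β) (f : α → β → M) :
    lsum l (fun x => ∑ y ∈ s, f x y) = ∑ y ∈ s, lsum l fun x => f x y := by
  induction l with
  | nil => simp [lsum_nil]
  | cons a l ih => simp [lsum_cons, ih, sum_add_distrib]

theorem lsum_comm [AddCommMonoid M] {β : Type} (l : List α) (l' : List β) (f : α → β → M) :
    lsum l (fun x => lsum l' (f x)) = lsum l' fun y => lsum l fun x => f x y := by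
  induction l with
  | nil => simp [lsum_nil, lsum_zero]
  | cons a l ih => simp [lsum_cons, ih, lsum_add]

theorem lsum_map [Add M] [Zero M] {β : Type} (l : List α) (g : α → β) (f : β → M) :
    lsum (l.map g) f = lsum l fun x => f (g x) := by
  induction l with
  | nil => rfl
  | cons a l ih => simp [lsum_cons, ih]

theorem lsum_nonneg {l : List α} {f : α → ℝ} (h : ∀ x ∈ l, 0 ≤ f x) : 0 ≤ lsum l f := by
  induction l with
  | nil => simp [lsum_nil]
  | cons a l ih =>
    rw [lsum_cons]
    exact add_nonneg (h a (by simp)) (ih fun x hx => h x (by simp [hx]))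

theorem intCast_lsum (l : List α) (f : α → ℤ) :
    ((lsum l f : ℤ) : ℝ) = lsum l fun x => (f x : ℝ) := map_lsum (Int.castRingHom ℝ) l f

theorem ratCast_lsum (l : List α) (f : α → ℚ) :
    ((lsum l f : ℚ) : ℝ) = lsum l fun x => (f x : ℝ) := map_lsum (Rat.castHom ℝ) l f

theorem lsum_ite_eq [DecidableEq α] [AddCommMonoid M] (l : List α) (hl : l.Nodup) (a : α)
    (ha : a ∈ l) (f : α → M) : lsum l (fun x => if a = x then f x else 0) = f a := by
  induction l with
  | nil => simp at ha
  | cons b l ih =>
    rw [List.nodup_cons] at hl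
    rw [lsum_cons]
    rcases List.mem_cons.1 ha with h | h
    · subst h
      rw [if_pos rfl, lsum_congr (g := fun _ => 0), lsum_zero, add_zero]
      intro x hx
      rw [if_neg]; rintro rfl; exact hl.1 hx
    · rw [if_neg, ih hl.2 h, zero_add]
      rintro rfl; exact hl.1 h

end lsum

section co

theorem mulLin_getD (c0 c1 : ℤ) (l : List ℤ) (prev : ℤ) (k : ℕ) :
    (mulLin c0 c1 prev l).getD k 0
      = c0 * l.getD k 0 + c1 * (if k = 0 then prev else l.getD (k - 1) 0) := by
  induction l generalizing prev k with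
  | nil => cases k <;> simp [mulLin]
  | cons a l ih =>
    cases k with
    | zero => simp [mulLin]
    | succ k =>
      simp only [mulLin, List.getD_cons_succ, ih]
      cases k <;> simp

variable {R : Type} [CommRing R]

/-- `l` lists the coefficients of a binary form of degree `n`. -/
def Rep (A B : R) (n : ℕ) (l : List ℤ) (P : R) : Prop :=
  (∀ k, n < k → l.getD k 0 = 0) ∧ P = ∑ k ∈ range (n + 1), (l.getD k 0 : R) * (A ^ (n - k) * B ^ k)

theorem Rep.mulLin {A B : R} {n : ℕ} {l : List ℤ} {P : R} (h : Rep A B n l P) (c0 c1 : ℤ) :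
    Rep A B (n + 1) (mulLin c0 c1 0 l) (((c0 : R) * A + (c1 : R) * B) * P) := by
  obtain ⟨h1, h2⟩ := h
  constructor
  · intro k hk
    rw [mulLin_getD, h1 k (by omega), if_neg (by omega), h1 (k - 1) (by omega)]; simp
  · simp only [mulLin_getD]
    push_cast
    simp only [add_mul, sum_add_distrib]
    congr 1
    · rw [sum_range_succ _ (n + 1), h1 (n + 1) (by omega), h2, mul_sum]
      simp only [Int.cast_zero, mul_zero, zero_mul, add_zero]
      refine sum_congr rfl fun k hk => ?_
      have : n + 1 - k = (n - k) + 1 := by have := mem_range.1 hk; omega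
      rw [this, pow_succ]; ring
    · rw [sum_range_succ' _ (n + 1), h2, mul_sum]
      simp only [if_true, Int.cast_zero, mul_zero, zero_mul, add_zero, Nat.add_sub_cancel,
        Nat.add_eq_zero_iff, one_ne_zero, and_false, if_false, Nat.add_sub_add_right]
      refine sum_congr rfl fun k _ => ?_
      rw [pow_succ]; ring

theorem Rep.powLin {A B : R} {n : ℕ} {l : List ℤ} {P : R} (h : Rep A B n l P) (c0 c1 : ℤ) (m : ℕ) :
    Rep A B (n + m) (powLin c0 c1 m l) (((c0 : R) * A + (c1 : R) * B) ^ m * P) := by
  induction m with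
  | zero => simpa [Vale.Agent.P359.powLin] using h
  | succ m ih =>
    rw [pow_succ', mul_assoc]
    exact ih.mulLin c0 c1

theorem co_rep (A B : R) (a0 a1 : ℤ) (m : ℕ) (b0 b1 : ℤ) (n : ℕ) :
    Rep A B (0 + n + m) (powLin a0 a1 m (powLin b0 b1 n [1]))
      (((a0 : R) * A + (a1 : R) * B) ^ m * (((b0 : R) * A + (b1 : R) * B) ^ n * 1)) := by
  refine Rep.powLin (Rep.powLin ⟨?_, by simp⟩ b0 b1 n) a0 a1 m
  intro k hk
  obtain ⟨k, rfl⟩ := Nat.exists_eq_add_of_lt hk
  simp

theorem co_eq_zero (a0 a1 : ℤ) (m : ℕ) (b0 b1 : ℤ) (n k : ℕ) (hk : m + n < k) :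
    co a0 a1 m b0 b1 n k = 0 :=
  (co_rep (0 : ℤ) 0 a0 a1 m b0 b1 n).1 k (by omega)

theorem co_expand (A B : R) (a0 a1 : ℤ) (m : ℕ) (b0 b1 : ℤ) (n : ℕ) :
    ((a0 : R) * A + (a1 : R) * B) ^ m * ((b0 : R) * A + (b1 : R) * B) ^ n
      = ∑ k ∈ range (m + n + 1), (co a0 a1 m b0 b1 n k : R) * (A ^ (m + n - k) * B ^ k) := by
  have := (co_rep A B a0 a1 m b0 b1 n).2
  rw [mul_one, zero_add, add_comm n m] at this
  exact this

end co

section psd
variable {V : Type} [AddCommGroup V] [Module ℝ V]

noncomputable def ldot : List ℤ → List V → V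
  | c :: r, e :: es => (c : ℝ) • e + ldot r es
  | _, _ => 0

noncomputable def lquad (g : V →ₗ[ℝ] V →ₗ[ℝ] ℝ) (all : List V) : List (List ℤ) → List V → ℝ
  | r :: M, e :: es => g e (ldot r all) + lquad g all M es
  | _, _ => 0

theorem ldot_zip (a b : ℤ) (r v : List ℤ) (es : List V) (h : r.length = v.length) :
    ldot (List.zipWith (fun x y => a * x - b * y) r v) es
      = (a : ℝ) • ldot r es - (b : ℝ) • ldot v es := by
  induction r generalizing v es with
  | nil => cases v <;> simp_all [ldot]
  | cons x r ih =>
    cases v with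
    | nil => simp at h
    | cons y v =>
      cases es with
      | nil => simp [ldot]
      | cons e es =>
        simp only [List.zipWith_cons_cons, ldot, ih v es (by simpa using h)]
        push_cast
        module

theorem lquad_elim (g : V →ₗ[ℝ] V →ₗ[ℝ] ℝ) (a : ℤ) (v : List ℤ) (e : V) (all : List V)
    (rest : List (List ℤ)) (es : List V) (h : ∀ r ∈ rest, r.length = v.length + 1) :
    (a : ℝ) * lquad g (e :: all) rest es
      = lquad g all (rest.map (elimRow a v)) es
        + g (ldot (rest.map List.headI) es) ((a : ℝ) • e + ldot v all) := by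
  induction rest generalizing es with
  | nil => simp [lquad, ldot]
  | cons r rest ih =>
    cases es with
    | nil => simp [lquad, ldot]
    | cons f es =>
      have hr := h r (by simp)
      cases r with
      | nil => simp at hr
      | cons b r =>
        have ih' := ih es fun r hr => h r (by simp [hr])
        simp only [lquad, List.map_cons, elimRow, ldot, List.headI_cons, mul_add, ih',
          ldot_zip a b r v all (by simpa using hr), map_add, map_sub, map_smul, smul_eq_mul,
          LinearMap.add_apply, LinearMap.smul_apply]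
        ring

theorem psdL_sound (g : V →ₗ[ℝ] V →ₗ[ℝ] ℝ) (hs : ∀ x y, g x y = g y x) (hp : ∀ x, 0 ≤ g x x)
    (n : ℕ) (M : List (List ℤ)) (es : List V) (h : psdL n M = true) : 0 ≤ lquad g es M es := by
  induction n generalizing M es with
  | zero => cases M with
    | nil => simp [lquad]
    | cons r M => simp [psdL] at h
  | succ n ih =>
    match M, es, h with
    | [], _, _ => simp [lquad]
    | [] :: _, _, h => simp [psdL] at h
    | (a :: v) :: rest, [], _ => simp [lquad]
    | (a :: v) :: rest, e :: es, h =>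
      simp only [psdL, Bool.and_eq_true, decide_eq_true_eq, List.all_eq_true] at h
      obtain ⟨⟨⟨ha, hv⟩, hl⟩, hr⟩ := h
      have h1 := lquad_elim g a v e es rest es hl
      have h2 := ih _ es hr
      have h3 := hp ((a : ℝ) • e + ldot v es)
      have ha' : (0 : ℝ) < a := by exact_mod_cast ha
      rw [hv] at h1
      refine nonneg_of_mul_nonneg_right (a := (a : ℝ)) ?_ ha'
      simp only [lquad, ldot, mul_add, h1]
      simp only [map_add, map_smul, LinearMap.add_apply, LinearMap.smul_apply, smul_eq_mul] at h3 ⊢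
      linarith

theorem ldot_map (l : List ℕ) (f : ℕ → ℤ) (E : ℕ → V) :
    ldot (l.map f) (l.map E) = lsum l fun j => (f j : ℝ) • E j := by
  induction l with
  | nil => rfl
  | cons a l ih => simp [ldot, lsum_cons, ih]

theorem lquad_map (g : V →ₗ[ℝ] V →ₗ[ℝ] ℝ) (all : List V) (l : List ℕ) (f : ℕ → List ℤ)
    (E : ℕ → V) : lquad g all (l.map f) (l.map E) = lsum l fun i => g (E i) (ldot (f i) all) := by
  induction l with
  | nil => rfl
  | cons a l ih => simp [lquad, lsum_cons, ih]

theorem lsum_range {M : Type} [AddCommMonoid M] (n : ℕ) (f : ℕ → M) :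
    lsum (List.range n) f = ∑ i ∈ range n, f i := by
  induction n generalizing f with
  | zero => rfl
  | succ n ih => rw [List.range_succ_eq_map, lsum_cons, lsum_map, ih, sum_range_succ', add_comm]

theorem psd_toLists (g : V →ₗ[ℝ] V →ₗ[ℝ] ℝ) (hs : ∀ x y, g x y = g y x) (hp : ∀ x, 0 ≤ g x x)
    (k n : ℕ) (M : ℕ → ℕ → ℤ) (h : psdL k (toLists n M) = true) (E : ℕ → V) :
    0 ≤ ∑ i ∈ range n, ∑ j ∈ range n, (M i j : ℝ) * g (E i) (E j) := by
  have := psdL_sound g hs hp k _ ((List.range n).map E) h
  rw [toLists, lquad_map, lsum_range] at this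
  simpa only [ldot_map, lsum_range, map_sum, map_smul, smul_eq_mul] using this

end psd

end Vale.Agent.P359
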