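import Mathlib

/-! Statement-level definitions for the spherical Laughlin Hamiltonian. -/

namespace Vale.Agent.P359

/-- `U_Q^{⊗ N}` in the orthonormal product basis; the basis vector `a : Fin (Q+1)` of `U_Q` is the
normalized monomial `sqrt (C(Q,a)) u^(Q-a) v^a`. -/
abbrev Tens (Q N : ℕ) := EuclideanSpace ℂ (Fin N → Fin (Q + 1))

/-- `U_Q ⊗ U_Q`. -/
abbrev Two (Q : ℕ) := EuclideanSpace ℂ (Fin (Q + 1) × Fin (Q + 1))

/-- Orthogonal projection onto a subspace of a finite-dimensional complex inner product space. -/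
noncomputable def orthProj {E : Type} [NormedAddCommGroup E] [InnerProductSpace ℂ E]
    [FiniteDimensional ℂ E] (S : Submodule ℂ E) (v : E) : E := S.starProjection v

/-- Orthogonal projection of `v` onto the span of the single vector `φ`. -/
noncomputable def lineProj {ι : Type} [Fintype ι] (φ v : EuclideanSpace ℂ ι) :
    EuclideanSpace ℂ ι := orthProj (Submodule.span ℂ {φ}) v

/-- Real part of the inner product. -/
noncomputable def reInner {ι : Type} [Fintype ι] (u v : EuclideanSpace ℂ ι) : ℝ :=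
  (inner ℂ u v).re

/-- Matrix of the spin lowering operator `J_- = v ∂_u` of `U_Q` in the orthonormal basis. -/
noncomputable def low (Q : ℕ) (a b : Fin (Q + 1)) : ℝ :=
  if (a : ℕ) = (b : ℕ) + 1 then Real.sqrt ((((b : ℕ) : ℝ) + 1) * ((Q : ℝ) - ((b : ℕ) : ℝ))) else 0

/-- Total lowering operator `J_- ⊗ 1 + 1 ⊗ J_-` on `U_Q ⊗ U_Q`. -/
noncomputable def low2 (Q : ℕ) (φ : Two Q) : Two Q :=
  WithLp.toLp 2 fun p => (∑ c, (low Q p.1 c : ℂ) * φ (c, p.2)) + ∑ c, (low Q p.2 c : ℂ) * φ (p.1, c)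

/-- The highest weight vector `e_0 ⊗ e_1 - e_1 ⊗ e_0` of total spin `Q - 1`. -/
noncomputable def hw (Q : ℕ) : Two Q :=
  WithLp.toLp 2 fun p =>
    if (p.1 : ℕ) = 0 ∧ (p.2 : ℕ) = 1 then 1 else if (p.1 : ℕ) = 1 ∧ (p.2 : ℕ) = 0 then -1 else 0

/-- The irreducible component of total spin `Q - 1` of `U_Q ⊗ U_Q`. -/
noncomputable def spinComp (Q : ℕ) : Submodule ℂ (Two Q) :=
  Submodule.span ℂ (Set.range fun k : ℕ => (low2 Q)^[k] (hw Q))

/-- `P^{(1)}_{ij}`: the orthogonal projection onto `spinComp Q` applied in tensor factors `i, j`. -/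
noncomputable def pairProj {Q N : ℕ} (i j : Fin N) (ψ : Tens Q N) : Tens Q N :=
  WithLp.toLp 2 fun x =>
    orthProj (spinComp Q)
      (WithLp.toLp 2 fun p => ψ (Function.update (Function.update x i p.1) j p.2)) (x i, x j)

/-- `H_{N,Q} = ∑_{i<j} P^{(1)}_{ij}`. -/
noncomputable def ham {Q N : ℕ} (ψ : Tens Q N) : Tens Q N :=
  ∑ i : Fin N, ∑ j : Fin N, if i < j then pairProj i j ψ else 0

/-- Membership in the fermionic space `⋀^N U_Q`. -/
def Antisym {Q N : ℕ} (ψ : Tens Q N) : Prop :=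
  ∀ (σ : Equiv.Perm (Fin N)) (x : Fin N → Fin (Q + 1)),
    ψ (x ∘ σ) = ((Equiv.Perm.sign σ : ℤ) : ℂ) * ψ x

/-- `∏_{i<j} (u_i v_j - u_j v_i)^3`, with `u_i = X (i, false)`, `v_i = X (i, true)`. -/
noncomputable def laughlinPoly (N : ℕ) : MvPolynomial (Fin N × Bool) ℂ :=
  ∏ i : Fin N, ∏ j : Fin N, if i < j then
    (MvPolynomial.X (i, false) * MvPolynomial.X (j, true)
      - MvPolynomial.X (j, false) * MvPolynomial.X (i, true)) ^ 3 else 1

/-- The Laughlin vector at flux `Q = 3 (N - 1)`, in the orthonormal product basis. -/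
noncomputable def laughlin (N : ℕ) : Tens (3 * (N - 1)) N :=
  WithLp.toLp 2 fun x =>
    MvPolynomial.coeff
      (Finsupp.equivFunOnFinite.symm fun p : Fin N × Bool =>
        if p.2 then (x p.1 : ℕ) else 3 * (N - 1) - (x p.1 : ℕ)) (laughlinPoly N)
      / ∏ i, ((Real.sqrt ((3 * (N - 1)).choose (x i)) : ℝ) : ℂ)

end Vale.Agent.P359
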