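import Vale.Agent.P359.Rel0
import Vale.Agent.P359.CG

/-! Embeddings of the pair module and pull-backs of invariant forms. -/

namespace Vale.Agent.P359

open MvPolynomial Finset

noncomputable def emb {σ τ : Type} (u : Pol τ) (g : σ → Pol τ) : Pol σ →ₗ[ℝ] Pol τ :=
  LinearMap.mulLeft ℝ u ∘ₗ (aeval g).toLinearMap

theorem emb_apply {σ τ : Type} (u : Pol τ) (g : σ → Pol τ) (p : Pol σ) :
    emb u g p = u * aeval g p := rfl

noncomputable def i2 : Pol (Fin 1) →ₗ[ℝ] Pol (Fin 2) := emb (X 0 - X 1) ![X 0 + X 1]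
noncomputable def i3 : Pol (Fin 2) →ₗ[ℝ] Pol (Fin 3) := emb (X 0 - X 1) ![X 0 + X 1, X 2]
noncomputable def i4 : Pol (Fin 3) →ₗ[ℝ] Pol (Fin 4) := emb (X 0 - X 1) ![X 0 + X 1, X 2, X 3]
noncomputable def jV : Pol (Fin 2) →ₗ[ℝ] Pol (Fin 3) := emb (X 1 - X 2) ![X 0, X 1 + X 2]

theorem Inv.pull {σ τ : Type} [Fintype σ] [Fintype τ] {μ : σ → ℝ} {ν : τ → ℝ} {ε : ℝ} {F : Form τ}
    (hF : Inv ν ε F) (φ : Pol σ →ₗ[ℝ] Pol τ) (hC : ∀ p, φ (Cm σ * p) = Cm τ * φ p)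
    (hD : ∀ p, φ (Dop μ ε p) = Dop ν ε (φ p)) : Inv μ ε (F.compl₁₂ φ φ) :=
  ⟨fun p q => hF.symm _ _, fun p q => by
    simp only [LinearMap.compl₁₂_apply, hC, hD, hF.inv]⟩

theorem Inv.smul {σ : Type} [Fintype σ] {μ : σ → ℝ} {ε : ℝ} {F : Form σ} (hF : Inv μ ε F) (c : ℝ) :
    Inv μ ε (c • F) :=
  ⟨fun p q => by simp only [LinearMap.smul_apply, hF.symm p q], fun p q => by
    simp only [LinearMap.smul_apply, hF.inv]⟩

theorem i2_C (p : Pol (Fin 1)) : i2 (Cm _ * p) = Cm _ * i2 p := by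
  simp [-aeval_eq_bind₁, i2, emb_apply, Cm, Fin.sum_univ_two]; ring
theorem i3_C (p : Pol (Fin 2)) : i3 (Cm _ * p) = Cm _ * i3 p := by
  simp [-aeval_eq_bind₁, i3, emb_apply, Cm, Fin.sum_univ_two, Fin.sum_univ_three]; ring
theorem i4_C (p : Pol (Fin 3)) : i4 (Cm _ * p) = Cm _ * i4 p := by
  simp [-aeval_eq_bind₁, i4, emb_apply, Cm, Fin.sum_univ_four, Fin.sum_univ_three]; ring
theorem jV_C (p : Pol (Fin 2)) : jV (Cm _ * p) = Cm _ * jV p := by
  simp [-aeval_eq_bind₁, jV, emb_apply, Cm, Fin.sum_univ_two, Fin.sum_univ_three]; ring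

theorem muV_C {σ : Type} (ε : ℝ) : (C (muV ε) : Pol σ) = 2 - 2 * C ε := by
  simp [muV, two_eq]

theorem i2_D (ε : ℝ) (p : Pol (Fin 1)) :
    i2 (Dop (fun _ => muV ε) ε p) = Dop (fun _ => 1) ε (i2 p) := by
  have h : ∀ (j : Fin 2) (p : Pol (Fin 1)), pderiv j (aeval ![(X 0 + X 1 : Pol (Fin 2))] p)
      = aeval ![(X 0 + X 1 : Pol (Fin 2))] (pderiv 0 p) := by
    intro j p; fin_cases j <;> simp [-aeval_eq_bind₁, pderiv_aeval', pderiv_X]
  simp [-aeval_eq_bind₁, i2, emb_apply, Dop_apply, Fin.sum_univ_two, Derivation.leibniz, h, pderiv_X,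
    smul_eq_C_mul, muV_C]
  ring

theorem i3_D (ε : ℝ) (p : Pol (Fin 2)) : i3 (Dop (mu2 ε) ε p) = Dop (fun _ => 1) ε (i3 p) := by
  have h : ∀ (j : Fin 3) (p : Pol (Fin 2)), pderiv j (aeval ![(X 0 + X 1 : Pol (Fin 3)), X 2] p)
      = aeval ![(X 0 + X 1 : Pol (Fin 3)), X 2] (pderiv (![0, 0, 1] j) p) := by
    intro j p; fin_cases j <;> simp [-aeval_eq_bind₁, pderiv_aeval', pderiv_X, Fin.sum_univ_two]
  simp [-aeval_eq_bind₁, i3, emb_apply, Dop_apply, Fin.sum_univ_two, Fin.sum_univ_three, Derivation.leibniz, h,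
    pderiv_X, smul_eq_C_mul, muV_C, mu2]
  ring

theorem i4_D (ε : ℝ) (p : Pol (Fin 3)) : i4 (Dop (mu3 ε) ε p) = Dop (fun _ => 1) ε (i4 p) := by
  have h : ∀ (j : Fin 4) (p : Pol (Fin 3)),
      pderiv j (aeval ![(X 0 + X 1 : Pol (Fin 4)), X 2, X 3] p)
      = aeval ![(X 0 + X 1 : Pol (Fin 4)), X 2, X 3] (pderiv (![0, 0, 1, 2] j) p) := by
    intro j p; fin_cases j <;> simp [-aeval_eq_bind₁, pderiv_aeval', pderiv_X, Fin.sum_univ_three]
  simp [-aeval_eq_bind₁, i4, emb_apply, Dop_apply, Fin.sum_univ_four, Fin.sum_univ_three, Derivation.leibniz, h,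
    pderiv_X, smul_eq_C_mul, muV_C, mu3]
  ring

theorem jV_D (ε : ℝ) (p : Pol (Fin 2)) :
    jV (Dop ![muV ε, muV ε] ε p) = Dop (mu3 ε) ε (jV p) := by
  have h : ∀ (j : Fin 3) (p : Pol (Fin 2)), pderiv j (aeval ![(X 0 : Pol (Fin 3)), X 1 + X 2] p)
      = aeval ![(X 0 : Pol (Fin 3)), X 1 + X 2] (pderiv (![0, 1, 1] j) p) := by
    intro j p; fin_cases j <;> simp [-aeval_eq_bind₁, pderiv_aeval', pderiv_X, Fin.sum_univ_two]
  simp [-aeval_eq_bind₁, jV, emb_apply, Dop_apply, Fin.sum_univ_two, Fin.sum_univ_three, Derivation.leibniz, h,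
    pderiv_X, smul_eq_C_mul, muV_C, mu3]
  ring

theorem i2_pow (M : ℕ) : i2 (X 0 ^ M) = beta M := by simp [-aeval_eq_bind₁, i2, emb_apply, beta]
theorem i3_m2 (M c : ℕ) : i3 (m2 M c) = b3 M c := by simp [-aeval_eq_bind₁, i3, emb_apply, b3, m2, mul_assoc]
theorem i4_jV (M K : ℕ) : i4 (jV (m2 M K)) = b4 M K := by
  simp [-aeval_eq_bind₁, i4, jV, emb_apply, b4, m2]; ring

theorem i3_up (p : Pol (Fin 1)) (a : ℕ) :
    i3 (rename Fin.castSucc p * X (Fin.last 1) ^ a)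
      = rename Fin.castSucc (i2 p) * X (Fin.last 2) ^ a := by
  have h : (aeval ![(X 0 + X 1 : Pol (Fin 3)), X 2]).comp (rename (Fin.castSucc : Fin 1 → Fin 2))
      = (rename (Fin.castSucc : Fin 2 → Fin 3)).comp (aeval ![(X 0 + X 1 : Pol (Fin 2))]) := by
    ext1 i; fin_cases i; simp
  have h' := AlgHom.congr_fun h p
  simp only [AlgHom.comp_apply] at h'
  simp only [i3, i2, emb_apply, map_mul, map_pow, h', map_sub, rename_X, aeval_X, mul_assoc]
  rfl

theorem i4_up (p : Pol (Fin 2)) (a : ℕ) :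
    i4 (rename Fin.castSucc p * X (Fin.last 2) ^ a)
      = rename Fin.castSucc (i3 p) * X (Fin.last 3) ^ a := by
  have h : (aeval ![(X 0 + X 1 : Pol (Fin 4)), X 2, X 3]).comp
      (rename (Fin.castSucc : Fin 2 → Fin 3))
      = (rename (Fin.castSucc : Fin 3 → Fin 4)).comp (aeval ![(X 0 + X 1 : Pol (Fin 3)), X 2]) := by
    ext1 i; fin_cases i <;> simp <;> rfl
  have h' := AlgHom.congr_fun h p
  simp only [AlgHom.comp_apply] at h'
  simp only [i3, i4, emb_apply, map_mul, map_pow, h', map_sub, rename_X, aeval_X, mul_assoc]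
  rfl

theorem sos_pull (F2 : Form (Fin 2)) (F3 : Form (Fin 3)) (F4 : Form (Fin 4)) (n : ℕ → ℝ) (A : ℕ)
    (p0 : Pol (Fin 1)) (p : ℕ → Pol (Fin 2)) :
    sosExpr (F2.compl₁₂ i2 i2) (F3.compl₁₂ i3 i3) (F4.compl₁₂ i4 i4) n A p0 p
      = sosExpr F2 F3 F4 n A (i2 p0) fun a => i3 (p a) := by
  unfold sosExpr
  refine congrArg₂ (· - ·) (congrArg₂ (· + ·) (congrArg₂ (· + ·) rfl (congrArg (2 * ·) ?_)) rfl) ?_
  · refine sum_congr rfl fun a _ => ?_
    exact congrArg (fun x => F3 x (i3 (p a))) (i3_up p0 a)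
  · refine sum_congr rfl fun a _ => sum_congr rfl fun c _ => ?_
    exact congrArg₂ (fun x y => F4 x y) (i4_up (p a) c) (i4_up (p c) a)

theorem i4_swap (p : Pol (Fin 3)) :
    i4 (rename (Equiv.swap 1 2) p) = rename (Equiv.swap 2 3) (i4 p) := by
  have h0 : Equiv.swap (2 : Fin 4) 3 0 = 0 := by decide
  have h1 : Equiv.swap (2 : Fin 4) 3 1 = 1 := by decide
  have h2 : Equiv.swap (1 : Fin 3) 2 0 = 0 := by decide
  have h : (aeval ![(X 0 + X 1 : Pol (Fin 4)), X 2, X 3]).comp (rename (Equiv.swap (1 : Fin 3) 2))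
      = (rename (Equiv.swap (2 : Fin 4) 3)).comp (aeval ![(X 0 + X 1 : Pol (Fin 4)), X 2, X 3]) := by
    ext1 i; fin_cases i <;> simp [h0, h1, h2]
  have h' := AlgHom.congr_fun h p
  simp only [AlgHom.comp_apply] at h'
  simp only [i4, emb_apply, map_mul, h', map_sub, rename_X, h0, h1]

theorem null_aux {k : ℕ} (F : Form (Fin k)) (i0 i1 i2 : Fin k) (h01 : i0 ≠ i1) (h12 : i1 ≠ i2)
    (h02 : i0 ≠ i2)
    (anti : ∀ i j, i ≠ j → ∀ p q, F (rename (Equiv.swap i j) p) q = -F p q) (g : Pol (Fin k))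
    (hg1 : rename (Equiv.swap i0 i1) g = g) (hg2 : rename (Equiv.swap i1 i2) g = g) (l : ℕ)
    (hl : l = 0 ∨ l = 1 ∨ l = 3) (q : Pol (Fin k)) :
    F ((X i0 - X i1) * (2 * X i2 - (X i0 + X i1)) ^ l * g) q = 0 := by
  have s1 : Equiv.swap i0 i1 i2 = i2 := Equiv.swap_apply_of_ne_of_ne h02.symm h12.symm
  have s2 : Equiv.swap i1 i2 i0 = i0 := Equiv.swap_apply_of_ne_of_ne h01 h02
  have cyc : ∀ p, F (rename (Equiv.swap i0 i1) (rename (Equiv.swap i1 i2) p)) q = F p q := by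
    intro p; rw [anti _ _ h01, anti _ _ h12, neg_neg]
  have a1 := cyc ((X i0 - X i1) * (2 * X i2 - (X i0 + X i1)) ^ l * g)
  have a2 := cyc (rename (Equiv.swap i0 i1) (rename (Equiv.swap i1 i2)
    ((X i0 - X i1) * (2 * X i2 - (X i0 + X i1)) ^ l * g)))
  simp only [map_mul, map_sub, map_add, map_pow, rename_X, map_ofNat, hg1, hg2, s1, s2,
    Equiv.swap_apply_left, Equiv.swap_apply_right] at a1 a2
  have a3 : (X i0 - X i1) * (2 * X i2 - (X i0 + X i1)) ^ l * g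
      + (X i1 - X i2) * (2 * X i0 - (X i1 + X i2)) ^ l * g
      + (X i2 - X i0) * (2 * X i1 - (X i2 + X i0)) ^ l * g = 0 := by
    rcases hl with rfl | rfl | rfl <;> ring
  have a4 := congrArg (fun p => F p q) a3
  simp only [map_add, LinearMap.add_apply, map_zero, LinearMap.zero_apply] at a4
  linarith

theorem coeff_box {k : ℕ} (Q : ℕ) (p : Pol (Fin k)) (i j : Fin k) (hij : i ≠ j) (n : ℕ)
    (hp : p.IsWeightedHomogeneous (Pi.single i 1 + Pi.single j 1 : Fin k → ℕ) n) (hn : 2 * Q ≤ n)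
    (ha : rename (Equiv.swap i j) p = -p) (d : Fin k →₀ ℕ) (hd : ∀ t, d t ≤ Q) : coeff d p = 0 := by
  by_contra h
  have h1 := hp h
  rw [Finsupp.weight_apply, Finsupp.sum_fintype _ _ (by simp)] at h1
  simp only [Pi.add_apply, mul_add, sum_add_distrib, Pi.single_apply, smul_eq_mul, mul_ite,
    mul_one, mul_zero, sum_ite_eq', mem_univ, if_true] at h1
  have h2 : d i = d j := by have := hd i; have := hd j; omega
  have h3 : d.mapDomain (Equiv.swap i j) = d := by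
    ext t
    rw [Finsupp.mapDomain_equiv_apply, Equiv.symm_swap, Equiv.swap_apply_def]
    split_ifs with h4 h5
    · rw [h4, h2]
    · rw [h5, h2]
    · rfl
  have h4 := coeff_rename_mapDomain (Equiv.swap i j) (Equiv.injective _) p d
  rw [h3, ha, coeff_neg] at h4
  exact h (by linarith)

theorem whom_pair {k : ℕ} (i j : Fin k) (hij : i ≠ j) (M : ℕ) (g : Pol (Fin k))
    (hg : g.IsWeightedHomogeneous (Pi.single i 1 + Pi.single j 1 : Fin k → ℕ) 0) :
    ((X i - X j) * (X i + X j) ^ M * g).IsWeightedHomogeneous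
      (Pi.single i 1 + Pi.single j 1 : Fin k → ℕ) (M + 1) := by
  have hi := isWeightedHomogeneous_X ℝ (Pi.single i 1 + Pi.single j 1 : Fin k → ℕ) i
  have hj := isWeightedHomogeneous_X ℝ (Pi.single i 1 + Pi.single j 1 : Fin k → ℕ) j
  simp only [Pi.add_apply, Pi.single_eq_same, Pi.single_eq_of_ne hij, Pi.single_eq_of_ne hij.symm,
    add_zero, zero_add] at hi hj
  have := ((hi.sub hj).mul ((hi.add hj).pow M)).mul hg
  simpa [add_comm] using this

theorem whom_X0 {k : ℕ} (i j t : Fin k) (hi : t ≠ i) (hj : t ≠ j) :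
    (X t : Pol (Fin k)).IsWeightedHomogeneous (Pi.single i 1 + Pi.single j 1 : Fin k → ℕ) 0 := by
  have h := isWeightedHomogeneous_X ℝ (Pi.single i 1 + Pi.single j 1 : Fin k → ℕ) t
  simpa [Pi.single_eq_of_ne hi, Pi.single_eq_of_ne hj] using h

theorem b3_box (Q M c : ℕ) (h : 2 * Q - 2 < M ∨ Q < c) (d : Fin 3 →₀ ℕ) (hd : ∀ t, d t ≤ Q) :
    coeff d (b3 M c) = 0 := by
  rcases h with h | h
  · refine coeff_box Q _ 0 1 (by decide) (M + 1) (whom_pair 0 1 (by decide) M _ ?_) (by omega) ?_ d hd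
    · simpa using (whom_X0 (0 : Fin 3) 1 2 (by decide) (by decide)).pow c
    · have h0 : Equiv.swap (0 : Fin 3) 1 2 = 2 := by decide
      simp [b3, h0]; ring
  · rw [b3, X_pow_eq_monomial, coeff_mul_monomial', if_neg]
    intro h1
    have := h1 2
    have := hd 2
    simp at *; omega

theorem b4_box (Q M K : ℕ) (h : 2 * Q - 2 < M ∨ 2 * Q - 2 < K) (d : Fin 4 →₀ ℕ)
    (hd : ∀ t, d t ≤ Q) : coeff d (b4 M K) = 0 := by
  rcases h with h | h
  · refine coeff_box Q _ 0 1 (by decide) (M + 1) (whom_pair 0 1 (by decide) M _ ?_) (by omega) ?_ d hd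
    · have h2 := whom_X0 (0 : Fin 4) 1 2 (by decide) (by decide)
      have h3 := whom_X0 (0 : Fin 4) 1 3 (by decide) (by decide)
      simpa using (h2.sub h3).mul ((h2.add h3).pow K)
    · have h0 : Equiv.swap (0 : Fin 4) 1 2 = 2 := by decide
      have h1 : Equiv.swap (0 : Fin 4) 1 3 = 3 := by decide
      simp [b4, h0, h1]; ring
  · rw [b4, mul_comm]
    refine coeff_box Q _ 2 3 (by decide) (K + 1) (whom_pair 2 3 (by decide) K _ ?_) (by omega) ?_ d hd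
    · have h2 := whom_X0 (2 : Fin 4) 3 0 (by decide) (by decide)
      have h3 := whom_X0 (2 : Fin 4) 3 1 (by decide) (by decide)
      simpa using (h2.sub h3).mul ((h2.add h3).pow M)
    · have h0 : Equiv.swap (2 : Fin 4) 3 0 = 0 := by decide
      have h1 : Equiv.swap (2 : Fin 4) 3 1 = 1 := by decide
      simp [h0, h1]; ring

theorem rho_zero {Q : ℕ} (m k : ℕ) {J : Type} [Fintype J] (w : J → Vec Q (m + k))
    (p q : Pol (Fin k)) (h : ∀ d : Fin k →₀ ℕ, (∀ t, d t ≤ Q) → coeff d p = 0) :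
    rho m k w p q = 0 := by
  have : ∀ a, vec Q p a = 0 := fun a => by
    rw [vec, h _ (fun t => Nat.lt_succ_iff.1 (a t).2), zero_mul]
  simp [rho_apply, con, this]

end Vale.Agent.P359
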