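import Vale.Agent.P359.RelQ

/-! Pauli bounds and the truncated energy inequality at finite flux. -/

namespace Vale.Agent.P359

open MvPolynomial Finset

variable {Q : ℕ} {E : ℝ} {G1 : Form (Fin 2)} {G2 : Form (Fin 3)}

theorem eps_pos' (hQ : 1 ≤ Q) : 0 < eps Q := inv_pos.2 (by exact_mod_cast hQ)
theorem e_one (hQ : 1 ≤ Q) : (Q : ℝ) * eps Q = 1 :=
  mul_inv_cancel₀ (by have : 0 < Q := hQ; positivity)
theorem e_two (hQ : 1 ≤ Q) : ((2 * Q - 2 : ℕ) : ℝ) * eps Q = muV (eps Q) := by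
  rw [Nat.cast_sub (by omega), muV]; push_cast; linear_combination 2 * e_one hQ

theorem up2 (i a : ℕ) : (rename Fin.castSucc (X 0 ^ i : Pol (Fin 1)) * X (Fin.last 1) ^ a
    : Pol (Fin 2)) = m2 i a := by rw [map_pow, rename_X]; rfl

theorem up3 (i a c : ℕ) : (rename Fin.castSucc (m2 i a) * X (Fin.last (1 + 1)) ^ c
    : Pol (Fin 3)) = m3 i a c := by rw [m2, map_mul, map_pow, map_pow, rename_X, rename_X]; rfl

theorem RelQ.pauliA (h : RelQ Q E G1 G2) (hQ : 1 ≤ Q) (i a : ℕ) (ha : a ≤ Q) :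
    G1 (m2 i a) (m2 i a) ≤ nn (muV (eps Q)) (eps Q) i * nn 1 (eps Q) a := by
  have h0 := h.sos (a + 1) (by omega) ((-nn 1 (eps Q) a) • X 0 ^ i)
    fun b => lsum [a] fun e => if e = b then m2 i a else 0
  rw [sos_list _ G1 G2 _ (a + 1) _ [a] (fun e => e) (fun _ => m2 i a) (by simp)] at h0
  have h1 : G2 (rename Fin.castSucc (m2 i a) * X (Fin.last (1 + 1)) ^ a)
      (rename Fin.castSucc (m2 i a) * X (Fin.last (1 + 1)) ^ a) = 0 := by
    have h3 := h.anti (m3 i a a) (m3 i a a)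
    have h4 : rename (Equiv.swap (1 : Fin 3) 2) (m3 i a a) = m3 i a a := by
      have h0 : Equiv.swap (1 : Fin 3) 2 0 = 0 := by decide
      simp only [m3, map_mul, map_pow, rename_X, Equiv.swap_apply_left, Equiv.swap_apply_right, h0]
      ring
    rw [h4] at h3
    rw [up3]; linarith
  have h5 := (Nf_inv (fun _ : Fin 1 => muV (eps Q)) (eps Q)).one_var i i
  rw [if_pos rfl, Nf_one_one, mul_one] at h5
  simp only [lsum_cons, lsum_nil, h1, if_true, add_zero, map_smul, LinearMap.smul_apply,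
    smul_eq_mul, smul_mul_assoc, h5] at h0
  erw [up2] at h0
  have hf : 0 < nn 1 (eps Q) a := n1_pos hQ ha
  nlinarith

theorem RelQ.pauliB (h : RelQ Q E G1 G2) (i a c : ℕ) (hc : c ≤ Q) :
    G2 (m3 i a c) (m3 i a c) ≤ nn 1 (eps Q) c * G1 (m2 i a) (m2 i a) := by
  have h0 := h.sos (c + 1) (by omega) 0 fun b => lsum [c] fun e => if e = b then m2 i a else 0
  rw [sos_list _ G1 G2 _ (c + 1) _ [c] (fun e => e) (fun _ => m2 i a) (by simp)] at h0
  simp only [lsum_cons, lsum_nil, if_true, add_zero, map_zero, zero_mul, LinearMap.zero_apply]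
    at h0
  erw [up3] at h0
  linarith

theorem SS_pos {μ0 μ1 ε : ℝ} {l : ℕ} (h0 : ∀ i ≤ l, 0 < nn μ0 ε i) (h1 : ∀ i ≤ l, 0 < nn μ1 ε i) :
    0 < SS μ0 μ1 ε l :=
  sum_pos (fun a ha => one_div_pos.2 (mul_pos (h0 _ (by omega))
    (h1 _ (by have := mem_range.1 ha; omega)))) ⟨0, by simp⟩

theorem RelQ.x_le (h : RelQ Q E G1 G2) (hQ : 2 ≤ Q) (l : ℕ) (hl : l ≤ Q) :
    G1 (hv (muV (eps Q)) 1 (eps Q) l) (hv (muV (eps Q)) 1 (eps Q) l) / SS (muV (eps Q)) 1 (eps Q) l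
      ≤ l + 1 := by
  have h0 : ∀ i ≤ l, 0 < nn (muV (eps Q)) (eps Q) i := fun i hi => nV_pos hQ (by omega)
  have h1 : ∀ i ≤ l, 0 < nn 1 (eps Q) i := fun i hi => n1_pos (by omega) (by omega)
  rw [div_le_iff₀ (SS_pos h0 h1), hv]
  refine (h.psd1.sum_le h.inv1.symm _ _).trans ?_
  push_cast
  refine mul_le_mul_of_nonneg_left (sum_le_sum fun a ha => ?_) (by positivity)
  have ha' := mem_range.1 ha
  have a1 := mul_pos (h0 (l - a) (by omega)) (h1 a (by omega))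
  have a2 := h.pauliA (by omega) (l - a) a (by omega)
  simp only [map_smul, LinearMap.smul_apply, smul_eq_mul]
  rw [← mul_assoc, div_mul_div_comm, neg_one_sq_pow, div_mul_eq_mul_div, one_mul,
    div_le_div_iff₀ (mul_pos a1 a1) a1, one_mul]
  exact mul_le_mul_of_nonneg_right a2 a1.le

theorem ratio_le (hQ : 10 ≤ Q) (l : ℕ) (hl : l + 2 ≤ Q) :
    2 ^ (l + 2) * nn 1 (eps Q) (l + 2) ≤ 6 / 5 * nn (muV (eps Q)) (eps Q) (l + 2) := by
  have e0 := eps_pos' (Q := Q) (by omega)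
  have e1 := e_one (Q := Q) (by omega)
  have e2 : (10 : ℝ) ≤ Q := by exact_mod_cast hQ
  have e3 : eps Q ≤ 1 / 10 := by nlinarith
  induction l with
  | zero =>
    simp only [zero_add, nn_succ, nn_zero, muV]
    norm_num
    nlinarith
  | succ l ih =>
    have h1 := ih (by omega)
    have h2 : 0 < nn (muV (eps Q)) (eps Q) (l + 2) := nV_pos (by omega) (by omega)
    have h3 : ((l + 2 : ℕ) : ℝ) * eps Q ≤ 1 := by
      rw [← e1]; exact mul_le_mul_of_nonneg_right (by exact_mod_cast (by omega : l + 2 ≤ Q)) e0.le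
    have h4 : 2 * (1 - ((l + 2 : ℕ) : ℝ) * eps Q) ≤ muV (eps Q) - ((l + 2 : ℕ) : ℝ) * eps Q := by
      rw [muV]; push_cast; nlinarith [mul_nonneg (Nat.cast_nonneg (α := ℝ) l) e0.le]
    have h5 := mul_le_mul h1 h4 (by linarith) (by positivity)
    rw [show l + 1 + 2 = l + 2 + 1 from rfl, nn_succ _ _ (l + 2), nn_succ _ _ (l + 2), pow_succ]
    have h6 : (0 : ℝ) ≤ ((l + 2 : ℕ) : ℝ) + 1 := by positivity
    have := mul_le_mul_of_nonneg_left h5 h6
    linarith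

theorem kap_ge (hQ : 10 ≤ Q) (l : ℕ) (h2 : 2 ≤ l) (hl : l ≤ Q) :
    -(18 / 5 * l / 2 ^ l) ≤ kapE (eps Q) l := by
  obtain ⟨k, rfl⟩ := Nat.exists_eq_add_of_le' h2
  have h1 := ratio_le hQ k hl
  generalize k + 2 = l at *
  have e0 := eps_pos' (Q := Q) (by omega)
  have h3 : (l : ℝ) * eps Q ≤ 1 := by
    rw [← e_one (Q := Q) (by omega)]
    exact mul_le_mul_of_nonneg_right (by exact_mod_cast hl) e0.le
  have h4 : 0 < nn (muV (eps Q)) (eps Q) l := nV_pos (by omega) (by omega)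
  have h5 : 0 < nn 1 (eps Q) l := n1_pos (by omega) hl
  have h6 : nn 1 (eps Q) l / nn (muV (eps Q)) (eps Q) l ≤ 6 / 5 / 2 ^ l := by
    rw [div_le_div_iff₀ h4 (by positivity)]; linarith
  have h7 : (2 : ℝ) ≤ l := by exact_mod_cast h2
  have h8 : 0 ≤ 3 * (l : ℝ) - 1 - l * (l + 1) * eps Q := by nlinarith
  have h9 : 3 * (l : ℝ) - 1 - l * (l + 1) * eps Q ≤ 3 * l := by
    have : 0 ≤ (l : ℝ) * (l + 1) * eps Q := by positivity
    linarith
  have h10 := mul_le_mul h6 h9 h8 (by positivity)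
  have h11 := mul_nonneg (div_pos h5 h4).le h8
  have h12 : 6 / 5 / 2 ^ l * (3 * (l : ℝ)) = 18 / 5 * l / 2 ^ l := by ring
  rw [kapE, mul_assoc]
  rcases neg_one_pow_eq_or ℝ l with h | h <;> rw [h] <;> linarith

theorem tail_sum (n : ℕ) : ∑ l ∈ Ico 20 (20 + n), (l : ℝ) * (l + 1) / 2 ^ l
    ≤ 928 / 2 ^ 20 - 2 * (((20 + n : ℕ) : ℝ) ^ 2 + 3 * (20 + n : ℕ) + 4) / 2 ^ (20 + n) := by
  induction n with
  | zero => norm_num
  | succ n ih =>
    rw [← add_assoc, sum_Ico_succ_top (by omega)]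
    refine (add_le_add ih le_rfl).trans (le_of_eq ?_)
    push_cast; rw [pow_succ 2 (20 + n)]; field_simp; ring

theorem RelQ.energy_le (h : RelQ Q E G1 G2) (hQ : 20 ≤ Q) :
    1 - 1 / 200 + ∑ l ∈ range 20, (3 - (1 + 2 * l) * eps Q) / (2 - eps Q) * kapE (eps Q) l
      * (G1 (hv (muV (eps Q)) 1 (eps Q) l) (hv (muV (eps Q)) 1 (eps Q) l)
        / SS (muV (eps Q)) 1 (eps Q) l)
    + ∑ s ∈ range 20, (4 - (3 + 2 * s) * eps Q) / (4 * (2 - eps Q))
      * (G2 (jV (hv (muV (eps Q)) (muV (eps Q)) (eps Q) s))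
          (jV (hv (muV (eps Q)) (muV (eps Q)) (eps Q) s))
        / SS (muV (eps Q)) (muV (eps Q)) (eps Q) s) ≤ E := by
  have hQ1 : 1 ≤ Q := by omega
  have e0 := eps_pos' hQ1
  have e1 := e_one hQ1
  have e2 := e_two hQ1
  have e3 : (20 : ℝ) ≤ Q := by exact_mod_cast hQ
  have e4 : 2 * Q - 2 + 1 = 2 * Q - 1 := by omega
  have e5 : (0 : ℝ) < 2 * Q - 1 := by linarith
  have e6 : 2 - eps Q = (2 * Q - 1) * eps Q := by linear_combination -2 * e1
  have pV : ∀ i ≤ 2 * Q - 2, 0 < nn (muV (eps Q)) (eps Q) i := fun i hi =>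
    nV_pos (by omega) (by omega)
  have p1 : ∀ i ≤ Q, 0 < nn 1 (eps Q) i := fun i hi => n1_pos hQ1 hi
  have t1 := @trace_formula (2 * Q - 2) Q (eps Q) (by omega) e0 (KK (eps Q)) G1
  rw [e1, e2, e4] at t1
  replace t1 := t1 (KK_inv _) (KK_box hQ1) h.inv1 h.box1
  have t2 := @trace_formula (2 * Q - 2) (2 * Q - 2) (eps Q) le_rfl e0 (G2.compl₁₂ jV jV)
    (Nf ![muV (eps Q), muV (eps Q)] (eps Q))
  have hb := Nf_boxed (2 * Q - 2) (2 * Q - 2) (eps Q)
  rw [e2] at hb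
  rw [e2, e4] at t2
  replace t2 := t2 (h.inv2.pull jV jV_C (jV_D _)) h.box2 (Nf_inv _ _) hb
  have t3 : ∑ i ∈ range (2 * Q - 1), ∑ a ∈ range (2 * Q - 1),
      G2 (jV (m2 i a)) (jV (m2 i a)) / (nV Q i * nV Q a)
      = ∑ s ∈ range (2 * Q - 1), ((2 * Q - 2 + (2 * Q - 2) + 1 - 2 * s : ℕ) : ℝ) *
        (G2 (jV (hv (muV (eps Q)) (muV (eps Q)) (eps Q) s))
          (jV (hv (muV (eps Q)) (muV (eps Q)) (eps Q) s))
        / SS (muV (eps Q)) (muV (eps Q)) (eps Q) s) := by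
    refine Eq.trans (sum_congr rfl fun i hi => sum_congr rfl fun a ha => ?_)
      (t2.trans (sum_congr rfl fun s hs => ?_))
    · have a1 := pV i (by have := mem_range.1 hi; omega)
      have a2 := pV a (by have := mem_range.1 ha; omega)
      simp only [Nf_m2, coeff_m2]
      rw [sum_eq_single i, sum_eq_single a]
      · simp only [LinearMap.compl₁₂_apply, nV, and_self, if_true]
        field_simp
      · intro b _ hb; rw [if_neg (fun h => hb h.2.symm)]; simp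
      · intro h; exact absurd ha h
      · intro b _ hb
        exact sum_eq_zero fun c _ => by rw [if_neg (fun h => hb h.1.symm)]; simp
      · intro h; exact absurd hi h
    · have hs' := mem_range.1 hs
      have a1 : ∀ i ≤ s, 0 < nn (muV (eps Q)) (eps Q) i := fun i hi => pV i (by omega)
      have a2 := SS_pos a1 a1
      rw [Nf_hv _ _ _ _ (fun i hi => (a1 i hi).ne') (fun i hi => (a1 i hi).ne'), ← SS,
        div_self a2.ne', mul_one]
      rfl
  set x : ℕ → ℝ := fun l => G1 (hv (muV (eps Q)) 1 (eps Q) l) (hv (muV (eps Q)) 1 (eps Q) l)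
    / SS (muV (eps Q)) 1 (eps Q) l with hx
  set y : ℕ → ℝ := fun s => G2 (jV (hv (muV (eps Q)) (muV (eps Q)) (eps Q) s))
    (jV (hv (muV (eps Q)) (muV (eps Q)) (eps Q) s))
      / SS (muV (eps Q)) (muV (eps Q)) (eps Q) s with hy
  have t4 := t1.trans (sum_congr rfl
    (g := fun l => ((2 * Q - 2 + Q + 1 - 2 * l : ℕ) : ℝ) * (kapE (eps Q) l * x l)) fun l hl => by
      have hl' := mem_range.1 hl
      have a1 : ∀ i ≤ l, 0 < nn (muV (eps Q)) (eps Q) i := fun i hi => pV i (by omega)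
      have a2 : ∀ i ≤ l, 0 < nn 1 (eps Q) i := fun i hi => p1 i (by omega)
      rw [Nf_hv _ _ _ _ (fun i hi => (a1 i hi).ne') (fun i hi => (a2 i hi).ne'), ← SS,
        KK_val _ _ (fun i hi => (a1 i hi).ne') (fun i hi => (a2 i hi).ne'),
        mul_div_cancel_left₀ _ (SS_pos a1 a2).ne'])
  have t5 := h.energy
  rw [t3] at t5
  erw [t4] at t5
  have u1 : ∑ s ∈ range 20, (4 * (Q : ℝ) - 3 - 2 * s) * y s
      ≤ ∑ s ∈ range (2 * Q - 1), ((2 * Q - 2 + (2 * Q - 2) + 1 - 2 * s : ℕ) : ℝ) * y s := by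
    refine le_trans (le_of_eq (sum_congr rfl fun s hs => ?_))
      (sum_le_sum_of_subset_of_nonneg (range_subset_range.2 (by omega : 20 ≤ 2 * Q - 1))
        fun s hs _ => mul_nonneg (by positivity) (div_nonneg (h.psd2 _) (SS_pos ?_ ?_).le))
    · have := mem_range.1 hs
      rw [Nat.cast_sub (by omega)]; push_cast; rw [Nat.cast_sub (by omega)]; push_cast; ring
    all_goals
      intro i hi
      exact pV i (by have := mem_range.1 hs; omega)
  have u2 : -(27 / 5 * (2 * (Q : ℝ) - 1) * ∑ l ∈ Ico 20 (Q + 1), (l : ℝ) * (l + 1) / 2 ^ l)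
      ≤ ∑ l ∈ Ico 20 (Q + 1), ((2 * Q - 2 + Q + 1 - 2 * l : ℕ) : ℝ) * (kapE (eps Q) l * x l) := by
    rw [mul_sum, ← sum_neg_distrib]
    refine sum_le_sum fun l hl => ?_
    have hl' := mem_Ico.1 hl
    have a1 := kap_ge (Q := Q) (by omega) l (by omega) (by omega)
    have a2 : x l ≤ l + 1 := h.x_le (by omega) l (by omega)
    have a3 : 0 ≤ x l := div_nonneg (h.psd1 _)
      (SS_pos (fun i hi => pV i (by omega)) (fun i hi => p1 i (by omega))).le
    have a4 : ((2 * Q - 2 + Q + 1 - 2 * l : ℕ) : ℝ) ≤ 3 / 2 * (2 * Q - 1) := by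
      have : 2 * (2 * Q - 2 + Q + 1 - 2 * l) + 3 ≤ 6 * Q := by omega
      have : 2 * ((2 * Q - 2 + Q + 1 - 2 * l : ℕ) : ℝ) + 3 ≤ 6 * Q := by exact_mod_cast this
      linarith
    have a5 : -(18 / 5 * l / 2 ^ l * (l + 1)) ≤ kapE (eps Q) l * x l := by
      have b1 := mul_le_mul_of_nonneg_right a1 a3
      have b2 := mul_le_mul_of_nonneg_left a2 (by positivity : (0 : ℝ) ≤ 18 / 5 * l / 2 ^ l)
      linarith
    have a6 := mul_le_mul_of_nonneg_left a5 (Nat.cast_nonneg (α := ℝ) (2 * Q - 2 + Q + 1 - 2 * l))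
    have a7 := mul_le_mul_of_nonneg_right a4
      (by positivity : (0 : ℝ) ≤ 18 / 5 * l / 2 ^ l * (l + 1))
    have a8 : 27 / 5 * (2 * (Q : ℝ) - 1) * (l * (l + 1) / 2 ^ l)
      = 3 / 2 * (2 * Q - 1) * (18 / 5 * l / 2 ^ l * (l + 1)) := by ring
    linarith
  have u3 : ∑ l ∈ Ico 20 (Q + 1), (l : ℝ) * (l + 1) / 2 ^ l ≤ 928 / 2 ^ 20 := by
    have := tail_sum (Q + 1 - 20)
    rw [show 20 + (Q + 1 - 20) = Q + 1 by omega] at this
    have h2 : 0 ≤ 2 * (((Q + 1 : ℕ) : ℝ) ^ 2 + 3 * (Q + 1 : ℕ) + 4) / 2 ^ (Q + 1) := by positivity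
    linarith
  have u4 := mul_le_mul_of_nonneg_left u3 e5.le
  rw [← sum_range_add_sum_Ico _ (by omega : 20 ≤ Q + 1)] at t5
  have u5 : (∑ l ∈ range 20, (3 - (1 + 2 * l) * eps Q) / (2 - eps Q) * kapE (eps Q) l * x l)
      * (2 * Q - 1)
      = ∑ l ∈ range 20, ((2 * Q - 2 + Q + 1 - 2 * l : ℕ) : ℝ) * (kapE (eps Q) l * x l) := by
    rw [sum_mul]
    refine sum_congr rfl fun l hl => ?_
    have := mem_range.1 hl
    rw [Nat.cast_sub (by omega)]; push_cast; rw [Nat.cast_sub (by omega)]; push_cast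
    rw [e6, show 3 - (1 + 2 * l) * eps Q = (3 * Q - 1 - 2 * l) * eps Q by
      linear_combination -3 * e1]
    have e7 := e5.ne'
    have e8 := e0.ne'
    generalize 2 * (Q : ℝ) - 1 = D at e7 ⊢
    field_simp; ring
  have u6 : (∑ s ∈ range 20, (4 - (3 + 2 * s) * eps Q) / (4 * (2 - eps Q)) * y s) * (2 * Q - 1)
      = 1 / 4 * ∑ s ∈ range 20, (4 * (Q : ℝ) - 3 - 2 * s) * y s := by
    rw [sum_mul, mul_sum]
    refine sum_congr rfl fun s _ => ?_
    rw [e6, show 4 - (3 + 2 * s) * eps Q = (4 * Q - 3 - 2 * s) * eps Q by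
      linear_combination -4 * e1]
    have e7 := e5.ne'
    have e8 := e0.ne'
    generalize 2 * (Q : ℝ) - 1 = D at e7 ⊢
    field_simp
  refine le_of_mul_le_mul_right ?_ e5
  rw [add_mul, add_mul, u5, u6, t5]
  norm_num at u4 ⊢
  linarith

end Vale.Agent.P359
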