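import Vale.Agent.P359.Defs

/-! Polynomial part of the zero mode classification. -/

namespace Vale.Agent.P359.Kn

open MvPolynomial Finset

section
variable {σ : Type} [DecidableEq σ]

/-- Identify the variable `j` with the variable `i`. -/
def idf (i j : σ) : σ → σ := fun k => if k = j then i else k

theorem idf_i (i j : σ) : idf i j i = i := by simp [idf]
theorem idf_j (i j : σ) : idf i j j = i := by simp [idf]

theorem sub_dvd (i j : σ) (p : MvPolynomial σ ℂ) : (X i - X j) ∣ p - rename (idf i j) p := by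
  induction p using MvPolynomial.induction_on with
  | C a => simp
  | add p q hp hq =>
    have : p + q - rename (idf i j) (p + q)
        = (p - rename (idf i j) p) + (q - rename (idf i j) q) := by rw [map_add]; ring
    rw [this]; exact dvd_add hp hq
  | mul_X p k hp =>
    have : p * X k - rename (idf i j) (p * X k)
        = (p - rename (idf i j) p) * X k + rename (idf i j) p * (X k - X (idf i j k)) := by
      rw [map_mul, rename_X]; ring
    rw [this]
    refine dvd_add (hp.mul_right _) (Dvd.dvd.mul_left ?_ _)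
    by_cases h : k = j
    · subst h
      rw [idf_j]; exact ⟨-1, by ring⟩
    · simp [idf, h]

theorem ren_sub (i j : σ) : rename (idf i j) (X i - X j : MvPolynomial σ ℂ) = 0 := by
  simp [idf_i, idf_j]

theorem dvd_iff (i j : σ) (p : MvPolynomial σ ℂ) :
    (X i - X j) ∣ p ↔ rename (idf i j) p = 0 := by
  constructor
  · rintro ⟨q, rfl⟩
    rw [map_mul, ren_sub, zero_mul]
  · intro h
    have := sub_dvd i j p
    rwa [h, sub_zero] at this

omit [DecidableEq σ] in
theorem sub_ne {i j : σ} (h : i ≠ j) : (X i - X j : MvPolynomial σ ℂ) ≠ 0 :=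
  fun e => h (X_injective (sub_eq_zero.1 e))

theorem prime_sub {i j : σ} (h : i ≠ j) : Prime (X i - X j : MvPolynomial σ ℂ) := by
  refine ⟨sub_ne h, fun hu => ?_, fun a b hab => ?_⟩
  · have := (dvd_iff i j 1).1 hu.dvd
    simp at this
  · rw [dvd_iff, map_mul, mul_eq_zero] at hab
    simpa only [dvd_iff] using hab

theorem ren_swap (i j : σ) (p : MvPolynomial σ ℂ) :
    rename (idf i j) (rename (Equiv.swap i j) p) = rename (idf i j) p := by
  rw [rename_rename]
  have : idf i j ∘ Equiv.swap i j = idf i j := by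
    ext k
    simp only [Function.comp_apply, Equiv.swap_apply_def]
    split_ifs with h1 h2
    · rw [h1, idf_i, idf_j]
    · rw [h2, idf_i, idf_j]
    · rfl
  rw [this]

theorem dvd_of_odd (i j : σ) (p : MvPolynomial σ ℂ) (h : rename (Equiv.swap i j) p = -p) :
    (X i - X j) ∣ p := by
  rw [dvd_iff]
  have h1 := ren_swap i j p
  rw [h, map_neg] at h1
  have h2 : (2 : MvPolynomial σ ℂ) * rename (idf i j) p = 0 := by linear_combination -h1
  exact (mul_eq_zero.1 h2).resolve_left two_ne_zero

theorem cube_dvd {i j : σ} (h : i ≠ j) (f : MvPolynomial σ ℂ)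
    (ha : rename (Equiv.swap i j) f = -f)
    (hD : rename (idf i j) (X i * pderiv i f - X j * pderiv j f) = 0) :
    (X i - X j) ^ 3 ∣ f := by
  have hs : rename (Equiv.swap i j) (X i - X j : MvPolynomial σ ℂ) = -(X i - X j) := by simp
  obtain ⟨g, rfl⟩ := dvd_of_odd i j f ha
  have hg : rename (Equiv.swap i j) g = g := by
    rw [map_mul, hs] at ha
    exact mul_left_cancel₀ (sub_ne h) (by linear_combination -ha)
  have h1 : X i * pderiv i ((X i - X j) * g) - X j * pderiv j ((X i - X j) * g)
      = (X i + X j) * g + (X i - X j) * (X i * pderiv i g - X j * pderiv j g) := by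
    simp only [Derivation.leibniz, map_sub, pderiv_X_self, pderiv_X_of_ne h, pderiv_X_of_ne h.symm,
      smul_eq_mul]
    ring
  rw [h1, map_add, map_mul, map_mul, ren_sub, zero_mul, add_zero, map_add, rename_X, rename_X,
    idf_i, idf_j, ← two_mul] at hD
  have h2 : rename (idf i j) g = 0 :=
    (mul_eq_zero.1 hD).resolve_left (mul_ne_zero two_ne_zero (X_ne_zero i))
  obtain ⟨u, rfl⟩ := (dvd_iff i j g).2 h2
  have hu : rename (Equiv.swap i j) u = -u := by
    rw [map_mul, hs] at hg
    exact mul_left_cancel₀ (sub_ne h) (by linear_combination -hg)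
  obtain ⟨v, rfl⟩ := dvd_of_odd i j u hu
  exact ⟨v, by ring⟩

end

theorem count {N : ℕ} (k : Fin N) :
    ∑ i : Fin N, ∑ j : Fin N, (if i < j then
      3 * ((if i = k then 1 else 0) + (if j = k then 1 else 0)) else 0) = 3 * (N - 1) := by
  have h1 : ∀ i j : Fin N, (if i < j then
      3 * ((if i = k then 1 else 0) + (if j = k then 1 else 0)) else 0)
      = (if i = k then (if k < j then 3 else 0) else 0)
        + (if j = k then (if i < k then 3 else 0) else 0) := by
    intro i j
    by_cases hi : i = k <;> by_cases hj : j = k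
    · subst hi; subst hj; simp
    · subst hi; simp [hj]
    · subst hj; simp [hi]
    · simp [hi, hj]
  simp only [h1, sum_add_distrib]
  rw [sum_comm]
  simp only [sum_ite_eq', mem_univ, if_true, ← sum_add_distrib]
  have h2 : ∀ j : Fin N, ((if k < j then 3 else 0) + if j < k then 3 else 0)
      = if j ∈ univ.erase k then 3 else 0 := by
    intro j
    rcases lt_trichotomy j k with h | h | h
    · simp [h, h.ne, not_lt_of_gt h]
    · simp [h]
    · simp [h, h.ne', not_lt_of_gt h]
  simp only [h2]
  rw [sum_ite_mem, univ_inter, sum_const, card_erase_of_mem (mem_univ k)]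
  simp [mul_comm]

/-- The dehomogenized Laughlin polynomial. -/
noncomputable def LL (N : ℕ) : MvPolynomial (Fin N) ℂ :=
  ∏ i : Fin N, ∏ j : Fin N, if i < j then (X j - X i) ^ 3 else 1

theorem LL_dvd {N : ℕ} (f : MvPolynomial (Fin N) ℂ)
    (h : ∀ i j : Fin N, i < j → (X j - X i) ^ 3 ∣ f) : LL N ∣ f := by
  have e : LL N = ∏ p ∈ univ.filter (fun p : Fin N × Fin N => p.1 < p.2), (X p.2 - X p.1) ^ 3 := by
    rw [prod_filter, Fintype.prod_prod_type, LL]
  rw [e]
  refine Finset.prod_dvd_of_isRelPrime (fun p hp q hq hpq => ?_)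
    fun p hp => h _ _ (mem_filter.1 hp).2
  have hp' : p.1 < p.2 := (mem_filter.1 hp).2
  have hq' : q.1 < q.2 := (mem_filter.1 hq).2
  refine IsRelPrime.pow ?_
  rw [(prime_sub hp'.ne').irreducible.isRelPrime_iff_not_dvd, dvd_iff, map_sub, rename_X, rename_X,
    sub_eq_zero]
  intro e
  have e' := X_injective e
  unfold idf at e'
  apply hpq
  split_ifs at e' with h1 h2 h2
  · exact absurd (h1.trans h2.symm) hq'.ne'
  · exact absurd (lt_trans (e' ▸ hp') (h1 ▸ hq')) (lt_irrefl _)
  · exact Prod.ext h2.symm e'.symm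
  · exact absurd e' hq'.ne'

theorem degreeOf_LL {N : ℕ} (k : Fin N) : 3 * (N - 1) ≤ degreeOf k (LL N) := by
  have hne : ∀ i j : Fin N,
      (if i < j then (X j - X i) ^ 3 else 1 : MvPolynomial (Fin N) ℂ) ≠ 0 := by
    intro i j
    split_ifs with h
    · exact pow_ne_zero _ (sub_ne h.ne')
    · exact one_ne_zero
  rw [LL, degreeOf_prod_eq _ _ fun i _ => prod_ne_zero_iff.2 fun j _ => hne i j, ← count k]
  refine sum_le_sum fun i _ => ?_
  rw [degreeOf_prod_eq _ _ fun j _ => hne i j]
  refine sum_le_sum fun j _ => ?_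
  by_cases h : i < j
  · rw [if_pos h, if_pos h, degreeOf_pow_eq _ _ _ (sub_ne h.ne')]
    refine Nat.mul_le_mul_left _ ?_
    have key : ∀ l : Fin N, coeff (Finsupp.single l 1) (X j - X i : MvPolynomial (Fin N) ℂ) ≠ 0 →
        1 ≤ degreeOf l (X j - X i : MvPolynomial (Fin N) ℂ) := by
      intro l hl
      simpa using monomial_le_degreeOf l (mem_support_iff.2 hl)
    by_cases hi : i = k
    · subst hi
      rw [if_pos rfl, if_neg h.ne']
      refine key i ?_
      simp [coeff_X, Finsupp.single_eq_single_iff, h.ne']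
    · by_cases hj : j = k
      · subst hj
        rw [if_pos rfl, if_neg hi]
        refine key j ?_
        simp [coeff_X, Finsupp.single_eq_single_iff, h.ne]
      · simp [hi, hj]
  · simp [h]

theorem LL_ne (N : ℕ) : LL N ≠ 0 := by
  refine prod_ne_zero_iff.2 fun i _ => prod_ne_zero_iff.2 fun j _ => ?_
  split_ifs with h
  · exact pow_ne_zero _ (sub_ne h.ne')
  · exact one_ne_zero

theorem eq_C_mul {N : ℕ} (f : MvPolynomial (Fin N) ℂ)
    (h : ∀ i j : Fin N, i < j → (X j - X i) ^ 3 ∣ f) (hd : ∀ k, degreeOf k f ≤ 3 * (N - 1)) :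
    ∃ c : ℂ, f = C c * LL N := by
  obtain ⟨q, rfl⟩ := LL_dvd f h
  by_cases hq : q = 0
  · exact ⟨0, by simp [hq]⟩
  have h0 : ∀ k, degreeOf k q = 0 := by
    intro k
    have h1 := hd k
    have h2 := degreeOf_LL k
    rw [degreeOf_mul_eq (LL_ne N) hq] at h1
    omega
  refine ⟨coeff 0 q, ?_⟩
  rw [mul_comm]
  congr 1
  ext m
  rw [coeff_C]
  split_ifs with hm
  · rw [hm]
  · by_contra hne
    apply hm
    ext k
    have := monomial_le_degreeOf k (mem_support_iff.2 hne)
    rw [h0] at this
    simpa using (Nat.le_zero.1 this).symm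

/-- Dehomogenization `u := 1`, `v := z`. -/
noncomputable def dh (N : ℕ) : MvPolynomial (Fin N × Bool) ℂ →ₐ[ℂ] MvPolynomial (Fin N) ℂ :=
  aeval fun p => if p.2 then X p.1 else 1

theorem dh_laughlin (N : ℕ) : dh N (laughlinPoly N) = LL N := by
  rw [laughlinPoly, LL, map_prod]
  refine prod_congr rfl fun i _ => ?_
  rw [map_prod]
  refine prod_congr rfl fun j _ => ?_
  split_ifs <;> simp [dh]

theorem dh_monomial {N : ℕ} (m : Fin N × Bool →₀ ℕ) (c : ℂ) :
    dh N (monomial m c) = monomial (Finsupp.equivFunOnFinite.symm fun i => m (i, true)) c := by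
  rw [dh, aeval_monomial, monomial_eq, Finsupp.prod_fintype _ _ (by simp),
    Finsupp.prod_fintype _ _ (by simp), Fintype.prod_prod_type]
  simp

theorem laughlin_hom {N : ℕ} (k : Fin N) :
    IsWeightedHomogeneous (fun p : Fin N × Bool => if p.1 = k then 1 else 0) (laughlinPoly N)
      (3 * (N - 1)) := by
  rw [← count k, laughlinPoly]
  refine IsWeightedHomogeneous.prod _ _ _ fun i _ => IsWeightedHomogeneous.prod _ _ _ fun j _ => ?_
  by_cases h : i < j
  · rw [if_pos h, if_pos h, ← smul_eq_mul]
    refine IsWeightedHomogeneous.pow (IsWeightedHomogeneous.sub ?_ ?_) 3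
    · exact (isWeightedHomogeneous_X ℂ _ (i, false)).mul (isWeightedHomogeneous_X ℂ _ (j, true))
    · rw [add_comm]
      exact (isWeightedHomogeneous_X ℂ _ (j, false)).mul (isWeightedHomogeneous_X ℂ _ (i, true))
  · rw [if_neg h, if_neg h]; exact isWeightedHomogeneous_one ℂ _

theorem coeff_LL {N : ℕ} (x : Fin N → ℕ) :
    coeff (Finsupp.equivFunOnFinite.symm x) (LL N)
      = if ∀ i, x i ≤ 3 * (N - 1) then coeff (Finsupp.equivFunOnFinite.symm fun p : Fin N × Bool =>
          if p.2 then x p.1 else 3 * (N - 1) - x p.1) (laughlinPoly N) else 0 := by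
  have hw : ∀ m ∈ (laughlinPoly N).support, ∀ k, m (k, true) + m (k, false) = 3 * (N - 1) := by
    intro m hm k
    have h1 := laughlin_hom k (mem_support_iff.1 hm)
    rw [Finsupp.weight_eq_sum, Fintype.sum_prod_type, sum_eq_single k] at h1
    · simpa using h1
    · intro i _ hi; simp [hi]
    · simp
  rw [← dh_laughlin]
  conv_lhs => rw [(laughlinPoly N).as_sum]
  rw [map_sum, coeff_sum]
  simp only [dh_monomial, coeff_monomial, EmbeddingLike.apply_eq_iff_eq]
  split_ifs with hx
  · rw [sum_eq_single (Finsupp.equivFunOnFinite.symm fun p : Fin N × Bool =>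
          if p.2 then x p.1 else 3 * (N - 1) - x p.1)]
    · simp
    · intro m hm hne
      rw [if_neg]
      intro e
      apply hne
      ext ⟨k, b⟩
      have h1 := hw m hm k
      have h2 := congrFun e k
      cases b
      · simp; omega
      · simpa using h2
    · intro hm
      rw [notMem_support_iff.1 hm]; simp
  · refine sum_eq_zero fun m hm => if_neg fun e => hx fun k => ?_
    have h1 := hw m hm k
    have h2 := congrFun e k
    omega

end Vale.Agent.P359.Kn
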