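import Vale.Agent.P359.SpecA
import Vale.Agent.P359.KernelA

/-! Zero modes at the Laughlin flux are multiples of the Laughlin vector. -/

namespace Vale.Agent.P359

namespace Kn

open MvPolynomial Finset Function Sp

variable {Q N : ℕ}

theorem pair_zero (hQ : 2 ≤ Q) (ψ : Vec Q N) (h : ∀ x, hamK ψ x = 0) {i j : Fin N} (hij : i < j)
    (x) : pairK i j ψ x = 0 := by
  have h1 : ∀ i j : Fin N, i ≠ j → ∑ x, (starRingEnd ℂ) (ψ x) * pairK i j ψ x
      = ((∑ x, Complex.normSq (pairK i j ψ x) : ℝ) : ℂ) := by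
    intro i j hne
    rw [← sum_congr rfl fun x _ => congrArg _ (pairK_idem hQ hne ψ x), pairK_adj hne]
    push_cast
    refine sum_congr rfl fun x _ => ?_
    rw [← pairK_conj, Complex.normSq_eq_conj_mul_self]
  have h2 : ((∑ i, ∑ j, if i < j then ∑ x, Complex.normSq (pairK i j ψ x) else 0 : ℝ) : ℂ)
      = ∑ x, (starRingEnd ℂ) (ψ x) * hamK ψ x := by
    simp only [hamK, mul_sum]
    rw [rot3, Complex.ofReal_sum]
    refine sum_congr rfl fun i _ => ?_
    rw [Complex.ofReal_sum]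
    refine sum_congr rfl fun j _ => ?_
    by_cases hij : i < j
    · simp only [hij, if_true]; exact (h1 i j hij.ne).symm
    · simp [hij]
  simp only [h, mul_zero, sum_const_zero, Complex.ofReal_eq_zero] at h2
  have hn : ∀ i j : Fin N,
      0 ≤ (if i < j then ∑ x, Complex.normSq (pairK i j ψ x) else 0 : ℝ) := by
    intro i j
    split_ifs
    · exact sum_nonneg fun x _ => Complex.normSq_nonneg _
    · exact le_rfl
  have h3 := (sum_eq_zero_iff_of_nonneg fun i _ => sum_nonneg fun j _ => hn i j).1 h2 i (mem_univ _)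
  have h4 := (sum_eq_zero_iff_of_nonneg fun j _ => hn i j).1 h3 j (mem_univ _)
  rw [if_pos hij] at h4
  exact Complex.normSq_eq_zero.1
    ((sum_eq_zero_iff_of_nonneg fun x _ => Complex.normSq_nonneg _).1 h4 x (mem_univ _))

theorem sum_two {α : Type} [Fintype α] (F : (Fin 2 → α) → ℝ) :
    ∑ a, ∑ b, F ![a, b] = ∑ v, F v := by
  rw [← Fintype.sum_prod_type', ← (finTwoArrowEquiv α).symm.sum_comp]
  rfl

theorem rot3s {α β γ M : Type} [Fintype β] [Fintype γ] [AddCommMonoid M] (s : Finset α)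
    (F : α → β → γ → M) : ∑ b, ∑ c, ∑ a ∈ s, F a b c = ∑ a ∈ s, ∑ b, ∑ c, F a b c := by
  rw [sum_comm (s := s)]
  exact sum_congr rfl fun b _ => sum_comm

theorem beta_P (hQ : 2 ≤ Q) {M : ℕ} (hM : M < 2 * Q - 1) (c d : Fin (Q + 1)) :
    ∑ a, ∑ b, vec Q (beta M) ![a, b] * P1k Q (a, b) (c, d) = vec Q (beta M) ![c, d] := by
  simp only [P1k, mul_sum]
  rw [rot3s, sum_eq_single M]
  · have h1 := sum_two fun v => vec Q (beta M) v * vec Q (beta M) v
    rw [vec_dot (by omega), Nf_beta, if_pos rfl] at h1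
    have h2 : 2 * nV Q M ≠ 0 := by have := nV_pos hQ hM; positivity
    calc _ = (∑ a, ∑ b, vec Q (beta M) ![a, b] * vec Q (beta M) ![a, b])
          * vec Q (beta M) ![c, d] / (2 * nV Q M) := by
          simp only [sum_mul, sum_div]
          exact sum_congr rfl fun a _ => sum_congr rfl fun b _ => by ring
      _ = _ := by rw [h1, mul_div_cancel_left₀ _ h2]
  · intro M' _ hne
    have h1 := sum_two fun v => vec Q (beta M) v * vec Q (beta M') v
    rw [vec_dot (by omega), Nf_beta, if_neg hne.symm] at h1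
    calc _ = (∑ a, ∑ b, vec Q (beta M) ![a, b] * vec Q (beta M') ![a, b])
          * vec Q (beta M') ![c, d] / (2 * nV Q M') := by
          simp only [sum_mul, sum_div]
          exact sum_congr rfl fun a _ => sum_congr rfl fun b _ => by ring
      _ = _ := by rw [h1]; simp
  · intro h; exact absurd (mem_range.2 hM) h

theorem con_zero (hQ : 2 ≤ Q) (ψ : Vec Q N) {i j : Fin N} (hij : i ≠ j)
    (h : ∀ x, pairK i j ψ x = 0) {M : ℕ} (hM : M < 2 * Q - 1) (x) :
    ∑ c, ∑ d, (vec Q (beta M) ![c, d] : ℂ) * ψ (update (update x i c) j d) = 0 := by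
  have h1 : ∑ a, ∑ b, (vec Q (beta M) ![a, b] : ℂ) * pairK i j ψ (update (update x i a) j b) = 0 := by
    simp [h]
  rw [← h1]
  simp only [pairK, upd2 hij, upd2_i hij, update_self, mul_sum]
  rw [rot4]
  refine sum_congr rfl fun c _ => sum_congr rfl fun d _ => ?_
  rw [← beta_P hQ hM c d]
  push_cast
  simp only [sum_mul]
  exact sum_congr rfl fun a _ => sum_congr rfl fun b _ => by ring

theorem n1_eq (hQ : 1 ≤ Q) (a : ℕ) (ha : a ≤ Q) :
    n1 Q a = (a.factorial : ℝ) ^ 2 * (Q.choose a : ℝ) / (Q : ℝ) ^ a := by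
  have hQ' : (Q : ℝ) ≠ 0 := by positivity
  induction a with
  | zero => simp [n1, nn_zero]
  | succ a ih =>
    have h1 : ((Q.choose (a + 1) : ℝ)) * ((a : ℝ) + 1) = Q.choose a * ((Q : ℝ) - a) := by
      have := Nat.choose_succ_right_eq Q a
      rw [← Nat.cast_sub (by omega)]
      exact_mod_cast this
    have h2 := ih (by omega)
    unfold n1 at h2 ⊢
    rw [nn_succ, h2, Nat.factorial_succ, eps, pow_succ (Q : ℝ)]
    push_cast
    field_simp
    linear_combination (-1 : ℝ) * h1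

theorem sqrt_n1 (hQ : 1 ≤ Q) (a : ℕ) (ha : a ≤ Q) :
    Real.sqrt (n1 Q a) = (a.factorial : ℝ) * Real.sqrt (Q.choose a) / Real.sqrt Q ^ a := by
  rw [n1_eq hQ a ha, Real.sqrt_div (by positivity), Real.sqrt_mul (by positivity),
    Real.sqrt_sq (by positivity)]
  congr 1
  rw [Real.sqrt_eq_iff_mul_self_eq (by positivity) (by positivity), ← mul_pow,
    Real.mul_self_sqrt (by positivity)]

theorem coeff_X_pderiv {σ R : Type} [CommRing R] (i : σ) (p : MvPolynomial σ R) (m : σ →₀ ℕ) :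
    coeff m (X i * pderiv i p) = (m i : R) * coeff m p := by
  classical
  induction p using MvPolynomial.induction_on' with
  | add p q hp hq => simp only [map_add, mul_add, coeff_add, hp, hq]
  | monomial a c =>
    rw [X_mul_pderiv_monomial, coeff_smul, coeff_monomial]
    split_ifs with h
    · subst h; simp
    · simp

theorem coeff_beta (M : ℕ) (m : Fin 2 →₀ ℕ) :
    ((M : ℝ) + 1) * coeff m (beta M)
      = if m 0 + m 1 = M + 1 then ((m 0 : ℝ) - m 1) * ((M + 1).choose (m 0) : ℝ) else 0 := by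
  have h1 : C ((M : ℝ) + 1) * beta M
      = X 0 * pderiv 0 ((X 0 + X 1 : Pol (Fin 2)) ^ (M + 1))
        - X 1 * pderiv 1 ((X 0 + X 1 : Pol (Fin 2)) ^ (M + 1)) := by
    simp only [beta, Derivation.leibniz_pow, map_add, pderiv_X_self, map_natCast, map_one,
      pderiv_X_of_ne (show (0 : Fin 2) ≠ 1 by decide),
      pderiv_X_of_ne (show (1 : Fin 2) ≠ 0 by decide), smul_eq_mul, nsmul_eq_mul,
      Nat.add_sub_cancel]
    push_cast; ring
  rw [← coeff_C_mul, h1, coeff_sub, coeff_X_pderiv, coeff_X_pderiv, coeff_add_pow]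
  simp only [HasAntidiagonal.mem_antidiagonal]
  split_ifs
  · ring
  · simp

theorem vec_beta (hQ : 1 ≤ Q) (M : ℕ) (c d : Fin (Q + 1)) :
    vec Q (beta M) ![c, d] = if (c : ℕ) + d = M + 1 then
      (((c : ℕ) : ℝ) - (d : ℕ)) * (M.factorial : ℝ) * Real.sqrt (Q.choose c) * Real.sqrt (Q.choose d)
        / Real.sqrt Q ^ (M + 1) else 0 := by
  have hM : ((M : ℝ) + 1) ≠ 0 := by positivity
  have hs : Real.sqrt Q ≠ 0 := by positivity
  have h1 := coeff_beta M (toF ![c, d])
  have e0 : toF ![c, d] 0 = c := rfl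
  have e1 : toF ![c, d] 1 = d := rfl
  rw [e0, e1] at h1
  rw [vec, Fin.prod_univ_two]
  simp only [Matrix.cons_val_zero, Matrix.cons_val_one]
  split_ifs at h1 ⊢ with h
  · have h2 : (((M + 1).choose c : ℕ) : ℝ) * (c : ℕ).factorial * (d : ℕ).factorial
        = ((M : ℝ) + 1) * M.factorial := by
      have h3 := Nat.add_choose_mul_factorial_mul_factorial (d : ℕ) (c : ℕ)
      rw [add_comm, h, Nat.factorial_succ, mul_right_comm] at h3
      exact_mod_cast h3
    rw [sqrt_n1 hQ c (by omega), sqrt_n1 hQ d (by omega), ← h, pow_add]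
    apply mul_left_cancel₀ hM
    rw [← mul_assoc, h1]
    field_simp
    linear_combination
      (((c : ℕ) : ℝ) - (d : ℕ)) * Real.sqrt (Q.choose c) * Real.sqrt (Q.choose d) * h2
  · rw [(mul_eq_zero.1 h1).resolve_left hM, zero_mul]

theorem key_zero (hQ : 2 ≤ Q) (ψ : Vec Q N) {i j : Fin N} (hij : i ≠ j)
    (h : ∀ x, pairK i j ψ x = 0) (t : ℂ) (x) :
    ∑ c : Fin (Q + 1), ∑ d : Fin (Q + 1), (((c : ℕ) : ℂ) - (d : ℕ)) * (Real.sqrt (Q.choose c) : ℂ)
      * (Real.sqrt (Q.choose d) : ℂ) * t ^ ((c : ℕ) + d) * ψ (update (update x i c) j d) = 0 := by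
  have hs : ((Real.sqrt Q : ℝ) : ℂ) ≠ 0 := by
    have : Real.sqrt Q ≠ 0 := by positivity
    exact_mod_cast this
  have h1 : ∀ c d : Fin (Q + 1), (((c : ℕ) : ℂ) - (d : ℕ)) * (Real.sqrt (Q.choose c) : ℂ)
      * (Real.sqrt (Q.choose d) : ℂ) * t ^ ((c : ℕ) + d)
      = ∑ M ∈ range (2 * Q - 1), ((Real.sqrt Q : ℂ) ^ (M + 1) * t ^ (M + 1) / (M.factorial : ℂ))
        * (vec Q (beta M) ![c, d] : ℂ) := by
    intro c d
    simp only [vec_beta (show 1 ≤ Q by omega)]
    by_cases hcd : (c : ℕ) = d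
    · rw [hcd]; simp
    · have hc := c.2
      have hd := d.2
      obtain ⟨M, hM⟩ : ∃ M, (c : ℕ) + d = M + 1 := ⟨c + d - 1, by omega⟩
      rw [sum_eq_single M, if_pos hM, hM]
      · have : (M.factorial : ℂ) ≠ 0 := by exact_mod_cast M.factorial_ne_zero
        push_cast
        field_simp
      · intro M' _ hne
        rw [if_neg (by omega)]; simp
      · intro hn; exact absurd (mem_range.2 (by omega)) hn
  simp only [h1, sum_mul]
  rw [rot3s]
  refine sum_eq_zero fun M hM => ?_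
  simp only [mul_assoc, ← mul_sum]
  rw [con_zero hQ ψ hij h (mem_range.1 hM) x, mul_zero]

theorem prod_upd2 {α : Type} {i j : Fin N} (hij : i ≠ j) (F : Fin N → α → ℂ) (x : Fin N → α)
    (c d : α) : ∏ k, F k (update (update x i c) j d k)
      = F i c * F j d * ∏ k ∈ (univ.erase i).erase j, F k (x k) := by
  have hj : j ∈ univ.erase i := mem_erase.2 ⟨hij.symm, mem_univ j⟩
  rw [← mul_prod_erase _ _ (mem_univ i), ← mul_prod_erase _ _ hj, upd2_i hij, update_self,
    mul_assoc]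
  congr 2
  refine prod_congr rfl fun k hk => ?_
  rw [update_of_ne (ne_of_mem_erase hk), update_of_ne (ne_of_mem_erase (mem_of_mem_erase hk))]

/-- The coefficients of the wave function. -/
noncomputable def cg (ψ : Vec Q N) (x : Fin N → Fin (Q + 1)) : ℂ :=
  ψ x * ∏ k, (Real.sqrt (Q.choose (x k)) : ℂ)

/-- The wave function as a polynomial. -/
noncomputable def wf (ψ : Vec Q N) : MvPolynomial (Fin N) ℂ := ∑ x, monomial (toF x) (cg ψ x)

theorem toF_apply (x : Fin N → Fin (Q + 1)) (k) : toF x k = x k := rfl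

theorem toF_inj {x y : Fin N → Fin (Q + 1)} (h : toF x = toF y) : x = y := by
  funext k
  exact Fin.ext (by rw [← toF_apply, h, toF_apply])

theorem coeff_wf (ψ : Vec Q N) (x) : coeff (toF x) (wf ψ) = cg ψ x := by
  rw [wf, coeff_sum, sum_eq_single x]
  · simp
  · intro y _ hy
    rw [coeff_monomial, if_neg fun e => hy (toF_inj e)]
  · simp

theorem degreeOf_wf (ψ : Vec Q N) (k) : degreeOf k (wf ψ) ≤ Q := by
  refine (degreeOf_sum_le _ _ _).trans (Finset.sup_le fun x _ => ?_)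
  rw [degreeOf_le_iff]
  intro m hm
  rw [mem_singleton.1 (support_monomial_subset hm), toF_apply]
  exact Nat.lt_succ_iff.1 (x k).2

theorem eval_mon (z : Fin N → ℂ) (x : Fin N → Fin (Q + 1)) (c : ℂ) :
    eval z (monomial (toF x) c) = c * ∏ k, z k ^ (x k : ℕ) := by
  rw [eval_monomial, Finsupp.prod_fintype _ _ (by simp)]; rfl

theorem wf_swap {ψ : Vec Q N} (hψ : AntiF ψ) {i j : Fin N} (hij : i ≠ j) :
    rename (Equiv.swap i j) (wf ψ) = -wf ψ := by
  refine MvPolynomial.funext fun z => ?_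
  rw [eval_rename, map_neg, wf, map_sum, map_sum, ← sum_neg_distrib]
  simp only [eval_mon]
  rw [← Equiv.sum_comp (Equiv.arrowCongr (Equiv.swap i j) (Equiv.refl _))]
  refine sum_congr rfl fun x _ => ?_
  have e : Equiv.arrowCongr (Equiv.swap i j) (Equiv.refl _) x = x ∘ Equiv.swap i j := by
    ext k; simp
  rw [e, cg, cg, hψ, Equiv.Perm.sign_swap hij,
    ← Equiv.prod_comp (Equiv.swap i j) fun k => z k ^ (x k : ℕ),
    ← Equiv.prod_comp (Equiv.swap i j) fun k => (Real.sqrt (Q.choose (x k)) : ℂ)]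
  simp

theorem wf_der (hQ : 2 ≤ Q) (ψ : Vec Q N) {i j : Fin N} (hij : i ≠ j)
    (h : ∀ x, pairK i j ψ x = 0) :
    rename (idf i j) (X i * pderiv i (wf ψ) - X j * pderiv j (wf ψ)) = 0 := by
  refine MvPolynomial.funext fun z => ?_
  rw [eval_rename, map_zero, wf, map_sum, map_sum, mul_sum, mul_sum, ← sum_sub_distrib, map_sum]
  simp only [X_mul_pderiv_monomial, map_sub, map_nsmul, eval_mon, toF_apply]
  simp only [nsmul_eq_mul]
  set F : (Fin N → Fin (Q + 1)) → ℂ := fun x =>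
    ((x i : ℕ) : ℂ) * (cg ψ x * ∏ k, (z ∘ idf i j) k ^ (x k : ℕ))
      - ((x j : ℕ) : ℂ) * (cg ψ x * ∏ k, (z ∘ idf i j) k ^ (x k : ℕ)) with hF
  have h1 := sum_sw2 hij fun x (_ _ : Fin (Q + 1)) => F x
  have h2 : ∀ x, ∑ c, ∑ d, F (update (update x i c) j d) = 0 := by
    intro x
    have h3 := key_zero hQ ψ hij h (z i) x
    have h4 := congrArg (fun t => t * ((∏ k ∈ (univ.erase i).erase j,
      (Real.sqrt (Q.choose (x k)) : ℂ)) * ∏ k ∈ (univ.erase i).erase j,
        (z ∘ idf i j) k ^ (x k : ℕ))) h3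
    simp only [zero_mul, sum_mul] at h4
    rw [← h4]
    refine sum_congr rfl fun c _ => sum_congr rfl fun d _ => ?_
    simp only [hF, cg]
    rw [prod_upd2 hij (fun _ (a : Fin (Q + 1)) => (Real.sqrt (Q.choose a) : ℂ)),
      prod_upd2 hij (fun k (a : Fin (Q + 1)) => (z ∘ idf i j) k ^ (a : ℕ)), upd2_i hij, update_self]
    simp only [comp_apply, idf_i, idf_j]
    ring
  simp only [h2, sum_const_zero, sum_const, card_univ, Fintype.card_fin, nsmul_eq_mul,
    ← mul_sum] at h1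
  have h5 : ((Q + 1 : ℕ) : ℂ) ≠ 0 := by exact_mod_cast Nat.succ_ne_zero Q
  exact (mul_eq_zero.1 ((mul_eq_zero.1 h1).resolve_left h5)).resolve_left h5

end Kn

open Kn MvPolynomial in
theorem ker_sub {N : ℕ} (hN : 2 ≤ N) (ψ : Tens (3 * (N - 1)) N) (hψ : Antisym ψ)
    (h0 : ham ψ = 0) : ψ ∈ Submodule.span ℂ {laughlin N} := by
  have hQ : 2 ≤ 3 * (N - 1) := by omega
  have h1 : ∀ x, hamK (fun y => ψ y) x = 0 := fun x => by rw [← ham_eq hQ, h0]; rfl
  obtain ⟨c, hc⟩ := eq_C_mul (wf fun y => ψ y) (fun i j hij => by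
    have h2 := cube_dvd hij.ne _ (wf_swap (ψ := fun y => ψ y) hψ hij.ne)
      (wf_der hQ _ hij.ne (pair_zero hQ _ h1 hij))
    have e : (X j - X i : MvPolynomial (Fin N) ℂ) ^ 3 = -(X i - X j) ^ 3 := by ring
    rw [e]; exact neg_dvd.2 h2) (degreeOf_wf _)
  rw [Submodule.mem_span_singleton]
  refine ⟨c, ?_⟩
  ext x
  have h2 := coeff_wf (fun y => ψ y) x
  have h3 : ∀ i, (x i : ℕ) ≤ 3 * (N - 1) := fun i => Nat.lt_succ_iff.1 (x i).2
  rw [hc, coeff_C_mul, toF, coeff_LL, if_pos h3, cg] at h2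
  have h4 : (∏ k, (Real.sqrt ((3 * (N - 1)).choose (x k)) : ℂ)) ≠ 0 := by
    refine Finset.prod_ne_zero_iff.2 fun k _ => ?_
    have h5 := Nat.choose_pos (h3 k)
    have : Real.sqrt ((3 * (N - 1)).choose (x k)) ≠ 0 := by positivity
    exact_mod_cast this
  simp only [laughlin, PiLp.smul_apply, smul_eq_mul]
  rw [← mul_div_assoc, h2, mul_div_cancel_right₀ _ h4]

end Vale.Agent.P359
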