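import Vale.Agent.P359.Energy
import Vale.Agent.P359.Cert

/-! Passing to the planar limit along an ultrafilter. -/

namespace Vale.Agent.P359

open MvPolynomial Finset Filter Topology

section
variable {σ : Type} {U : Filter ℕ}

def Conv (U : Filter ℕ) (F : ℕ → Form σ) (G : Form σ) : Prop :=
  ∀ p q, Tendsto (fun k => F k p q) U (𝓝 (G p q))

theorem exists_conv (U : Ultrafilter ℕ) (F : ℕ → Form σ)
    (hb : ∀ a b, ∃ c, ∀ᶠ k in (U : Filter ℕ), |F k (monomial a 1) (monomial b 1)| ≤ c) :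
    ∃ G, Conv U F G := by
  have h1 : ∀ a b, ∃ L, Tendsto (fun k => F k (monomial a 1) (monomial b 1)) U (𝓝 L) := by
    intro a b
    obtain ⟨c, hc⟩ := hb a b
    obtain ⟨L, -, hL⟩ := (isCompact_Icc (a := -c) (b := c)).ultrafilter_le_nhds
      (U.map fun k => F k (monomial a 1) (monomial b 1)) (by
        rw [Ultrafilter.coe_map, le_principal_iff, Filter.mem_map]
        exact hc.mono fun k hk => abs_le.1 hk)
    exact ⟨L, hL⟩
  choose L hL using h1
  have hm : ∀ (a : σ →₀ ℕ) (c : ℝ), monomial a c = c • (basisMonomials σ ℝ) a := fun a c => by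
    simp [smul_monomial]
  refine ⟨(basisMonomials σ ℝ).constr ℝ fun a => (basisMonomials σ ℝ).constr ℝ (L a),
    fun p q => ?_⟩
  induction p using MvPolynomial.induction_on' with
  | add p1 p2 h1 h2 => simp only [map_add, LinearMap.add_apply]; exact h1.add h2
  | monomial a c =>
    induction q using MvPolynomial.induction_on' with
    | add p1 p2 h1 h2 => simp only [map_add]; exact h1.add h2
    | monomial b d =>
      rw [hm a c, hm b d]
      simp only [map_smul, LinearMap.smul_apply, Module.Basis.constr_basis, smul_eq_mul]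
      exact ((hL a b).const_mul c).const_mul d

theorem Dop_split [Fintype σ] (μ μ0 ν : σ → ℝ) (ε : ℝ) (h : ∀ i, μ i = μ0 i + ε * ν i) (q : Pol σ) :
    Dop μ ε q = Dop μ0 0 q + ε • Dop ν 1 q := by
  simp only [Dop_apply, h, smul_sum, ← sum_add_distrib]
  exact sum_congr rfl fun i _ => by module

theorem Conv.inv [Fintype σ] [U.NeBot] {F : ℕ → Form σ} {G : Form σ} (h : Conv U F G) {e : ℕ → ℝ}
    (he : Tendsto e U (𝓝 0)) (μ : ℝ → σ → ℝ) (ν : σ → ℝ) (hμ : ∀ ε i, μ ε i = μ 0 i + ε * ν i)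
    (hF : ∀ k, Inv (μ (e k)) (e k) (F k)) : Inv (μ 0) 0 G := by
  constructor
  · intro p q
    exact tendsto_nhds_unique (h p q) ((h q p).congr fun k => (hF k).symm _ _)
  · intro p q
    have h1 := (h p (Dop (μ 0) 0 q)).add (he.mul (h p (Dop ν 1 q)))
    rw [zero_mul, add_zero] at h1
    refine tendsto_nhds_unique (h _ q) (h1.congr fun k => ?_)
    rw [(hF k).inv, Dop_split _ _ ν _ (hμ (e k)), map_add, map_smul, smul_eq_mul]

theorem tendsto_nn {a e : ℕ → ℝ} {μ ε : ℝ} (ha : Tendsto a U (𝓝 μ)) (he : Tendsto e U (𝓝 ε))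
    (j : ℕ) : Tendsto (fun k => nn (a k) (e k) j) U (𝓝 (nn μ ε j)) :=
  (tendsto_finset_prod _ fun _ _ => ha.sub (he.const_mul _)).const_mul _

theorem conv_Nf [Fintype σ] {a e : ℕ → ℝ} {μ ε : ℝ} (ha : Tendsto a U (𝓝 μ))
    (he : Tendsto e U (𝓝 ε)) :
    Conv U (fun k => Nf (fun _ : σ => a k) (e k)) (Nf (fun _ => μ) ε) := by
  intro p q
  have h : ∀ μ ε, Nf (fun _ : σ => μ) ε p q
      = ∑ d ∈ p.support, wt (fun _ => μ) ε d * coeff d p * coeff d q := fun μ ε =>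
    Nf_eq_sum _ _ _ _ _ fun d hd => by rw [notMem_support_iff.1 hd, mul_zero]
  simp only [h]
  exact tendsto_finset_sum _ fun d _ =>
    ((tendsto_finset_prod _ fun _ _ => tendsto_nn ha he _).mul_const _).mul_const _

theorem nn0_pos {μ : ℝ} (hμ : 0 < μ) (j : ℕ) : 0 < nn μ 0 j := by rw [nn_zero_eps]; positivity

theorem tendsto_SS {a b e : ℕ → ℝ} {μ ν : ℝ} (ha : Tendsto a U (𝓝 μ)) (hb : Tendsto b U (𝓝 ν))
    (he : Tendsto e U (𝓝 0)) (hμ : 0 < μ) (hν : 0 < ν) (l : ℕ) :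
    Tendsto (fun k => SS (a k) (b k) (e k) l) U (𝓝 (SS μ ν 0 l)) :=
  tendsto_finset_sum _ fun _ _ => tendsto_const_nhds.div
    ((tendsto_nn ha he _).mul (tendsto_nn hb he _)) (mul_pos (nn0_pos hμ _) (nn0_pos hν _)).ne'

theorem Conv.hv {F : ℕ → Form (Fin 2)} {G : Form (Fin 2)} (h : Conv U F G) {a b e : ℕ → ℝ} {μ ν : ℝ}
    (ha : Tendsto a U (𝓝 μ)) (hb : Tendsto b U (𝓝 ν))
    (he : Tendsto e U (𝓝 0)) (hμ : 0 < μ) (hν : 0 < ν) (l : ℕ) :
    Tendsto (fun k => F k (hv (a k) (b k) (e k) l) (hv (a k) (b k) (e k) l)) U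
      (𝓝 (G (hv μ ν 0 l) (hv μ ν 0 l))) := by
  have hc : ∀ i j, Tendsto (fun k => (-1 : ℝ) ^ j / (nn (a k) (e k) i * nn (b k) (e k) j)) U
      (𝓝 ((-1) ^ j / (nn μ 0 i * nn ν 0 j))) := fun i j => tendsto_const_nhds.div
    ((tendsto_nn ha he _).mul (tendsto_nn hb he _)) (mul_pos (nn0_pos hμ _) (nn0_pos hν _)).ne'
  simp only [P359.hv, map_sum, LinearMap.sum_apply, map_smul, LinearMap.smul_apply, smul_eq_mul]
  exact tendsto_finset_sum _ fun _ _ => (hc _ _).mul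
    (tendsto_finset_sum _ fun _ _ => (hc _ _).mul (h _ _))

end

theorem choose_div (l a : ℕ) (ha : a ≤ l) :
    (l.choose a : ℝ) = l.factorial / ((l - a).factorial * a.factorial) := by
  rw [Nat.cast_choose ℝ ha, mul_comm]

theorem hv_zero {μ ν : ℝ} (hμ : 0 < μ) (hν : 0 < ν) (l : ℕ) :
    hv μ ν 0 l = ((l.factorial : ℝ)⁻¹) • (C μ⁻¹ * X 0 - C ν⁻¹ * X 1) ^ l := by
  rw [sub_eq_neg_add, add_pow, smul_sum, hv]
  refine sum_congr rfl fun a ha => ?_
  have h1 : (-(C ν⁻¹ * X 1)) ^ a * (C μ⁻¹ * X 0) ^ (l - a) * (l.choose a : Pol (Fin 2))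
      = ((-ν⁻¹) ^ a * μ⁻¹ ^ (l - a) * l.choose a) • m2 (l - a) a := by
    simp only [smul_eq_C_mul, map_mul, map_pow, map_neg, map_natCast, m2, ← neg_mul, mul_pow]
    ring
  rw [h1, smul_smul, choose_div l a (by have := mem_range.1 ha; omega), nn_zero_eps, nn_zero_eps,
    neg_pow ν⁻¹, inv_pow, inv_pow]
  congr 1
  field_simp

theorem SS_zero {μ ν : ℝ} (hμ : 0 < μ) (hν : 0 < ν) (l : ℕ) :
    SS μ ν 0 l = (l.factorial : ℝ)⁻¹ * (ν⁻¹ + μ⁻¹) ^ l := by
  rw [add_pow, mul_sum, SS]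
  refine sum_congr rfl fun a ha => ?_
  rw [choose_div l a (by have := mem_range.1 ha; omega), nn_zero_eps, nn_zero_eps, inv_pow, inv_pow]
  field_simp

theorem lim1 (G : Form (Fin 2)) (l : ℕ) :
    G (hv 2 1 0 l) (hv 2 1 0 l) / SS 2 1 0 l = G (w2 ^ l) (w2 ^ l) / nn 6 0 l := by
  have h : (C (2 : ℝ)⁻¹ * X 0 - C (1 : ℝ)⁻¹ * X 1 : Pol (Fin 2)) = (-(2 : ℝ)⁻¹) • w2 := by
    rw [w2, two_eq, ← smul_eq_C_mul, ← smul_eq_C_mul, ← smul_eq_C_mul]; module
  rw [hv_zero two_pos one_pos, SS_zero two_pos one_pos, h, smul_pow, nn_zero_eps]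
  simp only [map_smul, LinearMap.smul_apply, smul_eq_mul]
  have h1 : (-(2 : ℝ)⁻¹) ^ l * (-(2 : ℝ)⁻¹) ^ l * 6 ^ l = ((1 : ℝ)⁻¹ + 2⁻¹) ^ l := by
    rw [← mul_pow, ← mul_pow]; norm_num
  rw [← h1]
  have h2 : (-(2 : ℝ)⁻¹) ^ l ≠ 0 := pow_ne_zero _ (by norm_num)
  field_simp

theorem lim2 (G : Form (Fin 3)) (l : ℕ) :
    G (jV (hv 2 2 0 l)) (jV (hv 2 2 0 l)) / SS 2 2 0 l
      = G (u3 * e3 ^ l) (u3 * e3 ^ l) / nn 4 0 l := by
  have h : (C (2 : ℝ)⁻¹ * X 0 - C (2 : ℝ)⁻¹ * X 1 : Pol (Fin 2)) = (-(2 : ℝ)⁻¹) • (X 1 - X 0) := by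
    rw [← smul_eq_C_mul, ← smul_eq_C_mul]; module
  have h3 : jV ((X 1 - X 0) ^ l) = u3 * e3 ^ l := by
    simp [-aeval_eq_bind₁, jV, emb_apply, u3, e3]
  rw [hv_zero two_pos two_pos, SS_zero two_pos two_pos, h, smul_pow, nn_zero_eps]
  simp only [map_smul, LinearMap.smul_apply, smul_eq_mul, h3]
  have h1 : (-(2 : ℝ)⁻¹) ^ l * (-(2 : ℝ)⁻¹) ^ l * 4 ^ l = ((2 : ℝ)⁻¹ + 2⁻¹) ^ l := by
    rw [← mul_pow, ← mul_pow]; norm_num
  rw [← h1]
  have h2 : (-(2 : ℝ)⁻¹) ^ l ≠ 0 := pow_ne_zero _ (by norm_num)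
  field_simp

theorem lim3 (l : ℕ) :
    (-1) ^ l * (nn 1 0 l / nn 2 0 l) * (3 * l - 1 - l * (l + 1) * 0) = kap00 l := by
  rw [nn_zero_eps, nn_zero_eps, kap00, div_pow]
  field_simp
  simp

theorem no_seq (Q : ℕ → ℕ) (hQ : ∀ k, k + 20 ≤ Q k) (E : ℕ → ℝ) (hE : ∀ k, E k ≤ 1 / 50)
    (F1 : ℕ → Form (Fin 2)) (F2 : ℕ → Form (Fin 3)) (h : ∀ k, RelQ (Q k) (E k) (F1 k) (F2 k)) :
    False := by
  let U := hyperfilter ℕ
  have hU : (U : Filter ℕ) ≤ atTop := by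
    rw [← Nat.cofinite_eq_atTop]; exact hyperfilter_le_cofinite
  have hQt : Tendsto Q U atTop :=
    (tendsto_atTop_mono (fun k => (Nat.le_add_right k 20).trans (hQ k)) tendsto_id).mono_left hU
  have he : Tendsto (fun k => eps (Q k)) U (𝓝 0) := tendsto_inv_atTop_nhds_zero_nat.comp hQt
  have hm : Tendsto (fun k => muV (eps (Q k))) U (𝓝 2) := by
    have := (he.const_mul 2).const_sub 2
    rwa [mul_zero, sub_zero] at this
  have h1 : Tendsto (fun _ : ℕ => (1 : ℝ)) U (𝓝 1) := tendsto_const_nhds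
  have ev : ∀ a, ∀ᶠ k in (U : Filter ℕ), a ≤ Q k := fun a => hQt.eventually_ge_atTop a
  have b1 : ∀ i a, ∃ c, ∀ᶠ k in (U : Filter ℕ), F1 k (m2 i a) (m2 i a) ≤ c := by
    intro i a
    refine ⟨nn 2 0 i * nn 1 0 a + 1, ?_⟩
    filter_upwards [ev a, ((tendsto_nn hm he i).mul (tendsto_nn h1 he a)).eventually_le_const
      (lt_add_one _)] with k k1 k2
    exact ((h k).pauliA (by have := hQ k; omega) i a k1).trans k2
  have b2 : ∀ i a c, ∃ d, ∀ᶠ k in (U : Filter ℕ), F2 k (m3 i a c) (m3 i a c) ≤ d := by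
    intro i a c
    obtain ⟨d, hd⟩ := b1 i a
    refine ⟨(nn 1 0 c + 1) * d, ?_⟩
    filter_upwards [ev c, hd, (tendsto_nn h1 he c).eventually_le_const (lt_add_one _)]
      with k k1 k2 k3
    exact ((h k).pauliB i a c k1).trans
      (mul_le_mul k3 k2 ((h k).psd1 _) (by have := nn0_pos one_pos c; positivity))
  obtain ⟨G1, c1⟩ := exists_conv U F1 fun a b => by
    obtain ⟨c, hc⟩ := b1 (a 0) (a 1)
    obtain ⟨d, hd⟩ := b1 (b 0) (b 1)
    refine ⟨(c + d) / 2, ?_⟩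
    filter_upwards [hc, hd] with k k1 k2
    rw [m2_eq, ← ee_eq] at k1 k2
    exact ((h k).psd1.abs_le (h k).inv1.symm _ _).trans (by linarith)
  obtain ⟨G2, c2⟩ := exists_conv U F2 fun a b => by
    obtain ⟨c, hc⟩ := b2 (a 0) (a 1) (a 2)
    obtain ⟨d, hd⟩ := b2 (b 0) (b 1) (b 2)
    refine ⟨(c + d) / 2, ?_⟩
    filter_upwards [hc, hd] with k k1 k2
    rw [m3_eq, ← ee3_eq] at k1 k2
    exact ((h k).psd2.abs_le (h k).inv2.symm _ _).trans (by linarith)
  have c0 := conv_Nf (σ := Fin 1) hm he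
  have z : ∀ {f : ℕ → ℝ} {x : ℝ}, Tendsto f U (𝓝 x) → (∀ k, f k = 0) → x = 0 := fun hf h0 =>
    tendsto_nhds_unique hf (tendsto_const_nhds.congr fun k => (h0 k).symm)
  have R : Rel0 (1 / 200) (1 / 50) (Nf (fun _ => 2) 0) G1 G2 := by
    refine ⟨fun d => ?_, c1.inv he mu2 ![-2, 0] (fun ε i => ?_) fun k => (h k).inv1,
      fun p q s t hp hq hst => z (c1 p q) fun k =>
        (h k).inv1.lev (eps_pos' (by have := hQ k; omega)).ne' p q s t hp hq hst,
      fun p => ge_of_tendsto' (c1 p p) fun k => (h k).psd1 p,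
      c2.inv he mu3 ![-2, 0, 0] (fun ε i => ?_) fun k => (h k).inv2,
      fun p => ge_of_tendsto' (c2 p p) fun k => (h k).psd2 p,
      fun p q => tendsto_nhds_unique (c2 _ q) ((c2 p q).neg.congr fun k => ((h k).anti p q).symm),
      fun l hl => z (c1 _ _) fun k => (h k).null1 l hl,
      fun l hl J c q => z (c2 _ _) fun k => (h k).null2 l hl J c q, fun A p0 p => ?_, ?_⟩
    · rw [(Nf_inv _ _).one_var, if_pos rfl, Nf_one_one, mul_one]
    · fin_cases i <;> simp [mu2, muV]; ring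
    · fin_cases i <;> simp [mu3, muV]; ring
    · refine ge_of_tendsto (f := fun k => sosExpr (Nf (fun _ => muV (eps (Q k))) (eps (Q k)))
        (F1 k) (F2 k) (nn 1 (eps (Q k))) A p0 p) ?_
        ((ev A).mono fun k hk => (h k).sos A (by omega) p0 p)
      unfold sosExpr
      exact (((c0 _ _).add ((tendsto_finset_sum _ fun _ _ => c1 _ _).const_mul 2)).add
        (tendsto_finset_sum _ fun _ _ => (tendsto_nn h1 he _).mul (c1 _ _))).sub
        (tendsto_finset_sum _ fun _ _ => tendsto_finset_sum _ fun _ _ => c2 _ _)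
    · refine le_of_tendsto' (x := (U : Filter ℕ)) ?_ fun k =>
        ((h k).energy_le (by have := hQ k; omega)).trans (hE k)
      have hd : Tendsto (fun k => 2 - eps (Q k)) U (𝓝 2) := by
        have := he.const_sub 2
        rwa [sub_zero] at this
      refine (tendsto_const_nhds.add (tendsto_finset_sum _ fun l _ => ?_)).add
        (tendsto_finset_sum _ fun s _ => ?_)
      · rw [← lim1, ← lim3]
        refine (Tendsto.mul ?_ ?_).mul ((c1.hv hm h1 he two_pos one_pos l).div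
          (tendsto_SS hm h1 he two_pos one_pos l)
          (SS_pos (fun i _ => nn0_pos two_pos i) fun i _ => nn0_pos one_pos i).ne')
        · have := ((he.const_mul (1 + 2 * (l : ℝ))).const_sub 3).div hd two_ne_zero
          rwa [mul_zero, sub_zero] at this
        · exact (((tendsto_nn h1 he l).div (tendsto_nn hm he l)
            (nn0_pos two_pos l).ne').const_mul _).mul ((he.const_mul _).const_sub _)
      · rw [← lim2]
        have c3 : Conv U (fun k => (F2 k).compl₁₂ jV jV) (G2.compl₁₂ jV jV) := fun p q => c2 _ _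
        refine Tendsto.mul ?_ ((c3.hv hm hm he two_pos two_pos s).div
          (tendsto_SS hm hm he two_pos two_pos s)
          (SS_pos (fun i _ => nn0_pos two_pos i) fun i _ => nn0_pos two_pos i).ne')
        have := ((he.const_mul (3 + 2 * (s : ℝ))).const_sub 4).div (hd.const_mul 4) (by norm_num)
        rwa [mul_zero, sub_zero, show (4 : ℝ) / (4 * 2) = 1 / 2 by norm_num] at this
  have := R.bound
  norm_num at this

theorem fam_gap : ∃ Q0, ∀ Q ≥ Q0, ∀ (m : ℕ) (E : ℝ)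
    (w : (Fin (m + 4) → Fin (Q + 1)) → Vec Q (m + 4)), Fam Q (m + 4) E w → E ≠ 0 → 1 / 50 ≤ E := by
  by_contra hc
  push Not at hc
  have h : ∀ k : ℕ, ∃ Q E G1 G2, k + 20 ≤ Q ∧ E ≤ 1 / 50 ∧ RelQ Q E G1 G2 := by
    intro k
    obtain ⟨Q, hQ, m, E, w, h1, h2, h3⟩ := hc (k + 20)
    obtain ⟨G1, G2, h4⟩ := RelQ.of_fam (by omega) h1 h2
    exact ⟨Q, E, G1, G2, hQ, h3.le, h4⟩
  choose Q E G1 G2 h1 h2 h3 using h
  exact no_seq Q h1 E h2 G1 G2 h3

end Vale.Agent.P359
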