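import Vale.Agent.P359.Basic

/-! The pair projection in kernel form. -/

namespace Vale.Agent.P359

open MvPolynomial Finset

namespace Pj

variable {Q : ℕ}

lemma eps_pos (hQ : 1 ≤ Q) : 0 < eps Q := inv_pos.2 (by exact_mod_cast hQ)

lemma mul_eps (hQ : 1 ≤ Q) : (Q : ℝ) * eps Q = 1 :=
  mul_inv_cancel₀ (by exact_mod_cast (by omega : Q ≠ 0))

lemma rr_pos {μ ε : ℝ} {k : ℕ} (h : ∀ t < k, 0 < μ - t * ε) : 0 < nn μ ε k :=
  mul_pos (by exact_mod_cast k.factorial_pos) (prod_pos fun t ht => h t (mem_range.1 ht))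

lemma nn_eq_zero {μ ε : ℝ} {k t : ℕ} (ht : t < k) (h : μ - t * ε = 0) : nn μ ε k = 0 := by
  rw [nn, rr, prod_eq_zero (mem_range.2 ht) h, mul_zero]

lemma n1_pos (hQ : 1 ≤ Q) {a : ℕ} (ha : a ≤ Q) : 0 < n1 Q a := rr_pos fun t ht => by
  have h : (t : ℝ) < Q := by exact_mod_cast ht.trans_le ha
  nlinarith [eps_pos hQ, mul_eps hQ]

lemma toF_apply {k : ℕ} (a : Fin k → Fin (Q + 1)) (i : Fin k) : toF a i = a i := rfl

lemma toF_inj {k : ℕ} : Function.Injective (toF : (Fin k → Fin (Q + 1)) → Fin k →₀ ℕ) :=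
  fun a b h => funext fun i => Fin.ext (by rw [← toF_apply, h, toF_apply])

lemma toF_update {k : ℕ} (a : Fin k → Fin (Q + 1)) (i : Fin k) (b c : Fin (Q + 1))
    (h : (b : ℕ) = c + 1) :
    toF (Function.update a i b) = toF (Function.update a i c) + Finsupp.single i 1 := by
  ext j
  rw [Finsupp.add_apply, toF_apply, toF_apply]
  by_cases hj : j = i
  · subst hj; simp [h]
  · simp [hj]

lemma prod_update {k : ℕ} (a : Fin k → Fin (Q + 1)) (i : Fin k) (c : Fin (Q + 1)) :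
    ∏ j, Real.sqrt (n1 Q (Function.update a i c j))
      = Real.sqrt (n1 Q c) * ∏ j ∈ univ.erase i, Real.sqrt (n1 Q (a j)) := by
  rw [← mul_prod_erase _ _ (mem_univ i), Function.update_self]
  congr 1
  exact prod_congr rfl fun j hj => by rw [Function.update_of_ne (ne_of_mem_erase hj)]

lemma low_sq (hQ : 1 ≤ Q) {b c : Fin (Q + 1)} (h : (b : ℕ) = c + 1) :
    (Real.sqrt (eps Q) * low Q b c) ^ 2 = (((c : ℕ) : ℝ) + 1) * (1 - (c : ℕ) * eps Q) := by
  have hc : ((c : ℕ) : ℝ) ≤ Q := by exact_mod_cast Nat.lt_succ_iff.1 c.2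
  rw [low, if_pos h, mul_pow, Real.sq_sqrt (eps_pos hQ).le,
    Real.sq_sqrt (mul_nonneg (by positivity) (sub_nonneg.2 hc))]
  linear_combination (((c : ℕ) : ℝ) + 1) * mul_eps hQ

lemma sqrt_step (hQ : 1 ≤ Q) {b c : Fin (Q + 1)} (h : (b : ℕ) = c + 1) :
    Real.sqrt (n1 Q b) = Real.sqrt (eps Q) * low Q b c * Real.sqrt (n1 Q c) := by
  have h0 : 0 ≤ Real.sqrt (eps Q) * low Q b c := by
    rw [low, if_pos h]; positivity
  rw [h, n1, nn_succ, ← low_sq hQ h, mul_comm, Real.sqrt_mul (sq_nonneg _), Real.sqrt_sq h0, n1]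

end Pj

open Pj

theorem vec_dot {Q k : ℕ} (hQ : 1 ≤ Q) (p q : Pol (Fin k)) :
    ∑ a, vec Q p a * vec Q q a = Nf (fun _ => 1) (eps Q) p q := by
  rw [Nf_eq_sum _ _ p q (univ.image (toF (Q := Q))), sum_image fun a _ b _ h => toF_inj h]
  · refine sum_congr rfl fun a _ => ?_
    have : wt (fun _ => 1) (eps Q) (toF a)
        = (∏ i, Real.sqrt (n1 Q (a i))) * ∏ i, Real.sqrt (n1 Q (a i)) := by
      rw [← prod_mul_distrib]
      exact prod_congr rfl fun i _ =>
        (Real.mul_self_sqrt (Pj.n1_pos hQ (Nat.lt_succ_iff.1 (a i).2)).le).symm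
    rw [this, vec, vec]; ring
  · intro a ha
    obtain ⟨i, hi⟩ : ∃ i, Q < a i := by
      by_contra! h
      exact ha (mem_image.2 ⟨fun i => ⟨a i, Nat.lt_succ_of_le (h i)⟩, mem_univ _, by ext; rfl⟩)
    rw [wt, prod_eq_zero (mem_univ i) (nn_eq_zero hi (by rw [mul_eps hQ, sub_self])), zero_mul]

theorem vec_Cm {Q k : ℕ} (hQ : 1 ≤ Q) (p : Pol (Fin k)) (a : Fin k → Fin (Q + 1)) :
    vec Q (Cm (Fin k) * p) a
      = Real.sqrt (eps Q) * ∑ i, ∑ c, low Q (a i) c * vec Q p (Function.update a i c) := by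
  rw [vec, Cm, sum_mul, coeff_sum, sum_mul, mul_sum]
  refine sum_congr rfl fun i _ => ?_
  rcases h : (a i : ℕ) with _ | t
  · rw [coeff_X_mul', if_neg (by rw [Finsupp.mem_support_iff, toF_apply, h]; simp),
      sum_eq_zero fun c _ => by rw [low, if_neg (by omega), zero_mul]]
    simp
  · have ht : t < Q + 1 := by have := (a i).2; omega
    have h' : (a i : ℕ) = ((⟨t, ht⟩ : Fin (Q + 1)) : ℕ) + 1 := h
    rw [sum_eq_single ⟨t, ht⟩ (fun c _ hc => by
      rw [low, if_neg fun e => hc (Fin.ext (by dsimp only; omega)), zero_mul]) (by simp)]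
    have e1 := toF_update a i _ _ h'
    have e2 := prod_update a i (a i)
    rw [Function.update_eq_self] at e1 e2
    rw [e1, add_comm, coeff_X_mul, e2, vec, prod_update, sqrt_step hQ h']
    ring

theorem vec_Dop {Q k : ℕ} (hQ : 1 ≤ Q) (p : Pol (Fin k)) (a : Fin k → Fin (Q + 1)) :
    vec Q (Dop (fun _ => 1) (eps Q) p) a
      = Real.sqrt (eps Q) * ∑ i, ∑ c, low Q c (a i) * vec Q p (Function.update a i c) := by
  rw [vec, coeff_Dop, sum_mul, mul_sum]
  refine sum_congr rfl fun i _ => ?_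
  rw [toF_apply]
  rcases (Nat.lt_succ_iff.1 (a i).2).lt_or_eq with h | h
  · have ht : (a i : ℕ) + 1 < Q + 1 := by omega
    have h' : ((⟨_, ht⟩ : Fin (Q + 1)) : ℕ) = (a i : ℕ) + 1 := rfl
    rw [sum_eq_single ⟨_, ht⟩ (fun c _ hc => by
      rw [low, if_neg fun e => hc (Fin.ext e), zero_mul]) (by simp)]
    have e1 := toF_update a i _ _ h'
    have e2 := prod_update a i (a i)
    rw [Function.update_eq_self] at e1 e2
    rw [vec, e1, e2, prod_update, sqrt_step hQ h', ← low_sq hQ h']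
    ring
  · rw [sum_eq_zero fun c _ => by rw [low, if_neg (by have := c.2; omega), zero_mul], h,
      mul_eps hQ]
    simp

theorem nV_pos {Q M : ℕ} (hQ : 2 ≤ Q) (hM : M < 2 * Q - 1) : 0 < nV Q M := rr_pos fun t ht => by
  have h : (t : ℝ) + 2 < 2 * Q := by exact_mod_cast (by omega : t + 2 < 2 * Q)
  have h1 : 1 ≤ Q := by omega
  rw [muV]
  nlinarith [eps_pos h1, mul_eps h1]

theorem n1_pos {Q a : ℕ} (hQ : 1 ≤ Q) (ha : a ≤ Q) : 0 < n1 Q a := Pj.n1_pos hQ ha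

namespace Pj

variable {Q : ℕ}

lemma beta_eq (M : ℕ) : beta M = Cm (Fin 2) ^ M * (X 0 - X 1) := by
  rw [beta, Cm, Fin.sum_univ_two, mul_comm]

lemma hom1 : (X 0 - X 1 : Pol (Fin 2)).IsHomogeneous 1 :=
  (isHomogeneous_X ℝ 0).sub (isHomogeneous_X ℝ 1)

lemma Dop1 (ε : ℝ) : Dop (fun _ => 1) ε (X 0 - X 1 : Pol (Fin 2)) = 0 := by
  rw [Dop_apply, Fin.sum_univ_two]
  simp [pderiv_X]

lemma nV_zero (hQ : 1 ≤ Q) {M : ℕ} (hM : 2 * Q - 1 ≤ M) : nV Q M = 0 := by
  refine nn_eq_zero (t := 2 * Q - 2) (by omega) ?_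
  rw [Nat.cast_sub (by omega), muV]
  push_cast
  linear_combination (-2 : ℝ) * mul_eps hQ

end Pj

theorem Nf_beta {Q : ℕ} (M M' : ℕ) :
    Nf (fun _ => 1) (eps Q) (beta M) (beta M') = if M = M' then 2 * nV Q M else 0 := by
  rw [beta_eq, beta_eq]
  split_ifs with h
  · have h1 : ∀ i : Fin 2, wt (fun _ : Fin 2 => (1 : ℝ)) (eps Q) (Finsupp.single i 1) = 1 :=
      fun i => by
        have := wt_add_single (fun _ : Fin 2 => (1 : ℝ)) (eps Q) 0 i
        simpa [wt, nn_zero] using this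
    have h2 : Nf (fun _ => 1) (eps Q) (X 0 - X 1 : Pol (Fin 2)) (X 0 - X 1) = 2 := by
      rw [map_sub (Nf _ _), LinearMap.sub_apply, X, X, Nf_monomial, Nf_monomial, h1, h1]
      simp [coeff_monomial, Finsupp.single_eq_single_iff]
      norm_num
    rw [← h, (Nf_inv _ _).pow_left _ 1 hom1 (Dop1 _), h2, mul_comm, nV, ← cf_zero_eq]
    congr 1
    exact prod_congr rfl fun i _ => by simp [muV]; left; ring
  · exact (Nf_inv _ _).pow_ne _ _ 1 1 hom1 (Dop1 _) hom1 (Dop1 _) _ _ h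

theorem P1k_symm (Q : ℕ) (p q : Fin (Q + 1) × Fin (Q + 1)) : P1k Q p q = P1k Q q p :=
  sum_congr rfl fun M _ => by rw [mul_comm (vec Q (beta M) ![p.1, p.2])]

namespace Pj

variable {Q : ℕ}

/-- the descendants of the highest weight vector -/
noncomputable def bv (Q M : ℕ) (p : Fin (Q + 1) × Fin (Q + 1)) : ℝ := vec Q (beta M) ![p.1, p.2]

lemma P1k_eq (p q : Fin (Q + 1) × Fin (Q + 1)) :
    P1k Q p q = ∑ M ∈ range (2 * Q - 1), bv Q M p * bv Q M q / (2 * nV Q M) := rfl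

lemma bv_swap (M : ℕ) (a b : Fin (Q + 1)) : bv Q M (b, a) = -bv Q M (a, b) := by
  have h1 : rename (Equiv.swap 0 1) (beta M) = -beta M := by
    simp [beta, add_comm (X 1 : Pol (Fin 2))]; ring
  have h2 : (toF ![a, b]).mapDomain (Equiv.swap (0 : Fin 2) 1) = toF ![b, a] := by
    ext i
    rw [Finsupp.mapDomain_equiv_apply]
    fin_cases i <;> rfl
  have h3 := coeff_rename_mapDomain _ (Equiv.swap (0 : Fin 2) 1).injective (beta M) (toF ![a, b])
  rw [h1, h2, coeff_neg] at h3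
  simp only [bv, vec, ← h3, Fin.prod_univ_two, Matrix.cons_val_zero, Matrix.cons_val_one]
  ring

lemma bv_dot (hQ : 1 ≤ Q) (M M' : ℕ) :
    ∑ p, bv Q M p * bv Q M' p = if M = M' then 2 * nV Q M else 0 := by
  rw [← Nf_beta, ← vec_dot hQ, ← (finTwoArrowEquiv (Fin (Q + 1))).symm.sum_comp]
  rfl

lemma bv_zero (hQ : 1 ≤ Q) {M : ℕ} (hM : 2 * Q - 1 ≤ M) (p) : bv Q M p = 0 := by
  have h := bv_dot hQ M M
  rw [if_pos rfl, nV_zero hQ hM, mul_zero] at h
  exact mul_self_eq_zero.1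
    ((sum_eq_zero_iff_of_nonneg fun p _ => mul_self_nonneg _).1 h p (mem_univ _))

lemma P_bv (hQ : 2 ≤ Q) (k : ℕ) (q) : ∑ p, bv Q k p * P1k Q p q = bv Q k q := by
  have h1 : 1 ≤ Q := by omega
  simp only [P1k_eq, mul_sum]
  rw [sum_comm]
  have : ∀ M, ∑ p, bv Q k p * (bv Q M p * bv Q M q / (2 * nV Q M))
      = if k = M then 2 * nV Q k * (bv Q M q / (2 * nV Q M)) else 0 := fun M => by
    rw [← zero_mul (bv Q M q / (2 * nV Q M)), ← ite_mul, ← bv_dot h1, sum_mul]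
    exact sum_congr rfl fun p _ => by ring
  simp only [this, sum_ite_eq, mem_range]
  split_ifs with h
  · have := (nV_pos hQ h).ne'
    field_simp
  · exact (bv_zero h1 (not_lt.1 h) q).symm

lemma upd0 {α : Type} (a b c : α) : Function.update ![a, b] 0 c = ![c, b] := by
  funext i; fin_cases i <;> rfl

lemma upd1 {α : Type} (a b c : α) : Function.update ![a, b] 1 c = ![a, c] := by
  funext i; fin_cases i <;> rfl

lemma bv_succ (hQ : 1 ≤ Q) (M : ℕ) (a b : Fin (Q + 1)) : bv Q (M + 1) (a, b) = Real.sqrt (eps Q) *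
    (∑ c, low Q a c * bv Q M (c, b) + ∑ c, low Q b c * bv Q M (a, c)) := by
  have : beta (M + 1) = Cm (Fin 2) * beta M := by rw [beta_eq, beta_eq, pow_succ', mul_assoc]
  rw [bv, this, vec_Cm hQ, Fin.sum_univ_two]
  simp only [upd0, upd1]
  rfl

lemma bv_up (hQ : 1 ≤ Q) (M : ℕ) (a b : Fin (Q + 1)) :
    vec Q (Dop (fun _ => 1) (eps Q) (beta M)) ![a, b] = Real.sqrt (eps Q) *
      (∑ c, low Q c a * bv Q M (c, b) + ∑ c, low Q c b * bv Q M (a, c)) := by
  rw [vec_Dop hQ, Fin.sum_univ_two]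
  simp only [upd0, upd1]
  rfl

lemma Dop_beta (M : ℕ) (a b : Fin (Q + 1)) :
    vec Q (Dop (fun _ => 1) (eps Q) (beta (M + 1))) ![a, b]
      = ((M : ℝ) + 1) * (muV (eps Q) - M * eps Q) * bv Q M (a, b) := by
  rw [beta_eq, Dop_pow _ _ _ 1 hom1 (Dop1 _), vec_smul, ← beta_eq, bv, muV]
  simp only [sum_const, card_univ, Fintype.card_fin, nsmul_eq_mul]
  push_cast
  ring

end Pj

theorem P1k_swap (Q : ℕ) (a b : Fin (Q + 1)) (q : Fin (Q + 1) × Fin (Q + 1)) :
    P1k Q (b, a) q = -P1k Q (a, b) q := by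
  rw [P1k_eq, P1k_eq, ← sum_neg_distrib]
  exact sum_congr rfl fun M _ => by rw [bv_swap]; ring

theorem P1k_idem {Q : ℕ} (hQ : 2 ≤ Q) (p q : Fin (Q + 1) × Fin (Q + 1)) :
    ∑ c, ∑ d, P1k Q p (c, d) * P1k Q (c, d) q = P1k Q p q := by
  rw [← Fintype.sum_prod_type' fun c d => P1k Q p (c, d) * P1k Q (c, d) q]
  simp only [P1k_eq p, sum_mul]
  rw [sum_comm]
  refine sum_congr rfl fun M _ => ?_
  rw [← P_bv hQ M q, mul_sum, sum_div]
  exact sum_congr rfl fun r _ => by ring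

/-- The pair projection commutes with the total lowering operator. -/
theorem P1k_low {Q : ℕ} (hQ : 2 ≤ Q) (a b a' b' : Fin (Q + 1)) :
    ∑ c, low Q a c * P1k Q (c, b) (a', b') + ∑ c, low Q b c * P1k Q (a, c) (a', b')
      = ∑ c, P1k Q (a, b) (c, b') * low Q c a' + ∑ c, P1k Q (a, b) (a', c) * low Q c b' := by
  have h1 : 1 ≤ Q := by omega
  refine mul_left_cancel₀ (Real.sqrt_pos.2 (eps_pos h1)).ne' ?_
  have e1 : Real.sqrt (eps Q) * (∑ c, low Q a c * P1k Q (c, b) (a', b')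
      + ∑ c, low Q b c * P1k Q (a, c) (a', b')) = ∑ M ∈ range (2 * Q - 1),
        bv Q (M + 1) (a, b) * bv Q M (a', b') / (2 * nV Q M) := by
    simp only [P1k_eq, mul_sum, bv_succ h1]
    rw [sum_comm, sum_comm (s := univ), ← sum_add_distrib, mul_sum]
    refine sum_congr rfl fun M _ => ?_
    simp only [mul_add, add_mul, add_div, mul_sum, sum_mul, sum_div]
    congr 1 <;> exact sum_congr rfl fun c _ => by ring
  have e2 : Real.sqrt (eps Q) * (∑ c, P1k Q (a, b) (c, b') * low Q c a'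
      + ∑ c, P1k Q (a, b) (a', c) * low Q c b') = ∑ M ∈ range (2 * Q - 1),
        bv Q M (a, b) * vec Q (Dop (fun _ => 1) (eps Q) (beta M)) ![a', b'] / (2 * nV Q M) := by
    simp only [P1k_eq, sum_mul, bv_up h1]
    rw [sum_comm, sum_comm (s := univ), ← sum_add_distrib, mul_sum]
    refine sum_congr rfl fun M _ => ?_
    simp only [mul_add, add_mul, add_div, mul_sum, sum_mul, sum_div]
    congr 1 <;> exact sum_congr rfl fun c _ => by ring
  rw [e1, e2]
  obtain ⟨K, hK⟩ : ∃ K, 2 * Q - 1 = K + 1 := ⟨2 * Q - 2, by omega⟩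
  have h0 : vec Q (Dop (fun _ => 1) (eps Q) (beta 0)) ![a', b'] = 0 := by
    rw [beta_eq, pow_zero, one_mul, Dop1]; simp [vec]
  rw [hK, sum_range_succ, sum_range_succ', bv_zero h1 hK.le, h0]
  simp only [zero_mul, mul_zero, zero_div, add_zero]
  refine sum_congr rfl fun M hM => ?_
  have h2 := (nV_pos hQ (M := M + 1) (by have := mem_range.1 hM; omega)).ne'
  have hs : nV Q (M + 1) = nV Q M * (((M : ℝ) + 1) * (muV (eps Q) - M * eps Q)) := nn_succ _ _ _
  rw [hs] at h2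
  rw [Dop_beta, hs]
  have h3 := left_ne_zero_of_mul h2
  have h4 := right_ne_zero_of_mul h2
  generalize ((M : ℝ) + 1) * (muV (eps Q) - M * eps Q) = t at *
  field_simp

namespace Pj

variable {Q : ℕ}

noncomputable def bT (Q M : ℕ) : Two Q := WithLp.toLp 2 fun p => (bv Q M p : ℂ)

lemma low2_smul (c : ℂ) (φ : Two Q) : low2 Q (c • φ) = c • low2 Q φ := by
  ext p
  simp only [low2, PiLp.smul_apply, smul_eq_mul, mul_add, mul_sum]
  congr 1 <;> exact sum_congr rfl fun _ _ => by ring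

lemma bT_succ (hQ : 1 ≤ Q) (M : ℕ) :
    bT Q (M + 1) = (Real.sqrt (eps Q) : ℂ) • low2 Q (bT Q M) := by
  ext ⟨a, b⟩
  simp only [bT, low2, PiLp.smul_apply, smul_eq_mul, bv_succ hQ]
  push_cast
  rfl

lemma bT_zero : bT Q 0 = -hw Q := by
  ext ⟨a, b⟩
  have h0 : n1 Q 0 = 1 := nn_zero _ _
  have h1 : n1 Q 1 = 1 := by simp [n1, nn, rr]
  have e : ∀ i : Fin 2, Finsupp.single i 1 = toF ![a, b] ↔
      (Finsupp.single i 1 : Fin 2 →₀ ℕ) 0 = a ∧ (Finsupp.single i 1 : Fin 2 →₀ ℕ) 1 = b :=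
    fun i => by rw [Finsupp.ext_iff, Fin.forall_fin_two]; rfl
  simp only [bT, hw, bv, vec, beta, pow_zero, mul_one, coeff_sub, coeff_X', e, PiLp.neg_apply,
    Fin.prod_univ_two, Matrix.cons_val_zero, Matrix.cons_val_one, Finsupp.single_eq_same,
    Finsupp.single_eq_of_ne (show (1 : Fin 2) ≠ 0 by decide),
    Finsupp.single_eq_of_ne (show (0 : Fin 2) ≠ 1 by decide), eq_comm (b := (a : ℕ)),
    eq_comm (b := (b : ℕ))]
  by_cases c1 : (a : ℕ) = 0 ∧ (b : ℕ) = 1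
  · simp [c1.1, c1.2, h0, h1]
  · by_cases c2 : (a : ℕ) = 1 ∧ (b : ℕ) = 0
    · simp [c2.1, c2.2, h0, h1]
    · rw [if_neg c1, if_neg c2, if_neg c1, if_neg c2]; simp

lemma bT_eq (hQ : 1 ≤ Q) (k : ℕ) :
    bT Q k = (-(Real.sqrt (eps Q) : ℂ) ^ k) • (low2 Q)^[k] (hw Q) := by
  induction k with
  | zero => simp [bT_zero]
  | succ k ih =>
    rw [bT_succ hQ, ih, low2_smul, smul_smul, Function.iterate_succ_apply']
    congr 1; ring

lemma proj_eq (hQ : 2 ≤ Q) (φ : Two Q) : (spinComp Q).starProjection φ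
    = WithLp.toLp 2 fun p => ∑ q, (P1k Q p q : ℂ) * φ q := by
  have h1 : 1 ≤ Q := by omega
  refine Submodule.eq_starProjection_of_mem_of_inner_eq_zero ?_ fun w hw => ?_
  · have : (WithLp.toLp 2 fun p => ∑ q, (P1k Q p q : ℂ) * φ q : Two Q)
        = ∑ M ∈ range (2 * Q - 1), (∑ q, (bv Q M q / (2 * nV Q M) : ℝ) * φ q) • bT Q M := by
      ext p
      simp only [WithLp.ofLp_sum, Finset.sum_apply, PiLp.smul_apply, bT, smul_eq_mul, P1k_eq,
        sum_mul, Complex.ofReal_sum]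
      rw [sum_comm]
      exact sum_congr rfl fun M _ => sum_congr rfl fun q _ => by push_cast; ring
    rw [this]
    exact Submodule.sum_mem _ fun M _ => Submodule.smul_mem _ _ (by
      rw [bT_eq h1]; exact Submodule.smul_mem _ _ (Submodule.subset_span ⟨M, rfl⟩))
  · induction hw using Submodule.span_induction with
    | zero => exact inner_zero_right _
    | add x y _ _ hx hy => rw [inner_add_right, hx, hy, add_zero]
    | smul c x _ hx => rw [inner_smul_right, hx, mul_zero]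
    | mem x hx =>
      obtain ⟨k, rfl⟩ := hx
      have hc : (-(Real.sqrt (eps Q) : ℂ) ^ k) ≠ 0 :=
        neg_ne_zero.2 (pow_ne_zero _ (by exact_mod_cast (Real.sqrt_pos.2 (eps_pos h1)).ne'))
      refine (mul_eq_zero.1 ?_).resolve_left hc
      rw [← inner_smul_right, ← bT_eq h1, inner_sub_left, sub_eq_zero, PiLp.inner_apply,
        PiLp.inner_apply]
      simp only [bT, RCLike.inner_apply, map_sum, map_mul, Complex.conj_ofReal, mul_sum]
      rw [sum_comm]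
      refine sum_congr rfl fun q _ => ?_
      rw [← P_bv hQ k q, Complex.ofReal_sum, sum_mul]
      exact sum_congr rfl fun p _ => by push_cast; ring

end Pj

theorem pairProj_eq {Q N : ℕ} (hQ : 2 ≤ Q) (i j : Fin N) (ψ : Tens Q N)
    (x : Fin N → Fin (Q + 1)) : pairProj i j ψ x = pairK i j (fun y => ψ y) x := by
  rw [pairProj, pairK]
  simp only [orthProj, proj_eq hQ, Fintype.sum_prod_type]

theorem ham_eq {Q N : ℕ} (hQ : 2 ≤ Q) (ψ : Tens Q N) (x : Fin N → Fin (Q + 1)) :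
    ham ψ x = hamK (fun y => ψ y) x := by
  simp only [ham, hamK, WithLp.ofLp_sum, Finset.sum_apply]
  refine sum_congr rfl fun i _ => sum_congr rfl fun j _ => ?_
  split_ifs
  · exact pairProj_eq hQ i j ψ x
  · rfl

end Vale.Agent.P359
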