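import Vale.Agent.P359.Basic
import Vale.Agent.P359.CertLin

/-! The limiting (planar) relations and their algebra. -/

namespace Vale.Agent.P359

open MvPolynomial Finset

noncomputable def mu2 (ε : ℝ) : Fin 2 → ℝ := ![muV ε, 1]
noncomputable def mu3 (ε : ℝ) : Fin 3 → ℝ := ![muV ε, 1, 1]
noncomputable def w2 : Pol (Fin 2) := 2 * X 1 - X 0
noncomputable def w3 : Pol (Fin 3) := 2 * X 1 - X 0
noncomputable def v3 : Pol (Fin 3) := X 0 + X 1 - 3 * X 2
noncomputable def u3 : Pol (Fin 3) := X 1 - X 2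
noncomputable def e3 : Pol (Fin 3) := X 1 + X 2 - X 0

noncomputable def kap00 (l : ℕ) : ℝ := (-1 / 2) ^ l * (3 * l - 1)

structure Rel0 (τ γ : ℝ) (G0 : Form (Fin 1)) (G1 : Form (Fin 2)) (G2 : Form (Fin 3)) : Prop where
  g0 : ∀ d, G0 (X 0 ^ d) (X 0 ^ d) = nn 2 0 d
  inv1 : Inv (mu2 0) 0 G1
  lev1 : Lev G1
  psd1 : Psd G1
  inv2 : Inv (mu3 0) 0 G2
  psd2 : Psd G2
  anti : ∀ p q, G2 (rename (Equiv.swap 1 2) p) q = -G2 p q
  null1 : ∀ l, l = 0 ∨ l = 1 ∨ l = 3 → G1 (w2 ^ l) (w2 ^ l) = 0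
  null2 : ∀ l, l = 0 ∨ l = 1 ∨ l = 3 → ∀ (J c : ℕ) q,
    G2 (w3 ^ l * ((X 0 + X 1) ^ J * X 2 ^ c)) q = 0
  sos : ∀ A p0 p, 0 ≤ sosExpr G0 G1 G2 (nn 1 0) A p0 p
  energy : 1 - τ + ∑ l ∈ range 20, 3 / 2 * kap00 l * (G1 (w2 ^ l) (w2 ^ l) / nn 6 0 l)
    + ∑ s ∈ range 20, 1 / 2 * (G2 (u3 * e3 ^ s) (u3 * e3 ^ s) / nn 4 0 s) ≤ γ

theorem nn_zero_eps (μ : ℝ) (k : ℕ) : nn μ 0 k = μ ^ k * k.factorial := by
  simp [nn, rr, mul_comm]

theorem cf_zero_eps (M : ℝ) (s j : ℕ) : cf M 0 s j = M ^ j * j.factorial := by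
  rw [← nn_zero_eps, ← cf_zero_eq]; simp [cf]

section gen
variable {σ : Type} [Fintype σ]

theorem Dop0_mul (μ : σ → ℝ) (p q : Pol σ) (hp : Dop μ 0 p = 0) (hq : Dop μ 0 q = 0) :
    Dop μ 0 (p * q) = 0 := by
  have : Dop μ 0 (p * q) = p * Dop μ 0 q + q * Dop μ 0 p := by
    simp only [Dop_apply, zero_smul, sub_zero, Derivation.leibniz, smul_eq_mul, mul_sum,
      ← sum_add_distrib, smul_add, mul_smul_comm]
  rw [this, hp, hq]; simp

theorem Dop0_pow (μ : σ → ℝ) (p : Pol σ) (hp : Dop μ 0 p = 0) (n : ℕ) : Dop μ 0 (p ^ n) = 0 := by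
  induction n with
  | zero => simp [Dop_apply]
  | succ n ih => rw [pow_succ]; exact Dop0_mul μ _ _ ih hp

omit [Fintype σ] in
theorem hom_pow {p : Pol σ} (hp : p.IsHomogeneous 1) (n : ℕ) : (p ^ n).IsHomogeneous n := by
  simpa using hp.pow n

omit [Fintype σ] in
theorem hom_nat_mul {p : Pol σ} {s : ℕ} (hp : p.IsHomogeneous s) (n : ℕ) :
    ((n : Pol σ) * p).IsHomogeneous s := by
  have := (isHomogeneous_C σ (n : ℝ)).mul hp
  rwa [zero_add, map_natCast] at this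

end gen

theorem w2_hom : w2.IsHomogeneous 1 :=
  (hom_nat_mul (isHomogeneous_X ℝ 1) 2).sub (isHomogeneous_X ℝ 0)
theorem w3_hom : w3.IsHomogeneous 1 :=
  (hom_nat_mul (isHomogeneous_X ℝ 1) 2).sub (isHomogeneous_X ℝ 0)
theorem v3_hom : v3.IsHomogeneous 1 :=
  ((isHomogeneous_X ℝ 0).add (isHomogeneous_X ℝ 1)).sub (hom_nat_mul (isHomogeneous_X ℝ 2) 3)

theorem two_eq {σ : Type} : (2 : Pol σ) = C 2 := rfl
theorem three_eq {σ : Type} : (3 : Pol σ) = C 3 := rfl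

theorem w2_D : Dop (mu2 0) 0 w2 = 0 := by
  simp [Dop_apply, w2, mu2, muV, Fin.sum_univ_two, two_eq, pderiv_X, smul_eq_C_mul]

theorem w3_D : Dop (mu3 0) 0 w3 = 0 := by
  simp [Dop_apply, w3, mu3, muV, Fin.sum_univ_three, two_eq, pderiv_X, smul_eq_C_mul]

theorem v3_D : Dop (mu3 0) 0 v3 = 0 := by
  simp [Dop_apply, v3, mu3, muV, Fin.sum_univ_three, three_eq, pderiv_X, smul_eq_C_mul]
  rw [← two_eq, ← three_eq]; ring

theorem sum_mu2 : ∑ i, mu2 0 i = 3 := by simp [mu2, muV, Fin.sum_univ_two]; norm_num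
theorem sum_mu3 : ∑ i, mu3 0 i = 4 := by simp [mu3, muV, Fin.sum_univ_three]; norm_num

theorem T_form {G1 : Form (Fin 2)} (h : Inv (mu2 0) 0 G1) (j k J l : ℕ) :
    G1 (Cm (Fin 2) ^ j * w2 ^ k) (Cm (Fin 2) ^ J * w2 ^ l)
      = if j = J then 3 ^ J * (J.factorial : ℝ) * G1 (w2 ^ k) (w2 ^ l) else 0 := by
  split_ifs with hj
  · subst hj
    rw [h.pow_left _ l (hom_pow w2_hom l) (Dop0_pow _ _ w2_D l), sum_mu2, cf_zero_eps]
  · exact h.pow_ne _ _ k l (hom_pow w2_hom k) (Dop0_pow _ _ w2_D k) (hom_pow w2_hom l)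
      (Dop0_pow _ _ w2_D l) j J hj

theorem intCast_mul_eq_smul {σ : Type} (c : ℤ) (p : Pol σ) : (c : Pol σ) * p = (c : ℝ) • p := by
  rw [smul_eq_C_mul, map_intCast]

theorem x01_expand (d a : ℕ) : ((3 : ℝ) ^ (d + a)) • (X 0 ^ d * X 1 ^ a : Pol (Fin 2))
    = ∑ k ∈ range (d + a + 1),
      (co 2 (-1) d 1 1 a k : ℝ) • (Cm (Fin 2) ^ (d + a - k) * w2 ^ k) := by
  simp only [← intCast_mul_eq_smul]
  rw [← co_expand, smul_eq_C_mul, map_pow, ← three_eq]
  have h1 : ((2 : ℤ) : Pol (Fin 2)) * Cm (Fin 2) + ((-1 : ℤ) : Pol (Fin 2)) * w2 = 3 * X 0 := by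
    simp only [Cm, Fin.sum_univ_two, w2]; push_cast; ring
  have h2 : ((1 : ℤ) : Pol (Fin 2)) * Cm (Fin 2) + ((1 : ℤ) : Pol (Fin 2)) * w2 = 3 * X 1 := by
    simp only [Cm, Fin.sum_univ_two, w2]; push_cast; ring
  rw [h1, h2, mul_pow, mul_pow, pow_add]; ring

theorem cross_form {G1 : Form (Fin 2)} (h : Inv (mu2 0) 0 G1) (d a J l : ℕ) (hs : l + J = a + d) :
    G1 (X 0 ^ d * X 1 ^ a) (Cm (Fin 2) ^ J * w2 ^ l)
      = (co 2 (-1) d 1 1 a l : ℝ) * (3 ^ J * (J.factorial : ℝ)) / 3 ^ (d + a)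
        * G1 (w2 ^ l) (w2 ^ l) := by
  have h1 := congrArg (fun p => G1 p (Cm (Fin 2) ^ J * w2 ^ l)) (x01_expand d a)
  simp only [map_smul, map_sum, LinearMap.smul_apply, LinearMap.sum_apply, smul_eq_mul,
    T_form h] at h1
  rw [sum_eq_single l, if_pos (by omega)] at h1
  · have h3 : (3 : ℝ) ^ (d + a) ≠ 0 := by positivity
    field_simp
    linarith
  · intro k hk hkl
    have := mem_range.1 hk
    rw [if_neg (by omega), mul_zero]
  · intro hl; exact absurd (mem_range.2 (by omega)) hl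

theorem pauli_form {G1 : Form (Fin 2)} (h : Inv (mu2 0) 0 G1) (m : ℕ) :
    G1 (X 1 ^ m) (X 1 ^ m) = ∑ l ∈ range (m + 1),
      (co 2 (-1) 0 1 1 m l : ℝ) * (co 2 (-1) 0 1 1 m l : ℝ)
        * (3 ^ (m - l) * ((m - l).factorial : ℝ)) / 9 ^ m * G1 (w2 ^ l) (w2 ^ l) := by
  have h1 := congrArg (fun p => G1 (X 0 ^ 0 * X 1 ^ m) p) (x01_expand 0 m)
  simp only [map_smul, map_sum, smul_eq_mul] at h1
  rw [sum_congr rfl fun k hk => by
    rw [cross_form h 0 m (0 + m - k) k (by have := mem_range.1 hk; omega)]] at h1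
  simp only [pow_zero, one_mul, zero_add] at h1
  have h3 : (3 : ℝ) ^ m ≠ 0 := by positivity
  have h9 : (9 : ℝ) ^ m = 3 ^ m * 3 ^ m := by rw [← mul_pow]; norm_num
  apply mul_left_cancel₀ h3
  rw [h1, mul_sum]
  refine sum_congr rfl fun k _ => ?_
  rw [h9]; field_simp

/-- Highest weight vectors of degree `s` adapted to the coupling of the first two factors. -/
noncomputable def kk (l s : ℕ) : Pol (Fin 3) := w3 ^ l * v3 ^ (s - l)

theorem kk_hom (l s : ℕ) (h : l ≤ s) : (kk l s).IsHomogeneous s := by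
  have := (hom_pow w3_hom l).mul (hom_pow v3_hom (s - l))
  rwa [Nat.add_sub_cancel' h] at this

theorem kk_D (l s : ℕ) : Dop (mu3 0) 0 (kk l s) = 0 :=
  Dop0_mul _ _ _ (Dop0_pow _ _ w3_D l) (Dop0_pow _ _ v3_D _)

noncomputable def kc (l J c s : ℕ) : ℝ :=
  if l ≤ s ∧ s ≤ l + J + c then (co 3 1 J 1 (-1) c (s - l) : ℝ) else 0

theorem three_expand (l J c : ℕ) (hS : l + J + c ≤ 20) :
    ((4 : ℝ) ^ (J + c)) • (w3 ^ l * ((X 0 + X 1) ^ J * X 2 ^ c) : Pol (Fin 3))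
    = ∑ s ∈ range 21, kc l J c s • (Cm (Fin 3) ^ (l + J + c - s) * kk l s) := by
  have h1 : ((3 : ℤ) : Pol (Fin 3)) * Cm (Fin 3) + ((1 : ℤ) : Pol (Fin 3)) * v3
      = 4 * (X 0 + X 1) := by
    simp only [Cm, Fin.sum_univ_three, v3]; push_cast; ring
  have h2 : ((1 : ℤ) : Pol (Fin 3)) * Cm (Fin 3) + ((-1 : ℤ) : Pol (Fin 3)) * v3 = 4 * X 2 := by
    simp only [Cm, Fin.sum_univ_three, v3]; push_cast; ring
  have h3 := co_expand (Cm (Fin 3)) v3 3 1 J 1 (-1) c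
  rw [h1, h2] at h3
  have h4 : ((4 : ℝ) ^ (J + c)) • (w3 ^ l * ((X 0 + X 1) ^ J * X 2 ^ c) : Pol (Fin 3))
      = w3 ^ l * ((4 * (X 0 + X 1)) ^ J * (4 * X 2) ^ c) := by
    rw [smul_eq_C_mul, map_pow, show (C (4 : ℝ) : Pol (Fin 3)) = 4 from rfl, mul_pow, mul_pow,
      pow_add]; ring
  rw [h4, h3, mul_sum]
  symm
  rw [← sum_subset (s₁ := (range (J + c + 1)).map (addLeftEmbedding l)), sum_map]
  · refine sum_congr rfl fun k hk => ?_
    have := mem_range.1 hk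
    simp only [addLeftEmbedding_apply, kc, kk]
    rw [if_pos (by omega), Nat.add_sub_cancel_left, ← intCast_mul_eq_smul,
      show l + J + c - (l + k) = J + c - k by omega]
    ring
  · intro s hs
    simp only [mem_map, mem_range, addLeftEmbedding_apply] at hs ⊢
    obtain ⟨k, hk, rfl⟩ := hs
    omega
  · intro s _ hs
    rw [kc, if_neg, zero_smul]
    intro h
    exact hs (mem_map.2 ⟨s - l, mem_range.2 (by omega), by simp; omega⟩)

theorem two_form {G2 : Form (Fin 3)} (h : Inv (mu3 0) 0 G2) (l J c l' J' a : ℕ)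
    (hS : l + J + c ≤ 20) (he : l + J + c = l' + J' + a) :
    G2 (w3 ^ l * ((X 0 + X 1) ^ J * X 2 ^ c)) (w3 ^ l' * ((X 0 + X 1) ^ J' * X 2 ^ a))
      = ∑ s ∈ range 21, kc l J c s * kc l' J' a s
        * (4 ^ (l + J + c - s) * ((l + J + c - s).factorial : ℝ)) / 4 ^ (J + c + J' + a)
          * G2 (kk l s) (kk l' s) := by
  have h1 := congrArg₂ (fun p q => G2 p q) (three_expand l J c hS) (three_expand l' J' a (he ▸ hS))
  simp only [map_smul, map_sum, LinearMap.smul_apply, LinearMap.sum_apply, smul_eq_mul] at h1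
  have h4 : (4 : ℝ) ^ (J + c + J' + a) ≠ 0 := by positivity
  apply mul_left_cancel₀ h4
  rw [add_assoc (J + c), pow_add, mul_comm ((4 : ℝ) ^ (J + c)), mul_assoc, h1, mul_sum]
  refine sum_congr rfl fun s hs => ?_
  by_cases h3 : l' ≤ s ∧ s ≤ l' + J' + a
  · rw [sum_eq_single s]
    · rw [← he, h.pow_left _ s (kk_hom l' s h3.1) (kk_D l' s), sum_mu3, cf_zero_eps]
      field_simp
    · intro t _ hts
      by_cases h2 : l ≤ t ∧ t ≤ l + J + c
      · rw [h.pow_ne _ _ t s (kk_hom l t h2.1) (kk_D l t) (kk_hom l' s h3.1) (kk_D l' s) _ _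
          (by omega), mul_zero]
      · rw [kc, if_neg h2, zero_mul]
    · intro h; exact absurd hs h
  · have : kc l' J' a s = 0 := by rw [kc, if_neg h3]
    rw [this]; simp

/-- Basis of the exchange-odd highest weight vectors of degree `s`. -/
noncomputable def EE (s p : ℕ) : Pol (Fin 3) := e3 ^ (s - p) * u3 ^ p

theorem kk_expand (l s : ℕ) (h : l ≤ s) :
    kk l s = ∑ p ∈ range (s + 1), (co 1 1 l (-1) 2 (s - l) p : ℝ) • EE s p := by
  have h1 : ((1 : ℤ) : Pol (Fin 3)) * e3 + ((1 : ℤ) : Pol (Fin 3)) * u3 = w3 := by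
    simp only [e3, u3, w3]; push_cast; ring
  have h2 : ((-1 : ℤ) : Pol (Fin 3)) * e3 + ((2 : ℤ) : Pol (Fin 3)) * u3 = v3 := by
    simp only [e3, u3, v3]; push_cast; ring
  have h3 := co_expand e3 u3 1 1 l (-1) 2 (s - l)
  rw [h1, h2, Nat.add_sub_cancel' h] at h3
  simp only [← intCast_mul_eq_smul]
  exact h3

theorem sum_odd {M : Type} [AddCommMonoid M] (f : ℕ → M) (hf : ∀ i, f (2 * i) = 0) (s : ℕ) :
    ∑ p ∈ range (s + 1), f p = ∑ i ∈ range ((s + 1) / 2), f (2 * i + 1) := by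
  induction s with
  | zero => simpa using hf 0
  | succ s ih =>
    rw [sum_range_succ, ih]
    rcases Nat.even_or_odd' s with ⟨k, rfl | rfl⟩
    · rw [show (2 * k + 1 + 1) / 2 = k + 1 by omega, show (2 * k + 1) / 2 = k by omega,
        sum_range_succ]
    · rw [show (2 * k + 1 + 1 + 1) / 2 = k + 1 by omega, show (2 * k + 1 + 1) / 2 = k + 1 by omega,
        show 2 * k + 1 + 1 = 2 * (k + 1) by ring, hf, add_zero]

theorem EE_even {G2 : Form (Fin 3)}
    (anti : ∀ p q, G2 (rename (Equiv.swap 1 2) p) q = -G2 p q) (s i : ℕ) (q : Pol (Fin 3)) :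
    G2 (EE s (2 * i)) q = 0 := by
  have h0 : Equiv.swap (1 : Fin 3) 2 0 = 0 := by decide
  have h1 : rename (Equiv.swap (1 : Fin 3) 2) (EE s (2 * i)) = EE s (2 * i) := by
    simp only [EE, e3, u3, map_mul, map_pow, map_sub, map_add, rename_X, h0, Equiv.swap_apply_left,
      Equiv.swap_apply_right, pow_mul]
    congr 2 <;> ring
  have := anti (EE s (2 * i)) q
  rw [h1] at this; linarith

theorem kk_form {G2 : Form (Fin 3)} (hs : ∀ p q, G2 p q = G2 q p)
    (anti : ∀ p q, G2 (rename (Equiv.swap 1 2) p) q = -G2 p q) (l l' s : ℕ) (h : l ≤ s)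
    (h' : l' ≤ s) : G2 (kk l s) (kk l' s)
      = ∑ i ∈ range ((s + 1) / 2), ∑ j ∈ range ((s + 1) / 2),
        (kv l s i : ℝ) * (kv l' s j : ℝ) * G2 (EE s (2 * i + 1)) (EE s (2 * j + 1)) := by
  have h1 : ∀ l, l ≤ s → ∀ q, G2 (kk l s) q
      = ∑ i ∈ range ((s + 1) / 2), (kv l s i : ℝ) * G2 (EE s (2 * i + 1)) q := by
    intro l hl q
    rw [kk_expand l s hl, map_sum, LinearMap.sum_apply, sum_odd]
    · simp [kv]
    · intro i; simp [EE_even anti]
  rw [h1 l h]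
  refine sum_congr rfl fun i _ => ?_
  rw [hs, h1 l' h', mul_sum]
  exact sum_congr rfl fun j _ => by rw [hs]; ring

theorem kk_null {G2 : Form (Fin 3)} (l s : ℕ)
    (h : ∀ (J c : ℕ) q, G2 (w3 ^ l * ((X 0 + X 1) ^ J * X 2 ^ c)) q = 0) (q : Pol (Fin 3)) :
    G2 (kk l s) q = 0 := by
  have h2 : ((1 : ℤ) : Pol (Fin 3)) * (X 0 + X 1) + ((-3 : ℤ) : Pol (Fin 3)) * X 2 = v3 := by
    simp only [v3]; push_cast; ring
  have h3 := co_expand (X 0 + X 1 : Pol (Fin 3)) (X 2) 1 (-3) (s - l) 1 1 0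
  rw [h2, pow_zero, mul_one] at h3
  rw [kk, h3, mul_sum, map_sum, LinearMap.sum_apply]
  refine sum_eq_zero fun k _ => ?_
  rw [intCast_mul_eq_smul, mul_smul_comm, map_smul, LinearMap.smul_apply, h, smul_zero]

theorem sum_lsum_ite {α : Type} (L : List α) (aa : α → ℕ) (A : ℕ) (hA : ∀ e ∈ L, aa e < A)
    (f : α → ℕ → ℝ) :
    ∑ a ∈ range A, lsum L (fun e => if aa e = a then f e a else 0) = lsum L fun e => f e (aa e) := by
  rw [← lsum_sum_comm]
  refine lsum_congr fun e he => ?_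
  rw [sum_ite_eq, if_pos (mem_range.2 (hA e he))]

theorem sos_list {k : ℕ} (F0 : Form (Fin k)) (F1 : Form (Fin (k + 1))) (F2 : Form (Fin (k + 2)))
    (n : ℕ → ℝ) (A : ℕ) (p0 : Pol (Fin k)) {α : Type} (L : List α) (aa : α → ℕ)
    (T : α → Pol (Fin (k + 1))) (hA : ∀ e ∈ L, aa e < A) :
    sosExpr F0 F1 F2 n A p0 (fun a => lsum L fun e => if aa e = a then T e else 0)
      = F0 p0 p0 + 2 * lsum L (fun e => F1 (rename Fin.castSucc p0 * X (Fin.last k) ^ aa e) (T e))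
        + lsum L (fun e => lsum L fun e' => if aa e = aa e' then n (aa e) * F1 (T e) (T e') else 0)
        - lsum L fun e => lsum L fun e' =>
          F2 (rename Fin.castSucc (T e) * X (Fin.last (k + 1)) ^ aa e')
            (rename Fin.castSucc (T e') * X (Fin.last (k + 1)) ^ aa e) := by
  have key : ∀ (φ : Pol (Fin (k + 1)) →ₗ[ℝ] ℝ) (a : ℕ),
      φ (lsum L fun e => if aa e = a then T e else 0)
        = lsum L fun e => if aa e = a then φ (T e) else 0 := by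
    intro φ a
    rw [map_lsum]
    exact lsum_congr fun e _ => by split_ifs <;> simp
  let U : ℕ → Pol (Fin (k + 1)) →ₗ[ℝ] Pol (Fin (k + 2)) := fun c =>
    LinearMap.mulRight ℝ (X (Fin.last (k + 1)) ^ c) ∘ₗ (rename Fin.castSucc).toLinearMap
  have hU : ∀ c p, rename Fin.castSucc p * X (Fin.last (k + 1)) ^ c = U c p := fun _ _ => rfl
  unfold sosExpr
  congr 2
  · congr 2
    simp only [key]
    exact sum_lsum_ite L aa A hA _
  · rw [← sum_lsum_ite L aa A hA (fun e a => lsum L fun e' =>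
      if a = aa e' then n a * F1 (T e) (T e') else 0)]
    refine sum_congr rfl fun a _ => ?_
    have := key (F1.flip (lsum L fun e => if aa e = a then T e else 0)) a
    simp only [LinearMap.flip_apply] at this
    rw [this, mul_lsum]
    refine lsum_congr fun e _ => ?_
    split_ifs with h
    · rw [key, mul_lsum]
      refine lsum_congr fun e' _ => ?_
      by_cases h' : aa e' = a
      · rw [if_pos h', if_pos h'.symm]
      · rw [if_neg h', if_neg (Ne.symm h'), mul_zero]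
    · simp
  · simp only [hU]
    rw [← sum_lsum_ite L aa A hA (fun e a => lsum L fun e' => F2 (U (aa e') (T e)) (U a (T e')))]
    refine sum_congr rfl fun a _ => ?_
    have h1 : ∀ c, F2 (U c (lsum L fun e => if aa e = a then T e else 0))
        (U a (lsum L fun e => if aa e = c then T e else 0))
        = lsum L fun e => if aa e = a then
          lsum L (fun e' => if aa e' = c then F2 (U c (T e)) (U a (T e')) else 0) else 0 := by
      intro c
      have := key (F2.flip (U a (lsum L fun e => if aa e = c then T e else 0)) ∘ₗ U c) a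
      simp only [LinearMap.flip_apply, LinearMap.comp_apply] at this
      rw [this]
      refine lsum_congr fun e _ => ?_
      split_ifs
      · exact key (F2 (U c (T e)) ∘ₗ U a) c
      · rfl
    simp only [h1]
    rw [← lsum_sum_comm]
    refine lsum_congr fun e _ => ?_
    split_ifs
    · exact sum_lsum_ite L aa A hA fun e' c => F2 (U c (T e)) (U a (T e'))
    · simp

end Vale.Agent.P359
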