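import Vale.Agent.P359.RhoEnergyA

/-! The eigenvalue equation in terms of the reduced forms. -/

namespace Vale.Agent.P359

open MvPolynomial Finset

namespace En

open Pj

variable {Q : ℕ}

/-- The Hermitian product in coordinates. -/
noncomputable def ip {n : ℕ} (u v : Vec Q n) : ℂ := ∑ z, (starRingEnd ℂ) (u z) * v z

theorem ip_conj {n : ℕ} (u v : Vec Q n) : ip u v = (starRingEnd ℂ) (ip v u) := by
  simp only [ip, map_sum, map_mul, Complex.conj_conj, mul_comm]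

theorem ip_P01 {n : ℕ} (ψ χ : Vec Q (n + 2)) :
    ip (pairK 0 1 ψ) χ
      = ∑ M ∈ range (2 * Q - 1), ((1 / (2 * nV Q M) : ℝ) : ℂ) * ip (Y M ψ) (Y M χ) := by
  unfold ip
  rw [sum_c2]
  simp only [P01_eq, map_sum, map_mul, Complex.conj_ofReal, sum_mul]
  have e : ∀ M, ((1 / (2 * nV Q M) : ℝ) : ℂ) * ∑ z, (starRingEnd ℂ) (Y M ψ z) * Y M χ z
      = ∑ a, ∑ b, ∑ z, ((bv Q M (a, b) / (2 * nV Q M) : ℝ) : ℂ) * (starRingEnd ℂ) (Y M ψ z)
        * χ (c2 a b z) := by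
    intro M
    rw [rot3', mul_sum]
    refine sum_congr rfl fun z _ => ?_
    conv_lhs => rw [Y.eq_1 M χ]
    simp only [mul_sum]
    refine sum_congr rfl fun a _ => sum_congr rfl fun b _ => ?_
    push_cast; ring
  simp only [e]
  rw [← rot3' (range (2 * Q - 1))]
  refine sum_congr rfl fun a _ => sum_congr rfl fun b _ => ?_
  rw [sum_comm]

theorem Y_P01 (hQ : 2 ≤ Q) {n M : ℕ} (hM : M < 2 * Q - 1) (ψ : Vec Q (n + 2)) :
    Y M (pairK 0 1 ψ) = Y M ψ := by
  funext z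
  conv_lhs => rw [Y]
  simp only [P01_eq, mul_sum]
  rw [rot3']
  have e : ∀ K, ∑ a, ∑ b, (bv Q M (a, b) : ℂ) * (((bv Q K (a, b) / (2 * nV Q K) : ℝ) : ℂ) * Y K ψ z)
      = (((if M = K then 2 * nV Q M else 0) / (2 * nV Q K) : ℝ) : ℂ) * Y K ψ z := by
    intro K
    rw [← bv_dot (by omega), Fintype.sum_prod_type]
    simp only [Complex.ofReal_div, Complex.ofReal_sum, Complex.ofReal_mul, sum_div, sum_mul]
    exact sum_congr rfl fun a _ => sum_congr rfl fun b _ => by ring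
  simp only [e]
  rw [sum_eq_single M]
  · have := (nV_pos hQ hM).ne'
    rw [if_pos rfl, div_self (by positivity)]; simp
  · intro K _ h; rw [if_neg h.symm]; simp
  · intro h; exact absurd (mem_range.2 hM) h

theorem Y_Pss {n : ℕ} (M : ℕ) (ψ : Vec Q (n + 2)) (i j : Fin n) :
    Y M (pairK i.succ.succ j.succ.succ ψ) = pairK i j (Y M ψ) := by
  funext z
  have e : ∀ (a b : Fin (Q + 1)) (i : Fin n), c2 a b z i.succ.succ = z i := fun _ _ _ => rfl
  simp only [Y, pairK, upd_c2', e, mul_sum]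
  rw [Sp.rot4]
  exact sum_congr rfl fun _ _ => sum_congr rfl fun _ _ => sum_congr rfl fun _ _ =>
    sum_congr rfl fun _ _ => by ring

theorem ne0 {n : ℕ} (l : Fin n) : (0 : Fin (n + 2)) ≠ l.succ.succ := (Fin.succ_ne_zero _).symm

theorem ne1 {n : ℕ} (l : Fin n) : (1 : Fin (n + 2)) ≠ l.succ.succ := (Fin.one_lt_succ_succ l).ne

theorem P02_eq {n : ℕ} {ψ : Vec Q (n + 3)} (hψ : AntiF ψ) (a b c : Fin (Q + 1))
    (z : Fin n → Fin (Q + 1)) :
    pairK 0 (0 : Fin (n + 1)).succ.succ ψ (c2 a b (Fin.cons c z))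
      = -pairK 0 1 ψ (c2 a c (Fin.cons b z)) := by
  have h12 : (1 : Fin (n + 3)) ≠ (0 : Fin (n + 1)).succ.succ := ne1 _
  have h0 : Equiv.swap (1 : Fin (n + 3)) (0 : Fin (n + 1)).succ.succ 0 = 0 :=
    Equiv.swap_apply_of_ne_of_ne (Fin.ne_of_val_ne (by simp)) (ne0 _)
  have h := Sp.pairK_perm hψ (Equiv.swap 1 (0 : Fin (n + 1)).succ.succ) 0 1 (c2 a b (Fin.cons c z))
  have e : (c2 a b (Fin.cons c z) : Fin (n + 3) → Fin (Q + 1))
      ∘ Equiv.swap 1 (0 : Fin (n + 1)).succ.succ = c2 a c (Fin.cons b z) := by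
    funext x
    refine Fin.cases ?_ (fun x => Fin.cases ?_ (fun x => Fin.cases ?_ (fun x => ?_) x) x) x
    · rw [Function.comp_apply, h0]; rfl
    · rw [Function.comp_apply]
      exact congrArg _ (Equiv.swap_apply_left (1 : Fin (n + 3)) _)
    · rw [Function.comp_apply]
      exact congrArg _ (Equiv.swap_apply_right (1 : Fin (n + 3)) _)
    · rw [Function.comp_apply, Equiv.swap_apply_of_ne_of_ne (ne1 _).symm
        (fun h => Fin.succ_ne_zero x (Fin.succ_injective _ (Fin.succ_injective _ h)))]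
      rfl
  rw [e, Equiv.Perm.sign_swap h12, Equiv.swap_apply_left, h0] at h
  rw [h]; simp

theorem Y_P02 {n : ℕ} (M : ℕ) {ψ : Vec Q (n + 3)} (hψ : AntiF ψ) (c : Fin (Q + 1))
    (z : Fin n → Fin (Q + 1)) :
    Y (n := n + 1) M (pairK 0 (0 : Fin (n + 1)).succ.succ ψ) (Fin.cons c z)
      = ∑ K ∈ range (2 * Q - 1), ∑ b,
        ((-(∑ a, bv Q M (a, b) * bv Q K (a, c)) / (2 * nV Q K) : ℝ) : ℂ)
          * Y (n := n + 1) K ψ (Fin.cons b z) := by
  conv_lhs => rw [Y]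
  simp only [P02_eq hψ, P01_eq (n := n + 1), mul_neg, mul_sum, ← sum_neg_distrib]
  rw [rot3']
  refine sum_congr rfl fun K _ => ?_
  rw [sum_comm]
  refine sum_congr rfl fun b _ => ?_
  simp only [Complex.ofReal_div, Complex.ofReal_sum, Complex.ofReal_mul, Complex.ofReal_neg,
    sum_div, sum_mul]
  exact sum_congr rfl fun a _ => by ring

theorem ip_perm {N : ℕ} {ψ : Vec Q N} (hψ : AntiF ψ) (σ : Equiv.Perm (Fin N)) (i j k l : Fin N) :
    ip (pairK (σ i) (σ j) ψ) (pairK (σ k) (σ l) ψ) = ip (pairK i j ψ) (pairK k l ψ) := by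
  unfold ip
  rw [← Equiv.sum_comp (Equiv.arrowCongr σ (Equiv.refl (Fin (Q + 1)))).symm
    fun x => (starRingEnd ℂ) (pairK i j ψ x) * pairK k l ψ x]
  refine sum_congr rfl fun x _ => ?_
  have e : (Equiv.arrowCongr σ (Equiv.refl (Fin (Q + 1)))).symm x = x ∘ σ := rfl
  rw [e, Sp.pairK_perm hψ, Sp.pairK_perm hψ]
  rcases Int.units_eq_one_or (Equiv.Perm.sign σ) with h | h <;> simp [h]

theorem card_lt (n : ℕ) : ∑ k : Fin n, ∑ l : Fin n, (if k < l then (1 : ℂ) else 0)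
    = (n : ℂ) * ((n : ℂ) - 1) / 2 := by
  induction n with
  | zero => simp
  | succ n ih =>
    rw [Fin.sum_univ_succ]
    simp only [Fin.sum_univ_succ, Fin.succ_lt_succ_iff, ih, Fin.succ_pos, lt_irrefl,
      Fin.not_lt_zero, if_true, if_false, zero_add, sum_const, card_univ, Fintype.card_fin]
    simp only [nsmul_eq_mul]; push_cast; ring

theorem ip_ham {m : ℕ} {ψ : Vec Q (m + 4)} (hψ : AntiF ψ) :
    ip (pairK 0 1 ψ) (hamK ψ) = ip (pairK 0 1 ψ) (pairK 0 1 ψ)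
      + 2 * ((m : ℂ) + 2) * ip (pairK 0 1 ψ) (pairK 0 (0 : Fin (m + 2)).succ.succ ψ)
      + ((m : ℂ) + 2) * ((m : ℂ) + 1) / 2
        * ip (pairK 0 1 ψ) (pairK (0 : Fin (m + 2)).succ.succ (1 : Fin (m + 2)).succ.succ ψ) := by
  have h0 : ip (pairK 0 1 ψ) (hamK ψ)
      = ∑ k, ∑ l, if k < l then ip (pairK 0 1 ψ) (pairK k l ψ) else 0 := by
    simp only [ip, hamK, mul_sum]
    rw [Sp.rot3]
    refine sum_congr rfl fun k _ => sum_congr rfl fun l _ => ?_
    split_ifs <;> simp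
  have hA : ∀ l : Fin (m + 2), ip (pairK 0 1 ψ) (pairK 0 l.succ.succ ψ)
      = ip (pairK 0 1 ψ) (pairK 0 (0 : Fin (m + 2)).succ.succ ψ) := by
    intro l
    have := ip_perm hψ (Equiv.swap (0 : Fin (m + 2)).succ.succ l.succ.succ) 0 1 0
      (0 : Fin (m + 2)).succ.succ
    rwa [Equiv.swap_apply_left, Equiv.swap_apply_of_ne_of_ne (ne0 _) (ne0 _),
      Equiv.swap_apply_of_ne_of_ne (ne1 _) (ne1 _)] at this
  have hB : ∀ l : Fin (m + 2), ip (pairK 0 1 ψ) (pairK 1 l.succ.succ ψ)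
      = ip (pairK 0 1 ψ) (pairK 0 (0 : Fin (m + 2)).succ.succ ψ) := by
    intro l
    have := ip_perm hψ (Equiv.swap 0 1) 0 1 0 l.succ.succ
    rw [Equiv.swap_apply_left, Equiv.swap_apply_right,
      Equiv.swap_apply_of_ne_of_ne (Fin.ne_of_val_ne (by simp)) (Fin.ne_of_val_ne (by simp))] at this
    rw [← hA l, ← this]
    congr 1
    funext x
    exact (Sp.pairK_comm (Fin.ne_of_val_ne (by simp)) ψ x).symm
  have hC : ∀ k l : Fin (m + 2), k < l → ip (pairK 0 1 ψ) (pairK k.succ.succ l.succ.succ ψ)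
      = ip (pairK 0 1 ψ) (pairK (0 : Fin (m + 2)).succ.succ (1 : Fin (m + 2)).succ.succ ψ) := by
    intro k l hkl
    have inj : ∀ k l : Fin (m + 2), k ≠ l →
        Function.Injective (![0, 1, k.succ.succ, l.succ.succ] : Fin 4 → Fin (m + 4)) := by
      intro k l hkl s t hst
      have h1 : (k : ℕ) ≠ l := fun h => hkl (Fin.ext h)
      have h2 := congrArg Fin.val hst
      fin_cases s <;> fin_cases t <;> first | rfl | (exfalso; simp at h2; try omega)
    obtain ⟨σ, hσ⟩ := Equiv.Perm.exists_extending_pair _ _ (inj 0 1 (Fin.ne_of_val_ne (by simp)))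
      (inj k l hkl.ne)
    have := ip_perm hψ σ 0 1 (0 : Fin (m + 2)).succ.succ (1 : Fin (m + 2)).succ.succ
    have e0 : σ 0 = 0 := hσ 0
    have e1 : σ 1 = 1 := hσ 1
    have e2 : σ (0 : Fin (m + 2)).succ.succ = k.succ.succ := hσ 2
    have e3 : σ (1 : Fin (m + 2)).succ.succ = l.succ.succ := hσ 3
    rwa [e0, e1, e2, e3] at this
  have hD : ∑ k : Fin (m + 2), ∑ l : Fin (m + 2),
      (if k < l then ip (pairK 0 1 ψ) (pairK k.succ.succ l.succ.succ ψ) else 0)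
      = ((m : ℂ) + 2) * ((m : ℂ) + 1) / 2
        * ip (pairK 0 1 ψ) (pairK (0 : Fin (m + 2)).succ.succ (1 : Fin (m + 2)).succ.succ ψ) := by
    have := card_lt (m + 2)
    push_cast at this
    rw [show (m : ℂ) + 1 = m + 2 - 1 by ring, ← this, sum_mul]
    refine sum_congr rfl fun k _ => ?_
    rw [sum_mul]
    refine sum_congr rfl fun l _ => ?_
    split_ifs with h
    · rw [hC k l h, one_mul]
    · rw [zero_mul]
  rw [h0, Fin.sum_univ_succ, Fin.sum_univ_succ (n := m + 2)]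
  simp only [Fin.sum_univ_succ (n := m + 3), Fin.sum_univ_succ (n := m + 2), Fin.succ_lt_succ_iff,
    Fin.succ_pos, lt_irrefl, Fin.not_lt_zero, if_true, if_false, zero_add, Fin.succ_zero_eq_one,
    Fin.one_lt_succ_succ, hA, hB, hD, sum_const, card_univ, Fintype.card_fin, nsmul_eq_mul]
  push_cast; ring

theorem rho_ip (m k : ℕ) {J : Type} [Fintype J] (w : J → Vec Q (m + k)) (p q : Pol (Fin k)) :
    rho m k w p q = ∑ j, (ip (con p (w j)) (con q (w j))).re := by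
  simp only [rho_apply, ip, Complex.re_sum]

theorem T0_eq {m : ℕ} (w : (Fin (m + 4) → Fin (Q + 1)) → Vec Q (m + 4)) :
    T0 Q (r2 w) = 2 * ∑ j, (ip (pairK 0 1 (w j)) (w j)).re := by
  have e : ∀ M j, con (m := m + 2) (beta M) (w j) = Y (n := m + 2) M (w j) :=
    fun M j => funext (con_beta M (w j))
  simp only [T0, r2, rho_ip, e, ip_P01 (n := m + 2), Complex.re_sum, Complex.re_ofReal_mul,
    sum_div, mul_sum]
  rw [sum_comm]
  exact sum_congr rfl fun j _ => sum_congr rfl fun M _ => by ring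

theorem ip_P01_P01 (hQ : 2 ≤ Q) {n : ℕ} (ψ : Vec Q (n + 2)) :
    ip (pairK 0 1 ψ) (pairK 0 1 ψ) = ip (pairK 0 1 ψ) ψ := by
  rw [ip_P01, ip_P01]
  exact sum_congr rfl fun M hM => by rw [Y_P01 hQ (mem_range.1 hM)]

theorem T2_eq {m : ℕ} (w : (Fin (m + 4) → Fin (Q + 1)) → Vec Q (m + 4)) :
    T2 Q (r4 w) = ((m : ℝ) + 2) * ((m : ℝ) + 1) * ∑ j, (ip (pairK 0 1 (w j))
      (pairK (0 : Fin (m + 2)).succ.succ (1 : Fin (m + 2)).succ.succ (w j))).re := by
  have e : ∀ M K j, con (m := m) (b4 M K) (w j) = Y K (Y (n := m + 2) M (w j)) :=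
    fun M K j => funext (con_b4 M K (w j))
  have e2 : ∀ (u : Vec Q (m + 2)), (ip u (pairK 0 1 u)).re = (ip (pairK 0 1 u) u).re := by
    intro u; rw [ip_conj, Complex.conj_re]
  simp only [T2, r4, LinearMap.smul_apply, smul_eq_mul, rho_ip, e, ip_P01 (n := m + 2), Y_Pss,
    Complex.re_sum, Complex.re_ofReal_mul, e2, ip_P01 (n := m), sum_div, mul_sum]
  rw [sum_comm (s := univ)]
  refine sum_congr rfl fun M _ => ?_
  rw [sum_comm]
  exact sum_congr rfl fun j _ => sum_congr rfl fun K _ => by ring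

theorem Nf_b3 (hQ : 1 ≤ Q) (M K : ℕ) (b c : Fin (Q + 1)) :
    Nf (fun _ => 1) (eps Q) (b3 M c) (rename (Equiv.swap 1 2) (b3 K b))
      = Real.sqrt (n1 Q c) * Real.sqrt (n1 Q b) * ∑ a, bv Q M (a, b) * bv Q K (a, c) := by
  rw [← vec_dot hQ, sum_c2 (n := 1), mul_sum]
  refine sum_congr rfl fun a _ => ?_
  simp only [sum_cons (n := 0), sum_nil, vec_rename]
  have e1 : ∀ a1 a2, vec Q (b3 M c) (c2 a a1 (Fin.cons a2 ![]))
      = bv Q M (a, a1) * if a2 = c then Real.sqrt (n1 Q c) else 0 := fun a1 a2 => vec_b3 M c a a1 a2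
  have e2 : ∀ a1 a2, vec Q (b3 K b) ((c2 a a1 (Fin.cons a2 ![]) : Fin 3 → _) ∘ Equiv.swap 1 2)
      = bv Q K (a, a2) * if a1 = b then Real.sqrt (n1 Q b) else 0 := fun a1 a2 => by
    rw [← vec_b3]
    congr 1
    funext x
    fin_cases x <;> rfl
  simp only [e1, e2, mul_ite, ite_mul, mul_zero, zero_mul, sum_ite_eq', mem_univ, if_true,
    sum_ite_irrel, sum_const_zero]
  ring

theorem sum_shuffle {J C : Type} [Fintype J] [Fintype C] (s : Finset ℕ) (G : ℕ → ℕ → C → C → ℝ)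
    (S : J → ℕ → C → ℕ → C → ℝ) (v : ℕ → ℝ) (n : C → ℝ) (hn : ∀ c, 0 < n c) (t : ℝ) :
    ∑ M ∈ s, ∑ c, ∑ K ∈ s, ∑ b, -(√(n c) * √(n b) * G M K b c)
        * (t * (√(n c) * √(n b)) * ∑ j, S j M c K b) / (v M * n c * (v K * n b))
      = 4 * t * ∑ j, ∑ M ∈ s, 1 / (2 * v M) * ∑ c, ∑ K ∈ s, ∑ b,
        (-G M K b c) / (2 * v K) * S j M c K b := by
  simp only [mul_sum, sum_div]
  rw [sum_comm (s := univ)]
  refine sum_congr rfl fun M _ => ?_
  rw [sum_comm (s := (univ : Finset J))]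
  refine sum_congr rfl fun c _ => ?_
  rw [sum_comm (s := (univ : Finset J))]
  refine sum_congr rfl fun K _ => ?_
  rw [sum_comm (s := (univ : Finset J))]
  refine sum_congr rfl fun b _ => sum_congr rfl fun j _ => ?_
  have h1 := Real.mul_self_sqrt (hn c).le
  have h2 := Real.mul_self_sqrt (hn b).le
  have h3 := (hn c).ne'
  have h4 := (hn b).ne'
  have h5 : -(√(n c) * √(n b) * G M K b c) * (t * (√(n c) * √(n b)) * S j M c K b)
      = n c * n b * (-(G M K b c * t * S j M c K b)) := by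
    conv_rhs => rw [← h1, ← h2]
    ring
  rw [h5, show v M * n c * (v K * n b) = n c * n b * (v M * v K) by ring,
    mul_div_mul_left _ _ (mul_ne_zero h3 h4)]
  ring

theorem T1_eq (hQ : 2 ≤ Q) {m : ℕ} (w : (Fin (m + 4) → Fin (Q + 1)) → Vec Q (m + 4))
    (hw : ∀ j, AntiF (w j)) :
    T1 Q (r3 w) = 4 * ((m : ℝ) + 2) * ∑ j, (ip (pairK 0 1 (w j))
      (pairK 0 (0 : Fin (m + 2)).succ.succ (w j))).re := by
  have e : ∀ M (c : Fin (Q + 1)) j z, con (m := m + 1) (b3 M c) (w j) z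
      = (Real.sqrt (n1 Q c) : ℂ) * Y (n := m + 2) M (w j) (Fin.cons c z) :=
    fun M c j z => con_b3 (n := m + 1) M c (w j) z
  have e2 : ∀ M j, ip (Y (n := m + 2) M (w j))
      (Y (n := m + 2) M (pairK 0 (0 : Fin (m + 2)).succ.succ (w j)))
      = ∑ c, ∑ K ∈ range (2 * Q - 1), ∑ b,
        ((-(∑ a, bv Q M (a, b) * bv Q K (a, c)) / (2 * nV Q K) : ℝ) : ℂ)
          * ∑ z : Fin (m + 1) → Fin (Q + 1), (starRingEnd ℂ) (Y (n := m + 2) M (w j) (Fin.cons c z))
            * Y (n := m + 2) K (w j) (Fin.cons b z) := by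
    intro M j
    rw [ip, sum_cons]
    refine sum_congr rfl fun c _ => ?_
    simp only [Y_P02 (n := m + 1) M (hw j), mul_sum]
    rw [sum_comm]
    refine sum_congr rfl fun K _ => ?_
    rw [sum_comm]
    exact sum_congr rfl fun b _ => sum_congr rfl fun z _ => by ring
  have e3 : ∀ M K (b c : Fin (Q + 1)), r3 w (b3 M c) (b3 K b)
      = ((m : ℝ) + 2) * (Real.sqrt (n1 Q c) * Real.sqrt (n1 Q b)) * ∑ j,
        (∑ z : Fin (m + 1) → Fin (Q + 1), (starRingEnd ℂ) (Y (n := m + 2) M (w j) (Fin.cons c z))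
            * Y (n := m + 2) K (w j) (Fin.cons b z)).re := by
    intro M K b c
    simp only [r3, LinearMap.smul_apply, smul_eq_mul, rho_ip, ip, e, mul_assoc]
    congr 1
    simp only [mul_sum]
    refine sum_congr rfl fun j _ => ?_
    rw [← Complex.re_ofReal_mul, ← Complex.re_ofReal_mul, mul_sum, mul_sum]
    congr 1
    refine sum_congr rfl fun z _ => ?_
    rw [map_mul, Complex.conj_ofReal]; ring
  simp only [T1, sum_range (n := Q + 1), Nf_b3 (by omega : 1 ≤ Q), e3, ip_P01 (n := m + 2), e2,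
    Complex.re_sum (s := range (2 * Q - 1)), Complex.re_sum (s := (univ : Finset (Fin (Q + 1)))),
    Complex.re_ofReal_mul]
  exact sum_shuffle (range (2 * Q - 1)) (fun M K b c => ∑ a, bv Q M (a, b) * bv Q K (a, c))
    (fun j M c K b => (∑ z : Fin (m + 1) → Fin (Q + 1),
      (starRingEnd ℂ) (Y (n := m + 2) M (w j) (Fin.cons c z))
        * Y (n := m + 2) K (w j) (Fin.cons b z)).re) (nV Q) (fun c : Fin (Q + 1) => n1 Q c)
    (fun c => Pj.n1_pos (by omega) (Nat.lt_succ_iff.1 c.2)) _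

end En

theorem energy_eq {Q m : ℕ} (hQ : 2 ≤ Q) {E : ℝ} {w : (Fin (m + 4) → Fin (Q + 1)) → Vec Q (m + 4)}
    (h : Fam Q (m + 4) E w) : E * T0 Q (r2 w) = T0 Q (r2 w) + T1 Q (r3 w) + T2 Q (r4 w) := by
  rw [En.T0_eq, En.T1_eq hQ w h.anti, En.T2_eq]
  simp only [mul_sum, ← sum_add_distrib]
  refine sum_congr rfl fun j _ => ?_
  have h1 := En.ip_ham (h.anti j)
  have h2 : En.ip (pairK 0 1 (w j)) (hamK (w j)) = (E : ℂ) * En.ip (pairK 0 1 (w j)) (w j) := by
    simp only [En.ip, h.eig, mul_sum]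
    exact sum_congr rfl fun x _ => by ring
  rw [h2, En.ip_P01_P01 (n := m + 2) hQ] at h1
  have e1 : 2 * ((m : ℂ) + 2) = ((2 * ((m : ℝ) + 2) : ℝ) : ℂ) := by push_cast; ring
  have e2 : ((m : ℂ) + 2) * ((m : ℂ) + 1) / 2 = ((((m : ℝ) + 2) * ((m : ℝ) + 1) / 2 : ℝ) : ℂ) := by
    push_cast; ring
  rw [e1, e2] at h1
  have h3 := congrArg Complex.re h1
  simp only [Complex.add_re, Complex.re_ofReal_mul] at h3
  linear_combination 2 * h3

theorem T0_pos {Q m : ℕ} (hQ : 2 ≤ Q) {E : ℝ} {w : (Fin (m + 4) → Fin (Q + 1)) → Vec Q (m + 4)}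
    (h : Fam Q (m + 4) E w) (hE : E ≠ 0) : 0 < T0 Q (r2 w) := by
  have hn : ∀ (u : Vec Q (m + 4)), (En.ip u u).re = ∑ x, Complex.normSq (u x) := by
    intro u
    simp only [En.ip, Complex.re_sum, ← Complex.normSq_eq_conj_mul_self, Complex.ofReal_re]
  rw [En.T0_eq]
  simp only [← En.ip_P01_P01 (n := m + 2) hQ, hn]
  obtain ⟨j, hj⟩ := h.ne
  have hnn : ∀ j, 0 ≤ ∑ x, Complex.normSq (pairK 0 1 (w j) x) :=
    fun j => sum_nonneg fun x _ => Complex.normSq_nonneg _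
  refine mul_pos two_pos (sum_pos' (fun j _ => hnn j) ⟨j, mem_univ _, ?_⟩)
  refine lt_of_le_of_ne (hnn j) fun h0 => hj ?_
  have h1 : ∀ x, pairK 0 1 (w j) x = 0 := fun x => Complex.normSq_eq_zero.1
    ((sum_eq_zero_iff_of_nonneg fun x _ => Complex.normSq_nonneg _).1 h0.symm x (mem_univ _))
  have h2 : ∀ k l : Fin (m + 4), k ≠ l → ∀ x, pairK k l (w j) x = 0 := by
    intro k l hkl x
    have inj : ∀ k l : Fin (m + 4), k ≠ l → Function.Injective (![k, l] : Fin 2 → Fin (m + 4)) := by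
      intro k l hkl s t hst
      fin_cases s <;> fin_cases t <;> first | rfl | exact absurd hst hkl | exact absurd hst hkl.symm
    obtain ⟨σ, hσ⟩ := Equiv.Perm.exists_extending_pair _ _ (inj 0 1 (Fin.ne_of_val_ne (by simp)))
      (inj k l hkl)
    have e0 : σ 0 = k := hσ 0
    have e1 : σ 1 = l := hσ 1
    have := Sp.pairK_perm (h.anti j) σ 0 1 x
    rw [h1, e0, e1] at this
    rcases mul_eq_zero.1 this.symm with h3 | h3
    · rcases Int.units_eq_one_or (Equiv.Perm.sign σ) with h4 | h4 <;> simp [h4] at h3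
    · exact h3
  funext x
  have h3 := h.eig j x
  have h4 : hamK (w j) x = 0 := by
    refine sum_eq_zero fun k _ => sum_eq_zero fun l _ => ?_
    split_ifs with hkl
    · exact h2 k l hkl.ne x
    · rfl
  rw [h4] at h3
  rcases mul_eq_zero.1 h3.symm with h5 | h5
  · exact absurd (Complex.ofReal_eq_zero.1 h5) hE
  · exact h5

end Vale.Agent.P359
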