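import Vale.Agent.P359.Proj

/-! Invariance, positivity and antisymmetry of the reduced forms. -/

namespace Vale.Agent.P359

open MvPolynomial Finset

/-- The slots of a concatenation. -/
def slot (m k : ℕ) : Fin k ⊕ Fin m ≃ Fin (m + k) :=
  finSumFinEquiv.trans (finCongr (Nat.add_comm k m))

theorem slot_inl_val {m k : ℕ} (i : Fin k) : (slot m k (Sum.inl i) : ℕ) = i := by
  simp [slot]

theorem slot_inr_val {m k : ℕ} (j : Fin m) : (slot m k (Sum.inr j) : ℕ) = k + j := by
  simp [slot, Nat.add_comm]

theorem join_inl {α : Type} {m : ℕ} : ∀ (k : ℕ) (a : Fin k → α) (z : Fin m → α) (i : Fin k),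
    join k a z (slot m k (Sum.inl i)) = a i
  | 0, _, _, i => i.elim0
  | k + 1, a, z, i => by
    refine Fin.cases ?_ (fun i => ?_) i
    · have : slot m (k + 1) (Sum.inl 0) = (0 : Fin (m + k + 1)) := Fin.ext (by rw [slot_inl_val]; rfl)
      rw [this]; rfl
    · have : slot m (k + 1) (Sum.inl i.succ) = (slot m k (Sum.inl i)).succ :=
        Fin.ext (by rw [slot_inl_val, Fin.val_succ, Fin.val_succ, slot_inl_val])
      rw [this]
      exact join_inl k (Fin.tail a) z i

theorem join_inr {α : Type} {m : ℕ} : ∀ (k : ℕ) (a : Fin k → α) (z : Fin m → α) (j : Fin m),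
    join k a z (slot m k (Sum.inr j)) = z j
  | 0, _, z, j => by
    have : slot m 0 (Sum.inr j) = j := Fin.ext (by rw [slot_inr_val]; simp)
    rw [this]; rfl
  | k + 1, a, z, j => by
    have : slot m (k + 1) (Sum.inr j) = (slot m k (Sum.inr j)).succ :=
      Fin.ext (by rw [slot_inr_val, Fin.val_succ, slot_inr_val]; omega)
    rw [this]
    exact join_inr k (Fin.tail a) z j

theorem join_update_inl {α : Type} {m k : ℕ} (a : Fin k → α) (z : Fin m → α) (i : Fin k) (c : α) :
    Function.update (join k a z) (slot m k (Sum.inl i)) c = join k (Function.update a i c) z := by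
  funext x
  obtain ⟨y, rfl⟩ := (slot m k).surjective x
  rcases y with i' | j
  · rw [join_inl]
    by_cases h : i' = i
    · subst h; simp
    · rw [Function.update_of_ne (by simpa using h), Function.update_of_ne h, join_inl]
  · rw [Function.update_of_ne (by simp), join_inr, join_inr]

theorem join_update_inr {α : Type} {m k : ℕ} (a : Fin k → α) (z : Fin m → α) (j : Fin m) (c : α) :
    Function.update (join k a z) (slot m k (Sum.inr j)) c = join k a (Function.update z j c) := by
  funext x
  obtain ⟨y, rfl⟩ := (slot m k).surjective x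
  rcases y with i | j'
  · rw [Function.update_of_ne (by simp), join_inl, join_inl]
  · rw [join_inr]
    by_cases h : j' = j
    · subst h; simp
    · rw [Function.update_of_ne (by simpa using h), Function.update_of_ne h, join_inr]

theorem join_swap {α : Type} {m k : ℕ} (a : Fin k → α) (z : Fin m → α) (i i' : Fin k) :
    join k (a ∘ Equiv.swap i i') z
      = join k a z ∘ Equiv.swap (slot m k (Sum.inl i)) (slot m k (Sum.inl i')) := by
  funext x
  obtain ⟨y, rfl⟩ := (slot m k).surjective x
  rw [Function.comp_apply, ← (slot m k).injective.map_swap]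
  rcases y with i'' | j
  · rw [← Sum.inl_injective.map_swap, join_inl, join_inl]; rfl
  · rw [Equiv.swap_apply_of_ne_of_ne (by simp) (by simp), join_inr, join_inr]

theorem sum_slot {β : Type} [AddCommMonoid β] {m k : ℕ} (f : Fin (m + k) → β) :
    ∑ x, f x = ∑ i, f (slot m k (Sum.inl i)) + ∑ j, f (slot m k (Sum.inr j)) := by
  rw [← (slot m k).sum_comp, Fintype.sum_sum_type]

theorem sum_update_swap {ι α β : Type} [Fintype ι] [DecidableEq ι] [Fintype α] [AddCommMonoid β]
    (i : ι) (g : (ι → α) → α → β) :
    ∑ a, ∑ c, g a c = ∑ a, ∑ c, g (Function.update a i c) (a i) := by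
  have hinv : Function.Involutive fun p : (ι → α) × α => (Function.update p.1 i p.2, p.1 i) := by
    intro p; simp
  rw [← Fintype.sum_prod_type', ← Fintype.sum_prod_type']
  exact (Equiv.sum_comp hinv.toPerm fun p => g p.1 p.2).symm

theorem vec_rename {Q k : ℕ} (s : Equiv.Perm (Fin k)) (p : Pol (Fin k)) (a : Fin k → Fin (Q + 1)) :
    vec Q (rename s p) a = vec Q p (a ∘ s) := by
  have h : toF a = Finsupp.mapDomain s (toF (a ∘ s)) := by
    ext i
    obtain ⟨i, rfl⟩ := s.surjective i
    rw [Finsupp.mapDomain_apply s.injective]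
    simp [toF]
  unfold vec
  rw [h, coeff_rename_mapDomain _ s.injective]
  congr 1
  exact (Equiv.prod_comp s fun i => Real.sqrt (n1 Q (a i))).symm

theorem con_swap {Q m k : ℕ} (ψ : Vec Q (m + k)) (hψ : AntiF ψ) (i i' : Fin k) (hi : i ≠ i')
    (p : Pol (Fin k)) (z : Fin m → Fin (Q + 1)) :
    con (rename (Equiv.swap i i') p) ψ z = -con p ψ z := by
  unfold con
  have hinv : Function.Involutive fun a : Fin k → Fin (Q + 1) => a ∘ Equiv.swap i i' := by
    intro a; funext x; simp
  rw [← Equiv.sum_comp hinv.toPerm, ← sum_neg_distrib]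
  refine sum_congr rfl fun a _ => ?_
  have h1 : (a ∘ Equiv.swap i i') ∘ Equiv.swap i i' = a := hinv a
  rw [Function.Involutive.coe_toPerm, vec_rename, h1, join_swap, hψ,
    Equiv.Perm.sign_swap (by simpa using hi)]
  simp

theorem con_totE {Q m k : ℕ} (hQ : 1 ≤ Q) (p : Pol (Fin k)) (ψ : Vec Q (m + k))
    (z : Fin m → Fin (Q + 1)) :
    con (Cm (Fin k) * p) ψ z
      = (Real.sqrt (eps Q) : ℂ) * (con p (totE ψ) z - totE (con p ψ) z) := by
  have h1 : con p (totE ψ) z
      = ∑ a, ∑ i, ∑ c, (vec Q p a : ℂ) * ((low Q c (a i) : ℂ) * ψ (join k (Function.update a i c) z))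
        + totE (con p ψ) z := by
    simp only [con, totE, sum_slot (m := m) (k := k), join_inl, join_inr, join_update_inl, join_update_inr, mul_add,
      sum_add_distrib, mul_sum]
    refine congrArg₂ (· + ·) rfl ?_
    rw [sum_comm]
    refine sum_congr rfl fun j _ => ?_
    rw [sum_comm]
    exact sum_congr rfl fun c _ => sum_congr rfl fun a _ => by ring
  rw [h1, add_sub_cancel_right, con]
  simp only [vec_Cm hQ, Complex.ofReal_mul, Complex.ofReal_sum, mul_sum, sum_mul]
  rw [sum_comm, sum_comm (f := fun a i => ∑ c, (Real.sqrt (eps Q) : ℂ) * _)]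
  refine sum_congr rfl fun i _ => ?_
  rw [sum_update_swap i]
  refine sum_congr rfl fun a _ => sum_congr rfl fun c _ => ?_
  simp only [Function.update_self, Function.update_idem, Function.update_eq_self]
  ring

theorem con_totF {Q m k : ℕ} (hQ : 1 ≤ Q) (p : Pol (Fin k)) (ψ : Vec Q (m + k))
    (z : Fin m → Fin (Q + 1)) :
    con (Dop (fun _ => 1) (eps Q) p) ψ z
      = (Real.sqrt (eps Q) : ℂ) * (con p (totF ψ) z - totF (con p ψ) z) := by
  have h1 : con p (totF ψ) z
      = ∑ a, ∑ i, ∑ c, (vec Q p a : ℂ) * ((low Q (a i) c : ℂ) * ψ (join k (Function.update a i c) z))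
        + totF (con p ψ) z := by
    simp only [con, totF, sum_slot (m := m) (k := k), join_inl, join_inr, join_update_inl, join_update_inr, mul_add,
      sum_add_distrib, mul_sum]
    refine congrArg₂ (· + ·) rfl ?_
    rw [sum_comm]
    refine sum_congr rfl fun j _ => ?_
    rw [sum_comm]
    exact sum_congr rfl fun c _ => sum_congr rfl fun a _ => by ring
  rw [h1, add_sub_cancel_right, con]
  simp only [vec_Dop hQ, Complex.ofReal_mul, Complex.ofReal_sum, mul_sum, sum_mul]
  rw [sum_comm, sum_comm (f := fun a i => ∑ c, (Real.sqrt (eps Q) : ℂ) * _)]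
  refine sum_congr rfl fun i _ => ?_
  rw [sum_update_swap i]
  refine sum_congr rfl fun a _ => sum_congr rfl fun c _ => ?_
  simp only [Function.update_self, Function.update_idem, Function.update_eq_self]
  ring

theorem totE_adj {Q N : ℕ} (u v : Vec Q N) :
    ∑ z, (starRingEnd ℂ) (totE u z) * v z = ∑ z, (starRingEnd ℂ) (u z) * totF v z := by
  simp only [totE, totF, map_sum, map_mul, Complex.conj_ofReal, sum_mul, mul_sum]
  rw [sum_comm, sum_comm (f := fun z i => ∑ c, (starRingEnd ℂ) (u z) * _)]
  refine sum_congr rfl fun i _ => ?_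
  rw [sum_update_swap i]
  refine sum_congr rfl fun a _ => sum_congr rfl fun c _ => ?_
  simp only [Function.update_self, Function.update_idem, Function.update_eq_self]
  ring

theorem rho_psd {Q : ℕ} (m k : ℕ) {J : Type} [Fintype J] (w : J → Vec Q (m + k)) :
    Psd (rho m k w) := by
  intro p
  rw [rho_apply]
  refine sum_nonneg fun j _ => sum_nonneg fun z _ => ?_
  rw [← Complex.normSq_eq_conj_mul_self, Complex.ofReal_re]
  exact Complex.normSq_nonneg _

theorem rho_box {Q : ℕ} (m k : ℕ) {J : Type} [Fintype J] (w : J → Vec Q (m + k))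
    (a : Fin k →₀ ℕ) (i : Fin k) (hi : Q < a i) (q : Pol (Fin k)) :
    rho m k w (monomial a 1) q = 0 := by
  have h : ∀ b : Fin k → Fin (Q + 1), vec Q (monomial a 1) b = 0 := by
    intro b
    have hb : a ≠ toF b := by
      intro h
      have h1 : a i = b i := by rw [h]; simp [toF]
      have := (b i).2
      omega
    simp [vec, coeff_monomial, hb]
  simp [rho_apply, con, h]

theorem rho_swap {Q : ℕ} (m k : ℕ) {J : Type} [Fintype J] (w : J → Vec Q (m + k))
    (hw : ∀ j, AntiF (w j)) (i i' : Fin k) (hi : i ≠ i') (p q : Pol (Fin k)) :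
    rho m k w (rename (Equiv.swap i i') p) q = -rho m k w p q := by
  simp only [rho_apply, con_swap _ (hw _) i i' hi, map_neg, neg_mul, Complex.neg_re,
    sum_neg_distrib]

theorem rho_inv {Q : ℕ} (hQ : 1 ≤ Q) (m k : ℕ) {J : Type} [Fintype J] (w : J → Vec Q (m + k))
    (hw : ∀ x y, ∑ j, (starRingEnd ℂ) (totF (w j) x) * w j y
      = ∑ j, (starRingEnd ℂ) (w j x) * totE (w j) y) :
    Inv (fun _ => 1) (eps Q) (rho m k w) := by
  constructor
  · intro p q
    simp only [rho_apply]
    refine sum_congr rfl fun j _ => sum_congr rfl fun z _ => ?_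
    simp [Complex.mul_re]; ring
  · intro p q
    have hw' : ∀ x y, ∑ j, (starRingEnd ℂ) (totE (w j) y) * w j x
        = ∑ j, (starRingEnd ℂ) (w j y) * totF (w j) x := by
      intro x y
      have := congrArg (starRingEnd ℂ) (hw x y)
      simp only [map_sum, map_mul, Complex.conj_conj] at this
      simp only [mul_comm ((starRingEnd ℂ) _)]
      exact this.symm
    have h1 : ∑ j, ∑ z, (starRingEnd ℂ) (con p (totE (w j)) z) * con q (w j) z
        = ∑ j, ∑ z, (starRingEnd ℂ) (con p (w j) z) * con q (totF (w j)) z := by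
      rw [sum_comm, sum_comm (f := fun j z => (starRingEnd ℂ) (con p (w j) z) * _)]
      refine sum_congr rfl fun z _ => ?_
      have e : ∀ (u v : J → Vec Q (m + k)), ∑ j, (starRingEnd ℂ) (con p (u j) z) * con q (v j) z
          = ∑ a, ∑ b, (vec Q p a : ℂ) * (vec Q q b : ℂ)
            * ∑ j, (starRingEnd ℂ) (u j (join k a z)) * v j (join k b z) := by
        intro u v
        simp only [con, map_sum, map_mul, Complex.conj_ofReal, sum_mul_sum]
        simp only [mul_sum]
        rw [sum_comm]
        refine sum_congr rfl fun a _ => ?_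
        rw [sum_comm]
        exact sum_congr rfl fun b _ => sum_congr rfl fun j _ => by ring
      rw [e (fun j => totE (w j)) w, e w (fun j => totF (w j))]
      simp only [hw']
    have h2 : ∑ j, ∑ z, (starRingEnd ℂ) (con (Cm (Fin k) * p) (w j) z) * con q (w j) z
        = ∑ j, ∑ z, (starRingEnd ℂ) (con p (w j) z)
          * con (Dop (fun _ => 1) (eps Q) q) (w j) z := by
      simp only [con_totE hQ, con_totF hQ, map_mul, map_sub, Complex.conj_ofReal, mul_assoc,
        mul_left_comm _ (Real.sqrt (eps Q) : ℂ), ← mul_sum, sub_mul, mul_sub, sum_sub_distrib,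
        totE_adj, h1]
    have h3 := congrArg Complex.re h2
    simpa only [rho_apply, Complex.re_sum] using h3

end Vale.Agent.P359
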