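import Vale.Agent.P359.Proj

/-! The G-type positivity condition. -/

namespace Vale.Agent.P359

open MvPolynomial Finset

namespace Sos

/-- the real part of the inner product -/
noncomputable def B (Z : Type) [Fintype Z] : (Z → ℂ) →ₗ[ℝ] (Z → ℂ) →ₗ[ℝ] ℝ :=
  LinearMap.mk₂ ℝ (fun f g => ∑ z, ((starRingEnd ℂ) (f z) * g z).re)
    (fun f f' g => by simp [add_mul, sum_add_distrib])
    (fun c f g => by
      simp only [Pi.smul_apply, Complex.real_smul, smul_eq_mul, mul_sum, map_mul,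
        Complex.conj_ofReal, mul_assoc, Complex.re_ofReal_mul])
    (fun f g g' => by simp [mul_add, sum_add_distrib])
    (fun c f g => by
      simp only [Pi.smul_apply, Complex.real_smul, smul_eq_mul, mul_sum]
      exact sum_congr rfl fun z _ => by rw [mul_left_comm, Complex.re_ofReal_mul])

variable {Z : Type} [Fintype Z]

lemma B_apply (f g : Z → ℂ) : B Z f g = ∑ z, ((starRingEnd ℂ) (f z) * g z).re := rfl

lemma B_symm (f g : Z → ℂ) : B Z f g = B Z g f :=
  sum_congr rfl fun z _ => by simp [mul_comm]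

lemma B_nonneg (f : Z → ℂ) : 0 ≤ B Z f f :=
  sum_nonneg fun z _ => by rw [← Complex.normSq_eq_conj_mul_self]; exact Complex.normSq_nonneg _

lemma B_perm {I : Type} [Fintype I] {n : ℕ} (σ : Equiv.Perm (Fin n)) {f g f' g' : (Fin n → I) → ℂ}
    (hf : ∀ z, f' (z ∘ σ) = ((Equiv.Perm.sign σ : ℤ) : ℂ) * f z)
    (hg : ∀ z, g' (z ∘ σ) = ((Equiv.Perm.sign σ : ℤ) : ℂ) * g z) : B _ f g = B _ f' g' := by
  rw [B_apply, B_apply]
  refine Fintype.sum_equiv (Equiv.arrowCongr σ.symm (Equiv.refl I)) _ _ fun z => ?_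
  have e : Equiv.arrowCongr σ.symm (Equiv.refl I) z = z ∘ σ := rfl
  rw [e, hf, hg]
  rcases Int.units_eq_one_or (Equiv.Perm.sign σ) with h | h <;> simp [h]

lemma sum_cons {M I : Type} [AddCommMonoid M] [Fintype I] {n : ℕ} (f : (Fin (n + 1) → I) → M) :
    ∑ z, f z = ∑ c, ∑ y : Fin n → I, f (Fin.cons c y) := by
  rw [← Fintype.sum_prod_type', ← (Fin.consEquiv fun _ : Fin (n + 1) => I).sum_comp]
  rfl

lemma sum_snoc {M I : Type} [AddCommMonoid M] [Fintype I] {n : ℕ} (f : (Fin (n + 1) → I) → M) :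
    ∑ z, f z = ∑ c, ∑ y : Fin n → I, f (Fin.snoc y c) := by
  rw [← Fintype.sum_prod_type', ← (Fin.snocEquiv fun _ : Fin (n + 1) => I).sum_comp]
  rfl

lemma B_cons {I : Type} [Fintype I] {n : ℕ} (f g : (Fin (n + 1) → I) → ℂ) :
    B _ f g = ∑ c, B _ (fun y : Fin n → I => f (Fin.cons c y)) fun y => g (Fin.cons c y) :=
  sum_cons _

variable {Q : ℕ}

lemma anti_cons {N : ℕ} {ψ : Vec Q (N + 1)} (h : AntiF ψ) (a : Fin (Q + 1)) :
    AntiF fun z : Fin N → Fin (Q + 1) => ψ (Fin.cons a z) := fun σ x => by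
  have := h (Equiv.Perm.decomposeFin.symm (0, σ)) (Fin.cons a x)
  rw [Equiv.Perm.decomposeFin.symm_sign, if_pos rfl, one_mul] at this
  rw [← this]
  refine congrArg ψ (funext fun i => ?_)
  refine Fin.cases ?_ (fun i => ?_) i <;> simp

lemma anti_join {m : ℕ} : ∀ (k : ℕ) {ψ : Vec Q (m + k)} (_ : AntiF ψ) (a : Fin k → Fin (Q + 1)),
    AntiF fun z : Fin m → Fin (Q + 1) => ψ (join k a z)
  | 0, _, h, _ => h
  | k + 1, _, h, a => anti_join k (anti_cons h (a 0)) (Fin.tail a)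

lemma anti_join' {m k : ℕ} {ψ : Vec Q (m + k)} (h : AntiF ψ) (a : Fin k → Fin (Q + 1))
    (σ : Equiv.Perm (Fin m)) (x : Fin m → Fin (Q + 1)) :
    ψ (join k a (x ∘ σ)) = ((Equiv.Perm.sign σ : ℤ) : ℂ) * ψ (join k a x) := anti_join k h a σ x

lemma join_snoc {α : Type} {m : ℕ} (a : Fin 2 → α) (b : α) (y : Fin m → α) :
    join 3 (Fin.snoc a b) y = join (m := m + 1) 2 a (Fin.cons b y) := rfl

lemma join_snoc' {α : Type} {m : ℕ} (a : Fin 3 → α) (b : α) (y : Fin m → α) :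
    join 4 (Fin.snoc a b) y = join (m := m + 1) 3 a (Fin.cons b y) := rfl

lemma vec_ext {k : ℕ} (p : Pol (Fin k)) (c : ℕ) (a : Fin k → Fin (Q + 1)) (b : Fin (Q + 1)) :
    vec Q (rename Fin.castSucc p * X (Fin.last k) ^ c) (Fin.snoc a b)
      = if (b : ℕ) = c then vec Q p a * Real.sqrt (n1 Q b) else 0 := by
  induction p using MvPolynomial.induction_on' with
  | add p q hp hq => rw [map_add, add_mul, vec_add, hp, hq, vec_add]; split_ifs <;> ring
  | monomial d r =>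
    have key : Finsupp.mapDomain Fin.castSucc d + Finsupp.single (Fin.last k) c
        = toF (Fin.snoc a b : Fin (k + 1) → Fin (Q + 1)) ↔ (b : ℕ) = c ∧ d = toF a := by
      have h1 : ∀ i : Fin k, (Finsupp.mapDomain Fin.castSucc d + Finsupp.single (Fin.last k) c :
          Fin (k + 1) →₀ ℕ) i.castSucc = d i := fun i => by
        rw [Finsupp.add_apply, Finsupp.mapDomain_apply (Fin.castSucc_injective k),
          Finsupp.single_eq_of_ne (Fin.castSucc_lt_last i).ne, add_zero]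
      have h2 : (Finsupp.mapDomain Fin.castSucc d + Finsupp.single (Fin.last k) c :
          Fin (k + 1) →₀ ℕ) (Fin.last k) = c := by
        rw [Finsupp.add_apply, Finsupp.mapDomain_notin_range, Finsupp.single_eq_same, zero_add]
        rintro ⟨i, hi⟩
        exact (Fin.castSucc_lt_last i).ne hi
      constructor
      · intro h
        refine ⟨?_, Finsupp.ext fun i => ?_⟩
        · rw [← h2, h]; simp [toF]
        · rw [← h1, h]; simp [toF]
      · rintro ⟨rfl, rfl⟩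
        refine Finsupp.ext fun i => Fin.lastCases ?_ (fun i => ?_) i
        · rw [h2]; simp [toF]
        · rw [h1]; simp [toF]
    rw [rename_monomial, X_pow_eq_monomial, monomial_mul, mul_one]
    simp only [vec, coeff_monomial, key, Fin.prod_univ_castSucc, Fin.snoc_castSucc, Fin.snoc_last]
    by_cases h1 : (b : ℕ) = c <;> by_cases h2 : d = toF a <;> simp [h1, h2, mul_assoc]

lemma con_ext2 {m : ℕ} (p : Pol (Fin 2)) (c : Fin (Q + 1)) (ψ : Vec Q (m + 3)) (y) :
    con (rename Fin.castSucc p * X (Fin.last 2) ^ (c : ℕ)) ψ y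
      = (Real.sqrt (n1 Q c) : ℂ) * con (m := m + 1) p ψ (Fin.cons c y) := by
  simp only [con]
  rw [sum_snoc, sum_eq_single c, mul_sum]
  · exact sum_congr rfl fun a _ => by rw [vec_ext, if_pos rfl, join_snoc]; push_cast; ring
  · exact fun b _ hb => sum_eq_zero fun a _ => by
      rw [vec_ext, if_neg fun h => hb (Fin.ext h)]; simp
  · simp

lemma con_ext3 {m : ℕ} (p : Pol (Fin 3)) (c : Fin (Q + 1)) (ψ : Vec Q (m + 4)) (y) :
    con (rename Fin.castSucc p * X (Fin.last 3) ^ (c : ℕ)) ψ y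
      = (Real.sqrt (n1 Q c) : ℂ) * con (m := m + 1) p ψ (Fin.cons c y) := by
  simp only [con]
  rw [sum_snoc, sum_eq_single c, mul_sum]
  · exact sum_congr rfl fun a _ => by rw [vec_ext, if_pos rfl, join_snoc']; push_cast; ring
  · exact fun b _ hb => sum_eq_zero fun a _ => by
      rw [vec_ext, if_neg fun h => hb (Fin.ext h)]; simp
  · simp

lemma anti_con {m k : ℕ} (p : Pol (Fin k)) {ψ : Vec Q (m + k)} (h : AntiF ψ) : AntiF (con p ψ) :=
  fun σ x => by
    simp only [con, mul_sum]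
    exact sum_congr rfl fun a _ => by rw [anti_join' h a σ x]; ring

/-- the weight of a particle in state `c` -/
noncomputable def wt (Q A : ℕ) (c : Fin (Q + 1)) : ℝ := if (c : ℕ) < A then Real.sqrt (n1 Q c) else 0

/-- the term in which the particle in slot `k` is exchanged -/
noncomputable def Y {m : ℕ} (A : ℕ) (p : ℕ → Pol (Fin 3)) (ψ : Vec Q (m + 2)) (k : Fin m) :
    Vec Q m := fun z => (wt Q A (z k) : ℂ) * ∑ b, ∑ a : Fin 2 → Fin (Q + 1),
      (vec Q (p (z k)) (Fin.snoc a b) : ℂ) * ψ (join 2 a (Function.update z k b))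

lemma Y_perm {m : ℕ} (A : ℕ) (p : ℕ → Pol (Fin 3)) {ψ : Vec Q (m + 2)} (h : AntiF ψ) (k : Fin m)
    (σ : Equiv.Perm (Fin m)) (z : Fin m → Fin (Q + 1)) :
    Y A p ψ k (z ∘ σ) = ((Equiv.Perm.sign σ : ℤ) : ℂ) * Y A p ψ (σ k) z := by
  simp only [Y, Function.comp_apply, mul_sum]
  refine sum_congr rfl fun b _ => sum_congr rfl fun a _ => ?_
  rw [← Function.update_comp_eq_of_injective z σ.injective, anti_join' h a σ]
  ring

lemma Y_zero {m : ℕ} (A : ℕ) (p : ℕ → Pol (Fin 3)) (ψ : Vec Q (m + 3)) (c : Fin (Q + 1))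
    (y : Fin m → Fin (Q + 1)) :
    Y (m := m + 1) A p ψ 0 (Fin.cons c y) = (wt Q A c : ℂ) * con (p c) ψ y := by
  simp only [Y, con, Fin.cons_zero, Fin.update_cons_zero]
  rw [sum_snoc]
  rfl

lemma Y_one {m : ℕ} (A : ℕ) (p : ℕ → Pol (Fin 3)) {ψ : Vec Q (m + 4)} (h : AntiF ψ)
    (c d : Fin (Q + 1)) (y : Fin m → Fin (Q + 1)) :
    Y (m := m + 2) A p ψ 1 (Fin.cons c (Fin.cons d y))
      = -((wt Q A d : ℂ) * con (m := m + 1) (p d) ψ (Fin.cons c y)) := by
  have e : (Fin.cons c (Fin.cons d y) : Fin (m + 2) → Fin (Q + 1))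
      = (Fin.cons d (Fin.cons c y) : Fin (m + 2) → Fin (Q + 1)) ∘ Equiv.swap 0 1 := by
    funext i
    refine Fin.cases rfl (fun i => Fin.cases rfl (fun i => ?_) i) i
    rw [Function.comp_apply, Equiv.swap_apply_of_ne_of_ne (Fin.succ_ne_zero _)
      (Fin.succ_succ_ne_one _)]
    rfl
  rw [e, Y_perm (m := m + 2) A p h, Equiv.swap_apply_right, Equiv.Perm.sign_swap (by simp),
    Y_zero (m := m + 1)]
  simp

lemma sum_wt (A : ℕ) (hA : A ≤ Q + 1) (g : ℕ → ℝ) :
    ∑ a ∈ range A, g a = ∑ c : Fin (Q + 1), if (c : ℕ) < A then g c else 0 := by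
  rw [Fin.sum_univ_eq_sum_range (fun c => if c < A then g c else 0), ← sum_filter]
  congr 1
  ext a
  simp only [mem_range, mem_filter]
  omega

lemma B_smul (r s : ℝ) (f g : Z → ℂ) :
    B Z (fun z => (r : ℂ) * f z) (fun z => (s : ℂ) * g z) = r * s * B Z f g := by
  have e : ∀ (r : ℝ) (f : Z → ℂ), (fun z => (r : ℂ) * f z) = r • f := fun _ _ => rfl
  rw [e, e, map_smul, map_smul, LinearMap.smul_apply, smul_eq_mul, smul_eq_mul]
  ring

section
variable {m : ℕ} {A : ℕ} (hA : A ≤ Q + 1) (p0 : Pol (Fin 2)) (p : ℕ → Pol (Fin 3))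
  {ψ : Vec Q (m + 4)} (h : AntiF ψ)
include hA h

lemma cross (k : Fin (m + 2)) : B _ (con (m := m + 2) p0 ψ) (Y (m := m + 2) A p ψ k)
    = ∑ a ∈ range A, B _ (con (m := m + 1) (rename Fin.castSucc p0 * X (Fin.last 2) ^ a) ψ)
        (con (m := m + 1) (p a) ψ) := by
  rw [B_perm (Equiv.swap 0 k) (anti_con (m := m + 2) p0 h _) (g' := Y (m := m + 2) A p ψ 0)
    fun z => by rw [Y_perm (m := m + 2) A p h, Equiv.swap_apply_left], B_cons, sum_wt A hA]
  refine sum_congr rfl fun c _ => ?_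
  simp only [Y_zero (m := m + 1), funext (con_ext2 (m := m + 1) p0 c ψ)]
  have h1 := B_smul 1 (wt Q A c) (fun y => con (m := m + 2) p0 ψ (Fin.cons c y))
    (con (m := m + 1) (p c) ψ)
  have h2 := B_smul (Real.sqrt (n1 Q c)) 1 (fun y => con (m := m + 2) p0 ψ (Fin.cons c y))
    (con (m := m + 1) (p c) ψ)
  simp only [Complex.ofReal_one, one_mul, mul_one] at h1 h2
  rw [h1, h2, wt]
  split_ifs <;> simp

lemma diag (hQ : 1 ≤ Q) (k : Fin (m + 2)) : B _ (Y (m := m + 2) A p ψ k) (Y (m := m + 2) A p ψ k)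
    = ∑ a ∈ range A, n1 Q a * B _ (con (m := m + 1) (p a) ψ) (con (m := m + 1) (p a) ψ) := by
  have e : ∀ z, Y (m := m + 2) A p ψ 0 (z ∘ Equiv.swap 0 k)
      = ((Equiv.Perm.sign (Equiv.swap 0 k) : ℤ) : ℂ) * Y (m := m + 2) A p ψ k z :=
    fun z => by rw [Y_perm (m := m + 2) A p h, Equiv.swap_apply_left]
  rw [B_perm (Equiv.swap 0 k) e e, B_cons, sum_wt A hA]
  refine sum_congr rfl fun c _ => ?_
  simp only [Y_zero (m := m + 1)]
  rw [B_smul, wt]
  split_ifs
  · rw [Real.mul_self_sqrt (n1_pos hQ (Nat.lt_succ_iff.1 c.2)).le]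
  · simp

lemma offd {k l : Fin (m + 2)} (hkl : k ≠ l) :
    B _ (Y (m := m + 2) A p ψ k) (Y (m := m + 2) A p ψ l)
    = -∑ a ∈ range A, ∑ c ∈ range A,
        B _ (con (m := m) (rename Fin.castSucc (p a) * X (Fin.last 3) ^ c) ψ)
          (con (m := m) (rename Fin.castSucc (p c) * X (Fin.last 3) ^ a) ψ) := by
  have h0 : (Equiv.swap 0 k * Equiv.swap 1 (Equiv.swap 0 k l)) 0 = k := by
    have : (0 : Fin (m + 2)) ≠ Equiv.swap 0 k l := fun e => hkl (by
      rw [← Equiv.swap_apply_self 0 k l, ← e, Equiv.swap_apply_left])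
    rw [Equiv.Perm.mul_apply, Equiv.swap_apply_of_ne_of_ne (a := 1) (by simp) this,
      Equiv.swap_apply_left]
  have h1 : (Equiv.swap 0 k * Equiv.swap 1 (Equiv.swap 0 k l)) 1 = l := by
    rw [Equiv.Perm.mul_apply, Equiv.swap_apply_left, Equiv.swap_apply_self]
  rw [B_perm (Equiv.swap 0 k * Equiv.swap 1 (Equiv.swap 0 k l)) (f' := Y (m := m + 2) A p ψ 0)
    (g' := Y (m := m + 2) A p ψ 1) (fun z => by rw [Y_perm (m := m + 2) A p h, h0])
    (fun z => by rw [Y_perm (m := m + 2) A p h, h1]), B_cons, sum_wt A hA, ← sum_neg_distrib]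
  refine sum_congr rfl fun c _ => ?_
  rw [B_cons, sum_wt A hA]
  have e : ∀ d : Fin (Q + 1), B _ (fun y : Fin m → Fin (Q + 1) =>
      Y (m := m + 2) A p ψ 0 (Fin.cons c (Fin.cons d y)))
      (fun y => Y (m := m + 2) A p ψ 1 (Fin.cons c (Fin.cons d y)))
      = if (c : ℕ) < A then -if (d : ℕ) < A then
        B _ (con (m := m) (rename Fin.castSucc (p c) * X (Fin.last 3) ^ (d : ℕ)) ψ)
          (con (m := m) (rename Fin.castSucc (p d) * X (Fin.last 3) ^ (c : ℕ)) ψ) else 0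
        else 0 := fun d => by
    simp only [Y_zero (m := m + 1), Y_one A p h, funext (con_ext3 (p c) d ψ),
      funext (con_ext3 (p d) c ψ), ← neg_mul, ← Complex.ofReal_neg]
    rw [B_smul, B_smul, wt, wt]
    split_ifs <;> ring
  simp only [e]
  split_ifs <;> simp

lemma one (hQ : 1 ≤ Q) : 0 ≤ B _ (con (m := m + 2) p0 ψ) (con (m := m + 2) p0 ψ)
    + 2 * ∑ a ∈ range A, ((m : ℝ) + 2) *
      B _ (con (m := m + 1) (rename Fin.castSucc p0 * X (Fin.last 2) ^ a) ψ)
        (con (m := m + 1) (p a) ψ)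
    + ∑ a ∈ range A, n1 Q a * (((m : ℝ) + 2) *
      B _ (con (m := m + 1) (p a) ψ) (con (m := m + 1) (p a) ψ))
    - ∑ a ∈ range A, ∑ c ∈ range A, ((m : ℝ) + 2) * ((m : ℝ) + 1) *
        B _ (con (m := m) (rename Fin.castSucc (p a) * X (Fin.last 3) ^ c) ψ)
          (con (m := m) (rename Fin.castSucc (p c) * X (Fin.last 3) ^ a) ψ) := by
  have H := B_nonneg (con (m := m + 2) p0 ψ + ∑ k, Y (m := m + 2) A p ψ k)
  simp only [map_add, map_sum, LinearMap.add_apply, LinearMap.sum_apply] at H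
  simp only [← mul_sum, mul_left_comm (n1 Q _)]
  generalize hd : ∑ a ∈ range A, n1 Q a *
    B _ (con (m := m + 1) (p a) ψ) (con (m := m + 1) (p a) ψ) = d
  generalize he : ∑ a ∈ range A, ∑ c ∈ range A,
    B _ (con (m := m) (rename Fin.castSucc (p a) * X (Fin.last 3) ^ c) ψ)
      (con (m := m) (rename Fin.castSucc (p c) * X (Fin.last 3) ^ a) ψ) = e
  have e1 : ∀ k l, B _ (Y (m := m + 2) A p ψ k) (Y (m := m + 2) A p ψ l)
      = -e + if k = l then d + e else 0 := fun k l => by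
    split_ifs with hkl
    · rw [← hkl, diag hA p h hQ, hd]; ring
    · rw [offd hA p h hkl, he]; ring
  simp only [e1, B_symm (Y (m := m + 2) A p ψ _) (con (m := m + 2) p0 ψ), cross hA p0 p h,
    sum_add_distrib, sum_ite_eq', mem_univ, if_true, sum_const, card_univ, Fintype.card_fin,
    nsmul_eq_mul, Nat.cast_add, Nat.cast_ofNat] at H
  linarith

end

end Sos

theorem sos_nonneg {Q m : ℕ} (hQ : 1 ≤ Q) (w : (Fin (m + 4) → Fin (Q + 1)) → Vec Q (m + 4))
    (hw : ∀ j, AntiF (w j)) (A : ℕ) (hA : A ≤ Q + 1) (p0 : Pol (Fin 2)) (p : ℕ → Pol (Fin 3)) :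
    0 ≤ sosExpr (r2 w) (r3 w) (r4 w) (n1 Q) A p0 p := by
  refine (sum_nonneg fun j (_ : j ∈ univ) => Sos.one hA p0 p (hw j) hQ).trans_eq ?_
  simp only [sosExpr, r2, r3, r4, LinearMap.smul_apply, smul_eq_mul, rho_apply, ← Sos.B_apply,
    sum_add_distrib, sum_sub_distrib, mul_sum]
  congr 1
  · congr 1
    · congr 1
      exact sum_comm
    · exact sum_comm
  · rw [sum_comm]
    exact sum_congr rfl fun a _ => sum_comm

end Vale.Agent.P359
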