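import Vale.Agent.P359.Schur
import Vale.Agent.P359.RhoInv
import Vale.Agent.P359.RhoSos
import Vale.Agent.P359.RhoEnergy

/-! The relations at finite flux. -/

namespace Vale.Agent.P359

open MvPolynomial Finset

structure RelQ (Q : ℕ) (E : ℝ) (G1 : Form (Fin 2)) (G2 : Form (Fin 3)) : Prop where
  inv1 : Inv (mu2 (eps Q)) (eps Q) G1
  psd1 : Psd G1
  inv2 : Inv (mu3 (eps Q)) (eps Q) G2
  psd2 : Psd G2
  anti : ∀ p q, G2 (rename (Equiv.swap 1 2) p) q = -G2 p q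
  null1 : ∀ l, l = 0 ∨ l = 1 ∨ l = 3 → G1 (w2 ^ l) (w2 ^ l) = 0
  null2 : ∀ l, l = 0 ∨ l = 1 ∨ l = 3 → ∀ (J c : ℕ) q,
    G2 (w3 ^ l * ((X 0 + X 1) ^ J * X 2 ^ c)) q = 0
  sos : ∀ A ≤ Q + 1, ∀ p0 p,
    0 ≤ sosExpr (Nf (fun _ => muV (eps Q)) (eps Q)) G1 G2 (nn 1 (eps Q)) A p0 p
  box1 : Boxed (2 * Q - 2) Q G1
  box2 : Boxed (2 * Q - 2) (2 * Q - 2) (G2.compl₁₂ jV jV)
  energy : E * (2 * Q - 1) = (2 * Q - 1)
    + ∑ i ∈ range (2 * Q - 1), ∑ a ∈ range (Q + 1), ∑ j ∈ range (2 * Q - 1), ∑ b ∈ range (Q + 1),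
      KK (eps Q) (m2 i a) (m2 j b) * G1 (m2 i a) (m2 j b) / (nV Q i * n1 Q a * (nV Q j * n1 Q b))
    + 1 / 4 * ∑ i ∈ range (2 * Q - 1), ∑ a ∈ range (2 * Q - 1),
      G2 (jV (m2 i a)) (jV (m2 i a)) / (nV Q i * nV Q a)

theorem sos_smul {k : ℕ} (F0 : Form (Fin k)) (F1 : Form (Fin (k + 1))) (F2 : Form (Fin (k + 2)))
    (n : ℕ → ℝ) (A : ℕ) (p0 : Pol (Fin k)) (p : ℕ → Pol (Fin (k + 1))) (c : ℝ) :
    sosExpr (c • F0) (c • F1) (c • F2) n A p0 p = c * sosExpr F0 F1 F2 n A p0 p := by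
  simp only [sosExpr, LinearMap.smul_apply, smul_eq_mul, mul_add, mul_sub, mul_sum]
  congr 2
  · congr 1; exact sum_congr rfl fun _ _ => by ring
  · exact sum_congr rfl fun _ _ => by ring

theorem RelQ.of_fam {Q m : ℕ} (hQ : 2 ≤ Q) {E : ℝ} {w : (Fin (m + 4) → Fin (Q + 1)) → Vec Q (m + 4)}
    (h : Fam Q (m + 4) E w) (hE : E ≠ 0) : ∃ G1 G2, RelQ Q E G1 G2 := by
  have hQ1 : 1 ≤ Q := by omega
  have i2' : Inv (fun _ => muV (eps Q)) (eps Q) ((r2 w).compl₁₂ i2 i2) :=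
    (rho_inv hQ1 (m + 2) 2 w h.inv).pull i2 i2_C (i2_D _)
  have i3' : Inv (mu2 (eps Q)) (eps Q) ((r3 w).compl₁₂ i3 i3) :=
    ((rho_inv hQ1 (m + 1) 3 w h.inv).smul _).pull i3 i3_C (i3_D _)
  have i4' : Inv (mu3 (eps Q)) (eps Q) ((r4 w).compl₁₂ i4 i4) :=
    ((rho_inv hQ1 m 4 w h.inv).smul _).pull i4 i4_C (i4_D _)
  have a3 : ∀ i j, i ≠ j → ∀ p q, r3 w (rename (Equiv.swap i j) p) q = -r3 w p q := by
    intro i j hij p q
    simp only [r3, LinearMap.smul_apply, rho_swap (m + 1) 3 w h.anti i j hij, smul_neg]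
  have a4 : ∀ i j, i ≠ j → ∀ p q, r4 w (rename (Equiv.swap i j) p) q = -r4 w p q := by
    intro i j hij p q
    simp only [r4, LinearMap.smul_apply, rho_swap m 4 w h.anti i j hij, smul_neg]
  set g := (r2 w).compl₁₂ i2 i2 1 1 with hg
  have hT : T0 Q (r2 w) = (2 * Q - 1) * g := by
    rw [T0, sum_congr rfl (g := fun _ => g)]
    · rw [sum_const, card_range, nsmul_eq_mul, Nat.cast_sub (by omega)]; push_cast; ring
    · intro M hM
      have h1 := i2'.one_var M M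
      rw [LinearMap.compl₁₂_apply, i2_pow, if_pos rfl] at h1
      rw [h1, ← hg]
      exact mul_div_cancel_left₀ _ (nV_pos hQ (mem_range.1 hM)).ne'
  have hq : (0 : ℝ) < 2 * Q - 1 := by
    have : (2 : ℝ) ≤ Q := by exact_mod_cast hQ
    linarith
  have hg0 : 0 < g := by
    have := T0_pos hQ h hE
    rw [hT] at this
    exact (mul_pos_iff_of_pos_left hq).1 this
  have hgi : 0 ≤ g⁻¹ := (inv_pos.2 hg0).le
  refine ⟨g⁻¹ • (r3 w).compl₁₂ i3 i3, g⁻¹ • (r4 w).compl₁₂ i4 i4, i3'.smul _, fun p => ?_,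
    i4'.smul _, fun p => ?_, fun p q => ?_, fun l hl => ?_, fun l hl J c q => ?_,
    fun A hA p0 p => ?_, fun i a q hi => ?_, fun i a q hi => ?_, ?_⟩
  · exact mul_nonneg hgi (mul_nonneg (by positivity) (rho_psd (m + 1) 3 w _))
  · exact mul_nonneg hgi (mul_nonneg (by positivity) (rho_psd m 4 w _))
  · simp only [LinearMap.smul_apply, LinearMap.compl₁₂_apply, i4_swap, a4 2 3 (by decide), smul_neg]
  · have h1 : i3 (w2 ^ l) = (X 0 - X 1) * (2 * X 2 - (X 0 + X 1)) ^ l * 1 := by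
      simp [-aeval_eq_bind₁, i3, emb_apply, w2, map_ofNat]
    have h2 := null_aux (r3 w) 0 1 2 (by decide) (by decide) (by decide) a3 1 (map_one _)
      (map_one _) l hl (i3 (w2 ^ l))
    rw [← h1] at h2
    simp only [LinearMap.smul_apply, LinearMap.compl₁₂_apply, h2, smul_zero]
  · have h1 : i4 (w3 ^ l * ((X 0 + X 1) ^ J * X 2 ^ c))
        = (X 0 - X 1) * (2 * X 2 - (X 0 + X 1)) ^ l * ((X 0 + X 1 + X 2) ^ J * X 3 ^ c) := by
      simp [-aeval_eq_bind₁, i4, emb_apply, w3, map_ofNat, mul_assoc]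
    have s1 : Equiv.swap (0 : Fin 4) 1 2 = 2 := by decide
    have s2 : Equiv.swap (0 : Fin 4) 1 3 = 3 := by decide
    have s3 : Equiv.swap (1 : Fin 4) 2 0 = 0 := by decide
    have s4 : Equiv.swap (1 : Fin 4) 2 3 = 3 := by decide
    have h2 := null_aux (r4 w) 0 1 2 (by decide) (by decide) (by decide) a4
      ((X 0 + X 1 + X 2) ^ J * X 3 ^ c)
      (by simp only [map_mul, map_pow, map_add, rename_X, s1, s2, Equiv.swap_apply_left,
            Equiv.swap_apply_right]; ring)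
      (by simp only [map_mul, map_pow, map_add, rename_X, s3, s4, Equiv.swap_apply_left,
            Equiv.swap_apply_right]; ring) l hl (i4 q)
    simp only [LinearMap.smul_apply, LinearMap.compl₁₂_apply, h1, h2, smul_zero]
  · have h1 : Nf (fun _ => muV (eps Q)) (eps Q) = g⁻¹ • (r2 w).compl₁₂ i2 i2 := by
      rw [i2'.eq_smul, ← hg, smul_smul, inv_mul_cancel₀ hg0.ne', one_smul]
    rw [h1, sos_smul, sos_pull]
    exact mul_nonneg hgi (sos_nonneg hQ1 w h.anti A hA _ _)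
  · simp only [LinearMap.smul_apply, LinearMap.compl₁₂_apply, i3_m2, r3,
      rho_zero (m + 1) 3 w _ _ (b3_box Q i a hi), smul_zero]
  · simp only [LinearMap.smul_apply, LinearMap.compl₁₂_apply, i4_jV, r4,
      rho_zero m 4 w _ _ (b4_box Q i a hi), smul_zero]
  · have h1 := energy_eq hQ h
    rw [hT, T1, T2] at h1
    simp only [LinearMap.smul_apply, LinearMap.compl₁₂_apply, i4_jV, i3_m2, KK_apply, smul_eq_mul,
      mul_left_comm _ g⁻¹, mul_div_assoc, ← mul_sum] at h1 ⊢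
    refine mul_left_cancel₀ hg0.ne' ?_
    rw [mul_add, mul_add, mul_inv_cancel_left₀ hg0.ne', mul_inv_cancel_left₀ hg0.ne']
    linarith

end Vale.Agent.P359
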