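import Vale.Agent.P359.SpecA
import Vale.Agent.P359.RhoInv

/-! Contractions with the pair vectors and factorization of coordinates. -/

namespace Vale.Agent.P359.En

open MvPolynomial Finset Pj

theorem coeff_rename_mul {σ σ' τ : Type} (f : σ → τ) (g : σ' → τ) (hf : Function.Injective f)
    (hg : Function.Injective g) (hfg : ∀ i j, f i ≠ g j)
    (hcov : ∀ t, (∃ i, f i = t) ∨ ∃ j, g j = t) (d : τ →₀ ℕ) (d1 : σ →₀ ℕ) (d2 : σ' →₀ ℕ)
    (h1 : ∀ i, d (f i) = d1 i) (h2 : ∀ j, d (g j) = d2 j) (p : Pol σ) (q : Pol σ') :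
    coeff d (rename f p * rename g q) = coeff d1 p * coeff d2 q := by
  classical
  induction p using MvPolynomial.induction_on' with
  | add p p' hp hp' => simp only [map_add, add_mul, coeff_add, hp, hp']
  | monomial e r =>
    induction q using MvPolynomial.induction_on' with
    | add q q' hq hq' => simp only [map_add, mul_add, coeff_add, hq, hq']
    | monomial e' s =>
      have k1 : ∀ i, (e.mapDomain f + e'.mapDomain g) (f i) = e i := fun i => by
        rw [Finsupp.add_apply, Finsupp.mapDomain_apply hf, Finsupp.mapDomain_notin_range, add_zero]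
        rintro ⟨j, hj⟩; exact hfg i j hj.symm
      have k2 : ∀ j, (e.mapDomain f + e'.mapDomain g) (g j) = e' j := fun j => by
        rw [Finsupp.add_apply, Finsupp.mapDomain_apply hg, Finsupp.mapDomain_notin_range, zero_add]
        rintro ⟨i, hi⟩; exact hfg i j hi
      have k : e.mapDomain f + e'.mapDomain g = d ↔ e = d1 ∧ e' = d2 := by
        constructor
        · intro h
          exact ⟨Finsupp.ext fun i => by rw [← k1, h, h1], Finsupp.ext fun j => by rw [← k2, h, h2]⟩
        · rintro ⟨rfl, rfl⟩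
          ext t
          rcases hcov t with ⟨i, rfl⟩ | ⟨j, rfl⟩
          · rw [k1, h1]
          · rw [k2, h2]
      rw [rename_monomial, rename_monomial, monomial_mul, coeff_monomial, coeff_monomial,
        coeff_monomial]
      simp only [k]
      by_cases a1 : e = d1 <;> by_cases a2 : e' = d2 <;> simp [a1, a2]

variable {Q : ℕ}

theorem vec_b3 (M : ℕ) (c a0 a1 a2 : Fin (Q + 1)) :
    vec Q (b3 M c) ![a0, a1, a2]
      = bv Q M (a0, a1) * if a2 = c then Real.sqrt (n1 Q c) else 0 := by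
  have h : b3 M c = rename (![0, 1] : Fin 2 → Fin 3) (beta M)
      * rename (![2] : Fin 1 → Fin 3) (monomial (Finsupp.single 0 (c : ℕ)) 1) := by
    rw [← X_pow_eq_monomial]
    simp [b3, beta]
  unfold vec bv vec
  rw [h, coeff_rename_mul _ _ (by decide) (by decide) (by decide) (by decide) _ (toF ![a0, a1])
    (Finsupp.single 0 (a2 : ℕ)) (fun i => by fin_cases i <;> rfl)
    (fun i => by fin_cases i; simp [toF]), coeff_monomial]
  by_cases hc : a2 = c
  · subst hc
    simp [Fin.prod_univ_succ]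
    ring
  · have : Finsupp.single (0 : Fin 1) (c : ℕ) ≠ Finsupp.single 0 (a2 : ℕ) := by
      intro h'
      exact hc (Fin.ext (Finsupp.single_injective _ h').symm)
    simp [hc, this]

theorem vec_b4 (M K : ℕ) (a0 a1 a2 a3 : Fin (Q + 1)) :
    vec Q (b4 M K) ![a0, a1, a2, a3] = bv Q M (a0, a1) * bv Q K (a2, a3) := by
  have h : b4 M K = rename (![0, 1] : Fin 2 → Fin 4) (beta M)
      * rename (![2, 3] : Fin 2 → Fin 4) (beta K) := by
    simp [b4, beta]
  unfold vec bv vec
  rw [h, coeff_rename_mul _ _ (by decide) (by decide) (by decide) (by decide) _ (toF ![a0, a1])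
    (toF ![a2, a3]) (fun i => by fin_cases i <;> rfl) (fun i => by fin_cases i <;> rfl)]
  simp [Fin.prod_univ_succ]
  ring

theorem sum_cons {α β : Type} [Fintype α] [AddCommMonoid β] {n : ℕ} (f : (Fin (n + 1) → α) → β) :
    ∑ x, f x = ∑ a, ∑ z : Fin n → α, f (Fin.cons a z) := by
  rw [← Fintype.sum_prod_type', ← (Fin.consEquiv fun _ => α).sum_comp]
  rfl

theorem sum_nil {α β : Type} [Fintype α] [AddCommMonoid β] (f : (Fin 0 → α) → β) :
    ∑ x, f x = f ![] := by
  rw [Fintype.sum_unique]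
  exact congrArg f (Subsingleton.elim _ _)

theorem rot3' {α β γ M : Type} [Fintype α] [Fintype β] [AddCommMonoid M] (s : Finset γ)
    (F : α → β → γ → M) : ∑ a, ∑ b, ∑ c ∈ s, F a b c = ∑ c ∈ s, ∑ a, ∑ b, F a b c := by
  rw [sum_comm (s := s)]
  exact sum_congr rfl fun a _ => sum_comm

/-- Two slots in front. -/
def c2 {α : Type} {n : ℕ} (a b : α) (z : Fin n → α) : Fin (n + 2) → α := Fin.cons a (Fin.cons b z)

theorem sum_c2 {α β : Type} [Fintype α] [AddCommMonoid β] {n : ℕ} (f : (Fin (n + 2) → α) → β) :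
    ∑ x, f x = ∑ a, ∑ b, ∑ z : Fin n → α, f (c2 a b z) := by
  rw [sum_cons]
  refine sum_congr rfl fun a _ => ?_
  rw [sum_cons]; rfl

/-- Contraction of the first two slots with a pair vector. -/
noncomputable def Y {n : ℕ} (M : ℕ) (ψ : Vec Q (n + 2)) : Vec Q n :=
  fun z => ∑ a, ∑ b, (bv Q M (a, b) : ℂ) * ψ (c2 a b z)

theorem con_beta {n : ℕ} (M : ℕ) (ψ : Vec Q (n + 2)) (z) : con (beta M) ψ z = Y M ψ z := by
  unfold con Y
  rw [sum_c2 (n := 0)]
  refine sum_congr rfl fun a _ => sum_congr rfl fun b _ => ?_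
  rw [sum_nil]
  rfl

theorem con_b3 {n : ℕ} (M : ℕ) (c : Fin (Q + 1)) (ψ : Vec Q (n + 3)) (z) :
    con (b3 M c) ψ z = (Real.sqrt (n1 Q c) : ℂ) * Y (n := n + 1) M ψ (Fin.cons c z) := by
  unfold con Y
  rw [sum_c2 (n := 1), mul_sum]
  refine sum_congr rfl fun a _ => ?_
  rw [mul_sum]
  refine sum_congr rfl fun b _ => ?_
  rw [sum_cons (n := 0)]
  simp only [sum_nil]
  have e : ∀ a2, vec Q (b3 M c) (c2 a b (Fin.cons a2 ![]))
      = bv Q M (a, b) * if a2 = c then Real.sqrt (n1 Q c) else 0 := fun a2 => vec_b3 M c a b a2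
  rw [sum_eq_single c]
  · rw [e, if_pos rfl, Complex.ofReal_mul, mul_comm (bv Q M (a, b) : ℂ), mul_assoc]
    rfl
  · intro a2 _ h; rw [e, if_neg h]; simp
  · simp

theorem con_b4 {n : ℕ} (M K : ℕ) (ψ : Vec Q (n + 4)) (z) :
    con (b4 M K) ψ z = Y K (Y (n := n + 2) M ψ) z := by
  unfold con Y
  rw [sum_c2 (n := 2)]
  simp only [mul_sum]
  rw [Sp.rot4]
  refine sum_congr rfl fun a _ => sum_congr rfl fun b _ => ?_
  rw [sum_c2 (n := 0)]
  refine sum_congr rfl fun c _ => sum_congr rfl fun d _ => ?_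
  rw [sum_nil]
  have e : vec Q (b4 M K) (c2 a b (c2 c d ![])) = bv Q M (a, b) * bv Q K (c, d) :=
    vec_b4 M K a b c d
  rw [e, Complex.ofReal_mul, mul_comm (bv Q M (a, b) : ℂ), mul_assoc]
  rfl

theorem upd_c2 {α : Type} {n : ℕ} (a b c d : α) (z : Fin n → α) :
    Function.update (Function.update (c2 a b z) 0 c) 1 d = c2 c d z := by
  unfold c2
  rw [Fin.update_cons_zero, ← Fin.succ_zero_eq_one, ← Fin.cons_update, Fin.update_cons_zero]

theorem upd_c2' {α : Type} {n : ℕ} (a b c : α) (z : Fin n → α) (i : Fin n) :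
    Function.update (c2 a b z) i.succ.succ c = c2 a b (Function.update z i c) := by
  unfold c2
  rw [Fin.cons_update, Fin.cons_update]

theorem P01_eq {n : ℕ} (ψ : Vec Q (n + 2)) (a b : Fin (Q + 1)) (z) :
    pairK 0 1 ψ (c2 a b z)
      = ∑ M ∈ range (2 * Q - 1), ((bv Q M (a, b) / (2 * nV Q M) : ℝ) : ℂ) * Y M ψ z := by
  unfold pairK Y
  simp only [upd_c2, P1k_eq, Complex.ofReal_sum, sum_mul, mul_sum]
  rw [rot3']
  refine sum_congr rfl fun M _ => sum_congr rfl fun c _ => sum_congr rfl fun d _ => ?_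
  have e0 : c2 a b z 0 = a := rfl
  have e1 : c2 a b z 1 = b := rfl
  rw [e0, e1]
  push_cast; ring

end Vale.Agent.P359.En
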