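import Vale.Agent.P359.Emb
import Vale.Agent.P359.Proj

/-! Schur lemma computations and the exchange kernel. -/

namespace Vale.Agent.P359

open MvPolynomial Finset

noncomputable def SS (μ0 μ1 ε : ℝ) (l : ℕ) : ℝ :=
  ∑ a ∈ range (l + 1), 1 / (nn μ0 ε (l - a) * nn μ1 ε a)

theorem schur {μ : Fin 2 → ℝ} {ε : ℝ} {F : Form (Fin 2)} (hF : Inv μ ε F) (h : Pol (Fin 2))
    (hD : Dop μ ε h = 0) (l a : ℕ) (ha : a ≤ l) :
    F (m2 (l - a) a) h = (-1) ^ a * F (m2 l 0) h := by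
  induction a with
  | zero => simp
  | succ a ih =>
    have h1 := hF.inv (m2 (l - (a + 1)) a) h
    have h2 : Cm (Fin 2) * m2 (l - (a + 1)) a = m2 (l - a) a + m2 (l - (a + 1)) (a + 1) := by
      rw [show l - a = l - (a + 1) + 1 by omega]
      simp only [Cm, Fin.sum_univ_two, m2]; ring
    rw [h2, hD, map_zero, map_add, LinearMap.add_apply, ih (by omega)] at h1
    rw [pow_succ]; linarith

theorem hv_left (μ0 μ1 ε : ℝ) (l : ℕ) (F : Form (Fin 2)) (q : Pol (Fin 2)) :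
    F (hv μ0 μ1 ε l) q = ∑ a ∈ range (l + 1),
      ((-1) ^ a / (nn μ0 ε (l - a) * nn μ1 ε a)) * F (m2 (l - a) a) q := by
  simp only [hv, map_sum, LinearMap.sum_apply, map_smul, LinearMap.smul_apply, smul_eq_mul]

theorem neg_one_sq_pow (a : ℕ) : ((-1 : ℝ) ^ a) * (-1) ^ a = 1 := by
  rw [← mul_pow]; simp

theorem schur_hv {μ : Fin 2 → ℝ} {ε : ℝ} {F : Form (Fin 2)} (hF : Inv μ ε F) (h : Pol (Fin 2))
    (hD : Dop μ ε h = 0) (μ0 μ1 : ℝ) (l : ℕ) :
    F (hv μ0 μ1 ε l) h = SS μ0 μ1 ε l * ((-1) ^ l * F (m2 0 l) h) := by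
  have h0 := schur hF h hD l l le_rfl
  rw [Nat.sub_self] at h0
  rw [hv_left, SS, sum_mul, h0, ← mul_assoc, neg_one_sq_pow, one_mul]
  refine sum_congr rfl fun a ha => ?_
  rw [schur hF h hD l a (by have := mem_range.1 ha; omega), ← mul_assoc, div_mul_eq_mul_div,
    neg_one_sq_pow]

theorem Nf_rename {σ : Type} [Fintype σ] (μ ε : ℝ) (s : Equiv.Perm σ) (p q : Pol σ) :
    Nf (fun _ => μ) ε (rename s p) (rename s q) = Nf (fun _ => μ) ε p q := by
  induction p using MvPolynomial.induction_on' with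
  | add p1 p2 h1 h2 => simp only [map_add, LinearMap.add_apply, h1, h2]
  | monomial a c =>
    rw [rename_monomial, Nf_monomial, Nf_monomial, coeff_rename_mapDomain _ s.injective, wt, wt,
      ← Equiv.prod_comp s]
    simp only [Finsupp.mapDomain_apply s.injective]

theorem Dop_rename {σ : Type} [Fintype σ] (μ ε : ℝ) (s : Equiv.Perm σ) (p : Pol σ) :
    Dop (fun _ => μ) ε (rename s p) = rename s (Dop (fun _ => μ) ε p) := by
  rw [Dop_apply, Dop_apply, map_sum, ← Equiv.sum_comp s]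
  refine sum_congr rfl fun i _ => ?_
  simp only [pderiv_rename s.injective, map_sub, map_smul, map_mul, rename_X]

/-- The exchange kernel. -/
noncomputable def KK (ε : ℝ) : Form (Fin 2) :=
  -(Nf (fun _ => 1) ε).compl₁₂ i3 ((rename (Equiv.swap (1 : Fin 3) 2)).toLinearMap ∘ₗ i3)

theorem KK_apply (ε : ℝ) (p q : Pol (Fin 2)) :
    KK ε p q = -Nf (fun _ => 1) ε (i3 p) (rename (Equiv.swap (1 : Fin 3) 2) (i3 q)) := rfl

theorem KK_inv (ε : ℝ) : Inv (mu2 ε) ε (KK ε) := by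
  constructor
  · intro p q
    rw [KK_apply, KK_apply, ← Nf_rename 1 ε (Equiv.swap 1 2), rename_rename, (Nf_inv _ _).symm,
      show (Equiv.swap (1 : Fin 3) 2) ∘ (Equiv.swap (1 : Fin 3) 2) = id from
        funext fun i => Equiv.swap_apply_self _ _ i, rename_id_apply]
  · intro p q
    rw [KK_apply, KK_apply, i3_C, (Nf_inv _ _).inv, Dop_rename, i3_D]

theorem Nf_zero {Q k : ℕ} (hQ : 1 ≤ Q) (p q : Pol (Fin k))
    (h : ∀ d : Fin k →₀ ℕ, (∀ t, d t ≤ Q) → coeff d p = 0) : Nf (fun _ => 1) (eps Q) p q = 0 := by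
  rw [← vec_dot hQ]
  refine sum_eq_zero fun a _ => ?_
  rw [vec, h _ (fun t => Nat.lt_succ_iff.1 (a t).2), zero_mul, zero_mul]

theorem KK_box {Q : ℕ} (hQ : 1 ≤ Q) : Boxed (2 * Q - 2) Q (KK (eps Q)) := by
  intro i a q h
  rw [KK_apply, i3_m2, Nf_zero hQ _ _ (b3_box Q i a h), neg_zero]

noncomputable def m3 (a b c : ℕ) : Pol (Fin 3) := X 0 ^ a * X 1 ^ b * X 2 ^ c

noncomputable def ee3 (a b c : ℕ) : Fin 3 →₀ ℕ :=
  Finsupp.single 0 a + Finsupp.single 1 b + Finsupp.single 2 c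

theorem m3_eq (a b c : ℕ) : m3 a b c = monomial (ee3 a b c) 1 := by
  simp [m3, ee3, X_pow_eq_monomial, monomial_mul]

theorem ee3_eq (d : Fin 3 →₀ ℕ) : d = ee3 (d 0) (d 1) (d 2) := by
  ext k; fin_cases k <;> simp [ee3]

theorem ee3_inj {a b c x y z : ℕ} : ee3 a b c = ee3 x y z ↔ a = x ∧ b = y ∧ c = z := by
  constructor
  · intro h
    exact ⟨by simpa [ee3] using congrArg (· 0) h, by simpa [ee3] using congrArg (· 1) h,
      by simpa [ee3] using congrArg (· 2) h⟩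
  · rintro ⟨rfl, rfl, rfl⟩; rfl

theorem Nf_m3 (ε : ℝ) (a b c x y z : ℕ) : Nf (fun _ => 1) ε (m3 a b c) (m3 x y z)
    = if x = a ∧ y = b ∧ z = c then nn 1 ε a * nn 1 ε b * nn 1 ε c else 0 := by
  rw [m3_eq, m3_eq, Nf_monomial, coeff_monomial, wt, Fin.prod_univ_three]
  simp only [ee3_inj]
  simp [ee3]

theorem nn_one (μ ε : ℝ) : nn μ ε 1 = μ := by simp [nn, rr]

theorem KK_mon (ε : ℝ) (l i a : ℕ) (h : i + a = l) : KK ε (m2 0 l) (m2 i a)
    = if a = 0 then nn 1 ε l * (l - 1) else if a = 1 then -nn 1 ε l else 0 := by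
  have h1 : i3 (m2 0 l) = m3 1 0 l - m3 0 1 l := by rw [i3_m2, b3, m3, m3]; ring
  have h2 : rename (Equiv.swap (1 : Fin 3) 2) (i3 (m2 i a))
      = ∑ k ∈ range (i + 1), (i.choose k : ℝ) • (m3 (k + 1) a (i - k) - m3 k a (i - k + 1)) := by
    have h0 : Equiv.swap (1 : Fin 3) 2 0 = 0 := by decide
    simp only [i3_m2, b3, map_sum, map_mul, map_sub, map_pow, map_add, rename_X, h0, Equiv.swap_apply_left,
      Equiv.swap_apply_right, add_pow, mul_sum, sum_mul, m3, smul_eq_C_mul, map_natCast]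
    exact sum_congr rfl fun k _ => by ring
  rw [KK_apply, h1, h2]
  simp only [map_sum, map_smul, map_sub, LinearMap.sub_apply, Nf_m3, nn_one, nn_zero, one_mul,
    smul_eq_mul]
  rcases a with _ | _ | a
  · obtain rfl : i = l := by omega
    rcases i with _ | i
    · simp [nn_zero]
    · rw [sum_range_succ', sum_range_succ', sum_eq_zero fun k _ => by simp]
      simp; ring
  · rw [sum_range_succ', sum_eq_zero fun k _ => by simp]
    simp [h]
  · rw [sum_eq_zero fun k _ => by simp]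
    simp

noncomputable def kapE (ε : ℝ) (l : ℕ) : ℝ :=
  (-1) ^ l * (nn 1 ε l / nn (muV ε) ε l) * (3 * l - 1 - l * (l + 1) * ε)

theorem KK_val (ε : ℝ) (l : ℕ) (h0 : ∀ i ≤ l, nn (muV ε) ε i ≠ 0) (h1 : ∀ i ≤ l, nn 1 ε i ≠ 0) :
    KK ε (hv (muV ε) 1 ε l) (hv (muV ε) 1 ε l) = SS (muV ε) 1 ε l * kapE ε l := by
  rw [schur_hv (KK_inv ε) _ (hv_D _ _ _ _ h0 h1), kapE, mul_assoc ((-1 : ℝ) ^ l), (KK_inv ε).symm,
    hv_left]
  congr 2
  rw [sum_congr rfl fun a ha => by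
    rw [(KK_inv ε).symm, KK_mon ε l (l - a) a (by have := mem_range.1 ha; omega)]]
  rcases l with _ | l
  · simp [nn_zero]
  · rw [sum_range_succ', sum_range_succ', sum_eq_zero fun k _ => by simp]
    have a1 := h0 (l + 1) le_rfl
    simp only [Nat.sub_zero, zero_add, Nat.add_sub_cancel, nn_zero, nn_one, nn_succ (muV ε)] at a1 ⊢
    have a2 := left_ne_zero_of_mul a1
    have a3 := right_ne_zero_of_mul a1
    have a4 := right_ne_zero_of_mul a3
    have a5 : muV ε - l * ε = 2 - 2 * ε - l * ε := rfl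
    simp only [one_ne_zero, if_false, if_true]
    push_cast
    field_simp
    rw [a5]; ring

theorem Psd.sum_le {σ : Type} {F : Form σ} (hF : Psd F) (hs : ∀ p q, F p q = F q p) (n : ℕ)
    (v : ℕ → Pol σ) :
    F (∑ a ∈ range n, v a) (∑ a ∈ range n, v a) ≤ n * ∑ a ∈ range n, F (v a) (v a) := by
  have h1 : 2 * F (∑ a ∈ range n, v a) (∑ a ∈ range n, v a)
      ≤ ∑ a ∈ range n, ∑ b ∈ range n, (F (v b) (v b) + F (v a) (v a)) := by
    simp only [map_sum, LinearMap.sum_apply, mul_sum]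
    exact sum_le_sum fun a _ => sum_le_sum fun b _ => hF.two_mul_le hs _ _
  simp only [sum_add_distrib, sum_const, card_range, nsmul_eq_mul, ← mul_sum] at h1
  linarith

theorem Inv.one_var {μ ε : ℝ} {F : Form (Fin 1)} (hF : Inv (fun _ => μ) ε F) (i j : ℕ) :
    F (X 0 ^ i) (X 0 ^ j) = if i = j then nn μ ε i * F 1 1 else 0 := by
  have h1 : ∀ i, (X 0 ^ i : Pol (Fin 1)) = Cm (Fin 1) ^ i * 1 := fun i => by simp [Cm]
  have h2 : Dop (fun _ : Fin 1 => μ) ε 1 = 0 := by simp [Dop_apply]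
  rw [h1, h1 j]
  split_ifs with h
  · subst h
    rw [hF.pow_left _ 0 (isHomogeneous_one _ _) h2, cf_zero_eq]; simp
  · exact hF.pow_ne _ _ 0 0 (isHomogeneous_one _ _) h2 (isHomogeneous_one _ _) h2 _ _ h

theorem Nf_one_one {σ : Type} [Fintype σ] (μ : σ → ℝ) (ε : ℝ) : Nf μ ε 1 1 = 1 := by
  classical
  have : (1 : Pol σ) = monomial 0 1 := rfl
  rw [this, Nf_monomial]; simp [wt, nn_zero]

theorem Inv.eq_smul {μ ε : ℝ} {F : Form (Fin 1)} (hF : Inv (fun _ => μ) ε F) :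
    F = F 1 1 • Nf (fun _ => μ) ε := by
  refine form_ext _ _ fun a b => ?_
  have h : ∀ a : Fin 1 →₀ ℕ, (monomial a 1 : Pol (Fin 1)) = X 0 ^ a 0 := fun a => by
    have : a = Finsupp.single 0 (a 0) := by ext; simp
    rw [X_pow_eq_monomial, ← this]
  rw [h, h, LinearMap.smul_apply, LinearMap.smul_apply, hF.one_var, (Nf_inv _ _).one_var,
    Nf_one_one]
  split_ifs <;> simp [mul_comm]

end Vale.Agent.P359
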