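import Vale.Agent.P359.SpecA

/-! From an eigenvalue bound to the operator inequality. -/

namespace Vale.Agent.P359

open scoped InnerProductSpace

namespace Sp

open Finset

theorem abs_gap {V : Type} [NormedAddCommGroup V] [InnerProductSpace ℂ V] [FiniteDimensional ℂ V]
    (T : V →ₗ[ℂ] V) (hT : T.IsSymmetric) (γ : ℝ)
    (h : ∀ (μ : ℝ) (v : V), v ≠ 0 → T v = (μ : ℂ) • v → μ ≠ 0 → γ ≤ μ) (ψ : V) :
    ∃ ψ0, T ψ0 = 0 ∧ γ * ‖ψ - ψ0‖ ^ 2 ≤ (⟪ψ, T ψ⟫_ℂ).re := by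
  classical
  obtain ⟨b, l, hb⟩ : ∃ (b : OrthonormalBasis (Fin (Module.finrank ℂ V)) ℂ V)
      (l : Fin (Module.finrank ℂ V) → ℝ), ∀ i, T (b i) = (l i : ℂ) • b i :=
    ⟨hT.eigenvectorBasis rfl, hT.eigenvalues rfl, hT.apply_eigenvectorBasis rfl⟩
  refine ⟨∑ i, if l i = 0 then ⟪b i, ψ⟫_ℂ • b i else 0, ?_, ?_⟩
  · rw [map_sum]
    refine sum_eq_zero fun i _ => ?_
    split_ifs with hi
    · rw [map_smul, hb, hi]; simp
    · simp
  · have hc : ∀ i, ⟪b i, ψ - ∑ k, if l k = 0 then ⟪b k, ψ⟫_ℂ • b k else 0⟫_ℂ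
        = if l i = 0 then 0 else ⟪b i, ψ⟫_ℂ := by
      intro i
      rw [inner_sub_right, inner_sum, sum_eq_single i]
      · split_ifs
        · rw [inner_smul_right, b.inner_eq_one]; simp
        · simp
      · intro k _ hk
        split_ifs
        · rw [inner_smul_right, b.inner_eq_zero hk.symm]; simp
        · simp
      · simp
    rw [← b.sum_sq_norm_inner_right, ← b.sum_inner_mul_inner ψ (T ψ), Complex.re_sum, mul_sum]
    refine sum_le_sum fun i _ => ?_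
    have e : (⟪ψ, b i⟫_ℂ * ⟪b i, T ψ⟫_ℂ).re = l i * ‖⟪b i, ψ⟫_ℂ‖ ^ 2 := by
      rw [← hT, hb, inner_smul_left, ← inner_conj_symm ψ (b i), Complex.conj_ofReal, mul_left_comm,
        Complex.re_ofReal_mul, Complex.conj_mul', ← Complex.ofReal_pow, Complex.ofReal_re]
    rw [hc, e]
    split_ifs with hi
    · simp [hi]
    · exact mul_le_mul_of_nonneg_right (h _ _ (b.orthonormal.ne_zero i) (hb i) hi) (by positivity)

variable {Q N : ℕ}

theorem inner_eq (a b : Tens Q N) : ⟪a, b⟫_ℂ = ∑ x, (starRingEnd ℂ) (a x) * b x := by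
  rw [PiLp.inner_apply]
  exact sum_congr rfl fun x _ => by simp [mul_comm]

noncomputable def HL (Q N : ℕ) : Tens Q N →ₗ[ℂ] Tens Q N where
  toFun ψ := WithLp.toLp 2 (hamK fun y => ψ y)
  map_add' a b := by
    ext x
    simp only [hamK, pairK, PiLp.add_apply, mul_add, ← sum_add_distrib]
    refine sum_congr rfl fun i _ => sum_congr rfl fun j _ => ?_
    split_ifs <;> simp [sum_add_distrib]
  map_smul' c a := by
    ext x
    simp only [hamK, pairK, PiLp.smul_apply, smul_eq_mul, RingHom.id_apply, mul_sum]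
    refine sum_congr rfl fun i _ => sum_congr rfl fun j _ => ?_
    split_ifs <;> simp [mul_sum, mul_left_comm]

noncomputable def FL (Q N : ℕ) : Tens Q N →ₗ[ℂ] Tens Q N where
  toFun ψ := WithLp.toLp 2 (totF fun y => ψ y)
  map_add' a b := by
    ext x
    simp [totF, mul_add, sum_add_distrib]
  map_smul' c a := by
    ext x
    simp [totF, mul_sum, mul_left_comm]

noncomputable def EL (Q N : ℕ) : Tens Q N →ₗ[ℂ] Tens Q N where
  toFun ψ := WithLp.toLp 2 (totE fun y => ψ y)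
  map_add' a b := by
    ext x
    simp [totE, mul_add, sum_add_distrib]
  map_smul' c a := by
    ext x
    simp [totE, mul_sum, mul_left_comm]

theorem HL_apply (ψ : Tens Q N) (x) : HL Q N ψ x = hamK (fun y => ψ y) x := rfl
theorem FL_apply (ψ : Tens Q N) (x) : FL Q N ψ x = totF (fun y => ψ y) x := rfl
theorem EL_apply (ψ : Tens Q N) (x) : EL Q N ψ x = totE (fun y => ψ y) x := rfl

theorem HL_symm : (HL Q N).IsSymmetric := by
  intro a b
  simp only [inner_eq, HL_apply, hamK_conj]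
  exact (hamK_adj _ _).symm

theorem FL_adj (a b : Tens Q N) : ⟪FL Q N a, b⟫_ℂ = ⟪a, EL Q N b⟫_ℂ := by
  simp only [inner_eq, FL_apply, EL_apply, totF_conj]
  exact totF_adj _ _

theorem EL_adj (a b : Tens Q N) : ⟪EL Q N a, b⟫_ℂ = ⟪a, FL Q N b⟫_ℂ := by
  rw [← inner_conj_symm, ← FL_adj, inner_conj_symm]

theorem HL_FL (hQ : 2 ≤ Q) (a : Tens Q N) : HL Q N (FL Q N a) = FL Q N (HL Q N a) := by
  ext x
  exact hamK_totF hQ (fun y => a y) x

theorem HL_EL (hQ : 2 ≤ Q) (a : Tens Q N) : HL Q N (EL Q N a) = EL Q N (HL Q N a) := by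
  refine ext_inner_left ℂ fun b => ?_
  rw [← HL_symm, ← FL_adj, ← HL_FL hQ, HL_symm, FL_adj]

/-- The antisymmetric subspace. -/
def AS (Q N : ℕ) : Submodule ℂ (Tens Q N) where
  carrier := {ψ | AntiF fun y => ψ y}
  add_mem' := by
    intro a b ha hb σ x
    have h1 := ha σ x
    have h2 := hb σ x
    simp only [PiLp.add_apply] at h1 h2 ⊢
    rw [h1, h2, mul_add]
  zero_mem' := by intro σ x; simp
  smul_mem' := by
    intro c a ha σ x
    have h1 := ha σ x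
    simp only [PiLp.smul_apply, smul_eq_mul] at h1 ⊢
    rw [h1, mul_left_comm]

theorem mem_AS {ψ : Tens Q N} : ψ ∈ AS Q N ↔ AntiF fun y => ψ y := Iff.rfl

/-- The antisymmetric eigenspace. -/
noncomputable def WS (Q N : ℕ) (E : ℝ) : Submodule ℂ (Tens Q N) :=
  AS Q N ⊓ Module.End.eigenspace (HL Q N) (E : ℂ)

theorem mem_WS {E : ℝ} {ψ : Tens Q N} :
    ψ ∈ WS Q N E ↔ (AntiF fun y => ψ y) ∧ HL Q N ψ = (E : ℂ) • ψ := by
  rw [WS, Submodule.mem_inf, Module.End.mem_eigenspace_iff, mem_AS]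

theorem FL_mem (hQ : 2 ≤ Q) {E : ℝ} {ψ : Tens Q N} (h : ψ ∈ WS Q N E) : FL Q N ψ ∈ WS Q N E := by
  rw [mem_WS] at h ⊢
  exact ⟨totF_anti h.1, by rw [HL_FL hQ, h.2, map_smul]⟩

theorem EL_mem (hQ : 2 ≤ Q) {E : ℝ} {ψ : Tens Q N} (h : ψ ∈ WS Q N E) : EL Q N ψ ∈ WS Q N E := by
  rw [mem_WS] at h ⊢
  exact ⟨totE_anti h.1, by rw [HL_EL hQ, h.2, map_smul]⟩

theorem proj_EL (hQ : 2 ≤ Q) (E : ℝ) (v : Tens Q N) :
    (WS Q N E).starProjection (EL Q N v) = EL Q N ((WS Q N E).starProjection v) := by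
  refine Submodule.eq_starProjection_of_mem_of_inner_eq_zero
    (EL_mem hQ (Submodule.starProjection_apply_mem _ _)) fun u hu => ?_
  rw [← map_sub, EL_adj]
  exact Submodule.starProjection_inner_eq_zero _ _ (FL_mem hQ hu)

theorem fam_of_eig (hQ : 2 ≤ Q) (E : ℝ) (v : Tens Q N) (hv : v ≠ 0) (hW : v ∈ WS Q N E) :
    Fam Q N E fun j y => (WS Q N E).starProjection (EuclideanSpace.single j 1) y := by
  have hm : ∀ u, (WS Q N E).starProjection u ∈ WS Q N E :=
    fun u => Submodule.starProjection_apply_mem _ _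
  have hs : ∀ a b, ⟪(WS Q N E).starProjection a, b⟫_ℂ = ⟪a, (WS Q N E).starProjection b⟫_ℂ :=
    fun a b => Submodule.inner_starProjection_left_eq_right _ a b
  have hid : ∀ u, (WS Q N E).starProjection ((WS Q N E).starProjection u)
      = (WS Q N E).starProjection u := fun u => Submodule.starProjection_eq_self_iff.2 (hm u)
  have c1 : ∀ (u : Tens Q N) y, u y = ⟪EuclideanSpace.single y (1 : ℂ), u⟫_ℂ := by
    intro u y; rw [EuclideanSpace.inner_single_left]; simp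
  have c2 : ∀ (u : Tens Q N) y, (starRingEnd ℂ) (u y) = ⟪u, EuclideanSpace.single y (1 : ℂ)⟫_ℂ := by
    intro u y; rw [EuclideanSpace.inner_single_right]; simp
  have c3 : ∀ a b : Tens Q N, ∑ j, ⟪EuclideanSpace.single j (1 : ℂ), b⟫_ℂ
      * ⟪a, EuclideanSpace.single j (1 : ℂ)⟫_ℂ = ⟪a, b⟫_ℂ := by
    intro a b
    rw [inner_eq]
    exact sum_congr rfl fun j _ => by rw [← c1, ← c2, mul_comm]
  refine ⟨fun j => (mem_WS.1 (hm _)).1, fun j x => ?_, ?_, fun x y => ?_⟩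
  · rw [← HL_apply, (mem_WS.1 (hm _)).2]; simp
  · by_contra hne
    push Not at hne
    apply hv
    ext y
    have h0 : (WS Q N E).starProjection (EuclideanSpace.single y 1) = 0 := by
      ext z; exact congrFun (hne y) z
    rw [c1 v y, ← Submodule.starProjection_eq_self_iff.2 hW, ← hs, h0]; simp
  · simp only [← FL_apply, ← EL_apply]
    have l1 : ∀ j, (starRingEnd ℂ)
          (FL Q N ((WS Q N E).starProjection (EuclideanSpace.single j 1)) x)
        * (WS Q N E).starProjection (EuclideanSpace.single j 1) y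
        = ⟪EuclideanSpace.single j (1 : ℂ),
            (WS Q N E).starProjection (EL Q N (EuclideanSpace.single x 1))⟫_ℂ
          * ⟪(WS Q N E).starProjection (EuclideanSpace.single y 1),
            EuclideanSpace.single j (1 : ℂ)⟫_ℂ := by
      intro j
      rw [c2, FL_adj, hs, c1 _ y, hs]
    have l2 : ∀ j, (starRingEnd ℂ) ((WS Q N E).starProjection (EuclideanSpace.single j 1) x)
        * EL Q N ((WS Q N E).starProjection (EuclideanSpace.single j 1)) y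
        = ⟪EuclideanSpace.single j (1 : ℂ),
            (WS Q N E).starProjection (EuclideanSpace.single x 1)⟫_ℂ
          * ⟪(WS Q N E).starProjection (FL Q N (EuclideanSpace.single y 1)),
            EuclideanSpace.single j (1 : ℂ)⟫_ℂ := by
      intro j
      rw [c2, hs, c1 _ y, ← FL_adj, hs]
    rw [sum_congr rfl fun j _ => l1 j, sum_congr rfl fun j _ => l2 j, c3, c3, hs, hs, hid, hid,
      FL_adj, proj_EL hQ]

end Sp

open Sp in
theorem gap_of_fam {Q N : ℕ} (hQ : 2 ≤ Q) (γ : ℝ) (hγ0 : 0 ≤ γ)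
    (hγ : ∀ (E : ℝ) (w : (Fin N → Fin (Q + 1)) → Vec Q N), Fam Q N E w → E ≠ 0 → γ ≤ E)
    (S : Submodule ℂ (Tens Q N)) (hker : ∀ ψ : Tens Q N, Antisym ψ → ham ψ = 0 → ψ ∈ S)
    (ψ : Tens Q N) (hψ : Antisym ψ) :
    γ * (⟪ψ, ψ - S.starProjection ψ⟫_ℂ).re ≤ (⟪ψ, ham ψ⟫_ℂ).re := by
  have hH : ∀ u : Tens Q N, ham u = HL Q N u := fun u => by ext x; exact ham_eq hQ u x
  have hinv : ∀ u ∈ AS Q N, HL Q N u ∈ AS Q N := fun u hu => hamK_anti hu
  have hψ' : ψ ∈ AS Q N := hψ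
  obtain ⟨ψ0, h0, h1⟩ := abs_gap (V := AS Q N) ((HL Q N).restrict hinv)
    (HL_symm.restrict_invariant hinv) γ
    (fun μ v hv he hμ => hγ μ _ (fam_of_eig hQ μ v.1 (fun h => hv (Subtype.ext h))
      (mem_WS.2 ⟨v.2, congrArg Subtype.val he⟩)) hμ) ⟨ψ, hψ'⟩
  have hS : ψ0.1 ∈ S := hker _ ψ0.2 (by rw [hH]; exact congrArg Subtype.val h0)
  have h2 : γ * ‖ψ - ψ0.1‖ ^ 2 ≤ (⟪ψ, ham ψ⟫_ℂ).re := by rw [hH]; exact h1
  refine le_trans (mul_le_mul_of_nonneg_left ?_ hγ0) h2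
  have h3 : ⟪ψ, ψ - S.starProjection ψ⟫_ℂ
      = ⟪ψ - S.starProjection ψ, ψ - S.starProjection ψ⟫_ℂ := by
    have h4 : ⟪S.starProjection ψ, ψ - S.starProjection ψ⟫_ℂ = 0 :=
      inner_eq_zero_symm.1
        (Submodule.starProjection_inner_eq_zero _ _ (Submodule.starProjection_apply_mem _ _))
    rw [inner_sub_left ψ, h4, sub_zero]
  have h5 : ‖ψ - S.starProjection ψ‖ ≤ ‖ψ - ψ0.1‖ := by
    rw [Submodule.starProjection_minimal]
    exact ciInf_le ⟨0, by rintro _ ⟨x, rfl⟩; exact norm_nonneg _⟩ (⟨ψ0.1, hS⟩ : S)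
  rw [h3, inner_self_eq_norm_sq_to_K]
  have h6 : (((‖ψ - S.starProjection ψ‖ : ℝ) : ℂ) ^ 2).re = ‖ψ - S.starProjection ψ‖ ^ 2 := by
    rw [← Complex.ofReal_pow, Complex.ofReal_re]
  exact h6.le.trans (pow_le_pow_left₀ (norm_nonneg _) h5 2)

end Vale.Agent.P359
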