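import Vale.Agent.P359.Proj

/-! Algebra of the pair kernels: adjointness, idempotence, covariance, commutation. -/

namespace Vale.Agent.P359.Sp

open Finset Function

theorem sum_sw1 {ι α β : Type} [Fintype ι] [DecidableEq ι] [Fintype α] [AddCommMonoid β]
    (i : ι) (F : (ι → α) → α → β) :
    ∑ x, ∑ c, F x c = ∑ x, ∑ c, F (update x i c) (x i) := by
  have hinv : Function.Involutive (fun t : (ι → α) × α => (update t.1 i t.2, t.1 i)) := by
    intro t; simp
  rw [← Fintype.sum_prod_type', ← Fintype.sum_prod_type']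
  exact (Equiv.sum_comp hinv.toPerm (fun t => F t.1 t.2)).symm

theorem upd2 {ι α : Type} [DecidableEq ι] {i j : ι} (h : i ≠ j) (x : ι → α) (c d e f : α) :
    update (update (update (update x i c) j d) i e) j f = update (update x i e) j f := by
  ext k
  by_cases hj : k = j
  · subst hj; simp
  · by_cases hi : k = i
    · subst hi; simp [h]
    · simp [hi, hj]

theorem upd2_i {ι α : Type} [DecidableEq ι] {i j : ι} (h : i ≠ j) (x : ι → α) (c d : α) :
    update (update x i c) j d i = c := by simp [h]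

theorem sum_sw2 {ι α β : Type} [Fintype ι] [DecidableEq ι] [Fintype α] [AddCommMonoid β]
    {i j : ι} (h : i ≠ j) (F : (ι → α) → α → α → β) :
    ∑ x, ∑ c, ∑ d, F x c d = ∑ x, ∑ c, ∑ d, F (update (update x i c) j d) (x i) (x j) := by
  have hinv : Function.Involutive
      (fun t : (ι → α) × α × α => (update (update t.1 i t.2.1) j t.2.2, t.1 i, t.1 j)) := by
    intro t
    simp only [upd2 h, upd2_i h, update_self, update_eq_self]
  have e1 : ∀ G : (ι → α) → α → α → β,
      ∑ x, ∑ c, ∑ d, G x c d = ∑ t : (ι → α) × α × α, G t.1 t.2.1 t.2.2 := by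
    intro G
    rw [Fintype.sum_prod_type]
    exact sum_congr rfl fun x _ => (Fintype.sum_prod_type' _).symm
  rw [e1, e1]
  exact (Equiv.sum_comp hinv.toPerm (fun t => F t.1 t.2.1 t.2.2)).symm

theorem rot3 {α β γ M : Type} [Fintype α] [Fintype β] [Fintype γ] [AddCommMonoid M]
    (F : α → β → γ → M) : ∑ a, ∑ b, ∑ c, F a b c = ∑ b, ∑ c, ∑ a, F a b c := by
  rw [sum_comm]
  exact sum_congr rfl fun b _ => sum_comm

theorem rot4 {α β γ δ M : Type} [Fintype α] [Fintype β] [Fintype γ] [Fintype δ] [AddCommMonoid M]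
    (F : α → β → γ → δ → M) :
    ∑ a, ∑ b, ∑ c, ∑ d, F a b c d = ∑ c, ∑ d, ∑ a, ∑ b, F a b c d := by
  rw [← rot3 (fun c a b => ∑ d, F a b c d)]
  exact sum_congr rfl fun c _ => (rot3 fun d a b => F a b c d).symm

variable {Q N : ℕ}

theorem pairK_adj {i j : Fin N} (h : i ≠ j) (φ ψ : Vec Q N) :
    ∑ x, φ x * pairK i j ψ x = ∑ x, pairK i j φ x * ψ x := by
  simp only [pairK, mul_sum, sum_mul]
  rw [sum_sw2 h]
  refine sum_congr rfl fun x _ => sum_congr rfl fun c _ => sum_congr rfl fun d _ => ?_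
  simp only [upd2 h, upd2_i h, update_self, update_eq_self]
  rw [P1k_symm]; ring

theorem pairK_conj (i j : Fin N) (φ : Vec Q N) (x) :
    (starRingEnd ℂ) (pairK i j φ x) = pairK i j (fun y => (starRingEnd ℂ) (φ y)) x := by
  simp [pairK, map_sum]

theorem pairK_idem (hQ : 2 ≤ Q) {i j : Fin N} (h : i ≠ j) (ψ : Vec Q N) (x) :
    pairK i j (pairK i j ψ) x = pairK i j ψ x := by
  simp only [pairK, upd2 h, upd2_i h, update_self, mul_sum]
  rw [rot4]
  refine sum_congr rfl fun e _ => sum_congr rfl fun f _ => ?_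
  rw [← P1k_idem hQ (x i, x j) (e, f)]
  push_cast
  simp only [sum_mul]
  exact sum_congr rfl fun c _ => sum_congr rfl fun d _ => by ring

theorem pairK_comm {i j : Fin N} (h : i ≠ j) (ψ : Vec Q N) (x) :
    pairK j i ψ x = pairK i j ψ x := by
  simp only [pairK]
  rw [sum_comm]
  refine sum_congr rfl fun c _ => sum_congr rfl fun d _ => ?_
  rw [update_comm h.symm, P1k_swap, P1k_symm, P1k_swap, neg_neg, P1k_symm]

theorem pairK_perm {ψ : Vec Q N} (hψ : AntiF ψ) (σ : Equiv.Perm (Fin N)) (i j : Fin N) (x) :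
    pairK i j ψ (x ∘ σ) = ((Equiv.Perm.sign σ : ℤ) : ℂ) * pairK (σ i) (σ j) ψ x := by
  simp only [pairK, mul_sum]
  refine sum_congr rfl fun c _ => sum_congr rfl fun d _ => ?_
  rw [← update_comp_eq_of_injective _ σ.injective, ← update_comp_eq_of_injective _ σ.injective,
    hψ]
  simp only [comp_apply]; ring

theorem two_mul_sum_lt (G : Fin N → Fin N → ℂ) (hG : ∀ i j, i ≠ j → G j i = G i j) :
    2 * ∑ i, ∑ j, (if i < j then G i j else 0) = ∑ i, ∑ j, if i ≠ j then G i j else 0 := by
  have e : ∑ i, ∑ j, (if i < j then G i j else 0) = ∑ i, ∑ j, if j < i then G j i else 0 :=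
    sum_comm
  rw [two_mul]
  nth_rewrite 2 [e]
  rw [← sum_add_distrib]
  refine sum_congr rfl fun i _ => ?_
  rw [← sum_add_distrib]
  refine sum_congr rfl fun j _ => ?_
  rcases lt_trichotomy i j with h | h | h
  · simp [h, h.ne, not_lt_of_gt h]
  · simp [h]
  · simp [h, h.ne', not_lt_of_gt h, hG i j h.ne']

theorem hamK_anti {ψ : Vec Q N} (hψ : AntiF ψ) : AntiF (hamK ψ) := by
  intro σ x
  have h2 : (2 : ℂ) ≠ 0 := two_ne_zero
  apply mul_left_cancel₀ h2
  rw [mul_left_comm]
  unfold hamK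
  rw [two_mul_sum_lt _ fun i j h => pairK_comm h ψ _, two_mul_sum_lt _ fun i j h => pairK_comm h ψ _,
    ← Equiv.sum_comp σ (fun i => ∑ j, if i ≠ j then pairK i j ψ x else 0), mul_sum]
  refine sum_congr rfl fun i _ => ?_
  rw [← Equiv.sum_comp σ (fun j => if σ i ≠ j then pairK (σ i) j ψ x else 0), mul_sum]
  refine sum_congr rfl fun j _ => ?_
  by_cases h : i = j
  · simp [h]
  · have h' : σ i ≠ σ j := fun e => h (σ.injective e)
    rw [if_pos h, if_pos h', pairK_perm hψ]

theorem hamK_adj (φ ψ : Vec Q N) : ∑ x, φ x * hamK ψ x = ∑ x, hamK φ x * ψ x := by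
  simp only [hamK, mul_sum, sum_mul]
  rw [sum_comm]
  conv_rhs => rw [sum_comm]
  refine sum_congr rfl fun i _ => ?_
  rw [sum_comm]
  conv_rhs => rw [sum_comm]
  refine sum_congr rfl fun j _ => ?_
  by_cases h : i < j
  · simp only [h, if_true]; exact pairK_adj h.ne φ ψ
  · simp [h]

theorem hamK_conj (φ : Vec Q N) (x) :
    (starRingEnd ℂ) (hamK φ x) = hamK (fun y => (starRingEnd ℂ) (φ y)) x := by
  simp only [hamK, map_sum]
  refine sum_congr rfl fun i _ => sum_congr rfl fun j _ => ?_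
  split_ifs
  · exact pairK_conj i j φ x
  · simp

theorem totF_anti {ψ : Vec Q N} (hψ : AntiF ψ) : AntiF (totF ψ) := by
  intro σ x
  unfold totF
  rw [← Equiv.sum_comp σ (fun i => ∑ c, (low Q (x i) c : ℂ) * ψ (update x i c)), mul_sum]
  refine sum_congr rfl fun i _ => ?_
  rw [mul_sum]
  refine sum_congr rfl fun c _ => ?_
  rw [← update_comp_eq_of_injective _ σ.injective, hψ]
  simp only [comp_apply]; ring

theorem totE_anti {ψ : Vec Q N} (hψ : AntiF ψ) : AntiF (totE ψ) := by
  intro σ x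
  unfold totE
  rw [← Equiv.sum_comp σ (fun i => ∑ c, (low Q c (x i) : ℂ) * ψ (update x i c)), mul_sum]
  refine sum_congr rfl fun i _ => ?_
  rw [mul_sum]
  refine sum_congr rfl fun c _ => ?_
  rw [← update_comp_eq_of_injective _ σ.injective, hψ]
  simp only [comp_apply]; ring

theorem totF_adj (φ ψ : Vec Q N) : ∑ x, totF φ x * ψ x = ∑ x, φ x * totE ψ x := by
  simp only [totF, totE, mul_sum, sum_mul]
  rw [sum_comm]
  conv_rhs => rw [sum_comm]
  refine sum_congr rfl fun i _ => ?_
  rw [sum_sw1 i]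
  refine sum_congr rfl fun x _ => sum_congr rfl fun c _ => ?_
  simp only [update_self, update_idem, update_eq_self]; ring

theorem totF_conj (φ : Vec Q N) (x) :
    (starRingEnd ℂ) (totF φ x) = totF (fun y => (starRingEnd ℂ) (φ y)) x := by
  simp [totF, map_sum]

/-- Lowering in one slot. -/
noncomputable def one (k : Fin N) (ψ : Vec Q N) : Vec Q N := fun x =>
  ∑ c, (low Q (x k) c : ℂ) * ψ (update x k c)

theorem pairK_one_ne {i j k : Fin N} (hi : k ≠ i) (hj : k ≠ j) (ψ : Vec Q N) (x) :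
    pairK i j (one k ψ) x = one k (pairK i j ψ) x := by
  simp only [pairK, one, mul_sum, update_of_ne hi, update_of_ne hj, update_of_ne hi.symm,
    update_of_ne hj.symm]
  conv_rhs => rw [sum_comm]
  refine sum_congr rfl fun c _ => ?_
  conv_rhs => rw [sum_comm]
  refine sum_congr rfl fun d _ => sum_congr rfl fun e _ => ?_
  rw [update_comm hj.symm, update_comm hi.symm]; ring

theorem pairK_one_eq (hQ : 2 ≤ Q) {i j : Fin N} (h : i ≠ j) (ψ : Vec Q N) (x) :
    pairK i j (one i ψ) x + pairK i j (one j ψ) x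
      = one i (pairK i j ψ) x + one j (pairK i j ψ) x := by
  set Ψ : Fin (Q + 1) → Fin (Q + 1) → ℂ := fun a b => ψ (update (update x i a) j b) with hΨ
  have e1 : pairK i j (one i ψ) x
      = ∑ a, ∑ b, ((∑ c, P1k Q (x i, x j) (c, b) * low Q c a : ℝ) : ℂ) * Ψ a b := by
    simp only [pairK, one, upd2_i h, mul_sum]
    push_cast
    simp only [sum_mul]
    rw [rot3, sum_comm]
    refine sum_congr rfl fun a _ => sum_congr rfl fun b _ => sum_congr rfl fun c _ => ?_
    rw [update_comm h.symm, update_idem]; ring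
  have e2 : pairK i j (one j ψ) x
      = ∑ a, ∑ b, ((∑ c, P1k Q (x i, x j) (a, c) * low Q c b : ℝ) : ℂ) * Ψ a b := by
    simp only [pairK, one, update_self, update_idem, mul_sum]
    push_cast
    simp only [sum_mul]
    refine sum_congr rfl fun a _ => ?_
    rw [sum_comm]
    refine sum_congr rfl fun b _ => sum_congr rfl fun c _ => ?_
    ring
  have e3 : one i (pairK i j ψ) x
      = ∑ a, ∑ b, ((∑ c, low Q (x i) c * P1k Q (c, x j) (a, b) : ℝ) : ℂ) * Ψ a b := by
    simp only [pairK, one, update_self, update_idem, update_of_ne h.symm, mul_sum]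
    push_cast
    simp only [sum_mul]
    rw [rot3]
    refine sum_congr rfl fun a _ => sum_congr rfl fun b _ => sum_congr rfl fun c _ => ?_
    ring
  have e4 : one j (pairK i j ψ) x
      = ∑ a, ∑ b, ((∑ c, low Q (x j) c * P1k Q (x i, c) (a, b) : ℝ) : ℂ) * Ψ a b := by
    simp only [pairK, one, update_self, update_of_ne h, mul_sum]
    push_cast
    simp only [sum_mul]
    rw [rot3]
    refine sum_congr rfl fun a _ => sum_congr rfl fun b _ => sum_congr rfl fun c _ => ?_
    rw [update_comm h.symm, update_idem]; ring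
  rw [e1, e2, e3, e4, ← sum_add_distrib, ← sum_add_distrib]
  refine sum_congr rfl fun a _ => ?_
  rw [← sum_add_distrib, ← sum_add_distrib]
  refine sum_congr rfl fun b _ => ?_
  rw [← add_mul, ← add_mul, ← Complex.ofReal_add, ← Complex.ofReal_add, P1k_low hQ]

theorem pairK_totF (hQ : 2 ≤ Q) {i j : Fin N} (h : i ≠ j) (ψ : Vec Q N) (x) :
    pairK i j (totF ψ) x = totF (pairK i j ψ) x := by
  have e1 : pairK i j (totF ψ) x = ∑ k, pairK i j (one k ψ) x := by
    simp only [pairK, totF, one]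
    conv_rhs => rw [sum_comm]
    refine sum_congr rfl fun c _ => ?_
    conv_rhs => rw [sum_comm]
    refine sum_congr rfl fun d _ => ?_
    rw [mul_sum]
  have e2 : totF (pairK i j ψ) x = ∑ k, one k (pairK i j ψ) x := rfl
  have hj : j ∈ univ.erase i := mem_erase.2 ⟨h.symm, mem_univ j⟩
  rw [e1, e2, ← add_sum_erase _ _ (mem_univ i), ← add_sum_erase _ _ (mem_univ i),
    ← add_sum_erase _ _ hj, ← add_sum_erase _ _ hj, ← add_assoc, ← add_assoc, pairK_one_eq hQ h]
  congr 1
  refine sum_congr rfl fun k hk => ?_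
  exact pairK_one_ne (ne_of_mem_erase (mem_of_mem_erase hk)) (ne_of_mem_erase hk) ψ x

theorem hamK_totF (hQ : 2 ≤ Q) (ψ : Vec Q N) (x) : hamK (totF ψ) x = totF (hamK ψ) x := by
  have e1 : hamK (totF ψ) x = ∑ i, ∑ j, if i < j then totF (pairK i j ψ) x else 0 := by
    refine sum_congr rfl fun i _ => sum_congr rfl fun j _ => ?_
    split_ifs with h
    · exact pairK_totF hQ h.ne ψ x
    · rfl
  rw [e1]
  simp only [totF, hamK, mul_sum]
  rw [rot4]
  refine sum_congr rfl fun i _ => sum_congr rfl fun j _ => ?_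
  split_ifs <;> simp

end Vale.Agent.P359.Sp
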